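import Vale.Agent.P235.Spec

namespace Vale.Agent.P235

open Finset

namespace AlgM

lemma t01 : third 0 1 = 2 := rfl
lemma t02 : third 0 2 = 1 := rfl
lemma t10 : third 1 0 = 2 := rfl
lemma t12 : third 1 2 = 0 := rfl
lemma t20 : third 2 0 = 1 := rfl
lemma t21 : third 2 1 = 0 := rfl

lemma c3 (j : Fin 3) : j = 0 ∨ j = 1 ∨ j = 2 := by fin_cases j <;> simp

lemma one (G w : Fin 3 → ℝ) (l : ℝ) (j : Fin 3) (α : Sl → ℝ) (h : ∑ f, α f = 1) :
    Qf G (push w j α) + 2 * (α (some j) * l) = Qf (newG G w l j) α + en G w l j α := by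
  rw [Fintype.sum_option, Fin.sum_univ_three] at h
  have h' : α none = 1 - α (some 0) - α (some 1) - α (some 2) := by linarith
  rcases c3 j with rfl | rfl | rfl <;>
  · simp [Qf, push, Fintype.sum_option, Fin.sum_univ_three, sd, newG, en, sub, wt, h',
      t01, t02, t10, t12, t20, t21]
    ring

lemma wt_nn {w : Fin 3 → ℝ} (h0 : ∀ c, 0 ≤ w c) (h1 : w 0 + w 1 + w 2 ≤ 1) (ξ : Sl) : 0 ≤ wt w ξ := by
  cases ξ with
  | none => exact sub_nonneg.2 h1
  | some c => exact h0 c

lemma wt_sum (w : Fin 3 → ℝ) : ∑ ξ, wt w ξ = 1 := by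
  rw [Fintype.sum_option, Fin.sum_univ_three]
  simp [wt]

lemma two {w : Fin 3 → ℝ} (j : Fin 3) (h0 : ∀ c, 0 ≤ w c) (h1 : w 0 + w 1 + w 2 ≤ 1) (α : Sl → ℝ)
    (h : Prob α) : Prob (push w j α) := by
  refine ⟨fun g => sum_nonneg fun f _ => mul_nonneg (h.1 f) (sum_nonneg fun ξ _ => ?_), ?_⟩
  · split_ifs
    · exact wt_nn h0 h1 ξ
    · exact le_rfl
  · unfold push
    rw [sum_comm, ← h.2]
    refine sum_congr rfl fun f _ => ?_
    rw [← mul_sum, sum_comm]
    simp only [sum_ite_eq, mem_univ, if_true]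
    rw [wt_sum, mul_one]

lemma red (w : Fin 3 → ℝ) (j : Fin 3) (f : Sl) (F : Sl → ℝ) :
    ∑ g, (∑ ξ, if sub j f ξ = g then wt w ξ else 0) * F g = ∑ ξ, wt w ξ * F (sub j f ξ) := by
  simp_rw [sum_mul]
  rw [sum_comm]
  refine sum_congr rfl fun ξ _ => ?_
  simp only [ite_mul, zero_mul, sum_ite_eq, mem_univ, if_true]

lemma three (G w : Fin 3 → ℝ) (l : ℝ) (j : Fin 3) (a a' : Sl → ℝ) (hw : ∀ c, 0 ≤ w c)
    (h1 : w 0 + w 1 + w 2 ≤ 1) (hl : 0 ≤ l)
    (e1 : ∀ c, c ≠ j → a' (some c) = a (some c))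
    (e2 : ∀ c, c ≠ j → |a' (some j) - a (some c)| ≤ newG G w l j j + newG G w l j c)
    (e3 : |a' (some j) - a (some j)| ≤ l + G j - w j * G j + noise G w j)
    (e4 : |a' (some j) - a none| ≤ newG G w l j j + noise G w j)
    (e5 : ∀ c, c ≠ j → |a' none - a (some c)| ≤ newG G w l j c)
    (e6 : |a' none - a none| ≤ noise G w j) (f : Sl) :
    ∑ ξ, wt w ξ * |a' f - a (sub j f ξ)| ≤ en G w l j (fun g => if g = f then 1 else 0) := by
  have hn : 0 ≤ 1 - (w 0 + w 1 + w 2) := sub_nonneg.2 h1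
  have m2 := fun c hc => mul_le_mul_of_nonneg_left (e2 c hc) (hw c)
  have m3 := mul_le_mul_of_nonneg_left e3 (hw j)
  have m4 := mul_le_mul_of_nonneg_left e4 hn
  have m5 := fun c hc => mul_le_mul_of_nonneg_left (e5 c hc) (hw c)
  have m6 := mul_le_mul_of_nonneg_left e6 hn
  have m7 := mul_le_mul_of_nonneg_left e6 (hw j)
  rcases f with _ | c
  · rcases c3 j with rfl | rfl | rfl
    · have x1 := m5 1 (by decide)
      have x2 := m5 2 (by decide)
      simp [Fintype.sum_option, Fin.sum_univ_three, newG, noise, en, sub, wt,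
        t10, t20] at x1 x2 m6 m7 ⊢
      linarith
    · have x1 := m5 0 (by decide)
      have x2 := m5 2 (by decide)
      simp [Fintype.sum_option, Fin.sum_univ_three, newG, noise, en, sub, wt,
        t01, t21] at x1 x2 m6 m7 ⊢
      linarith
    · have x1 := m5 0 (by decide)
      have x2 := m5 1 (by decide)
      simp [Fintype.sum_option, Fin.sum_univ_three, newG, noise, en, sub, wt,
        t02, t12] at x1 x2 m6 m7 ⊢
      linarith
  · by_cases hc : c = j
    · subst hc
      rcases c3 c with rfl | rfl | rfl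
      · have x1 := m2 1 (by decide)
        have x2 := m2 2 (by decide)
        simp [Fintype.sum_option, Fin.sum_univ_three, newG, noise, en, sub, wt,
          t10, t20] at x1 x2 m3 m4 ⊢
        linarith
      · have x1 := m2 0 (by decide)
        have x2 := m2 2 (by decide)
        simp [Fintype.sum_option, Fin.sum_univ_three, newG, noise, en, sub, wt,
          t01, t21] at x1 x2 m3 m4 ⊢
        linarith
      · have x1 := m2 0 (by decide)
        have x2 := m2 1 (by decide)
        simp [Fintype.sum_option, Fin.sum_univ_three, newG, noise, en, sub, wt,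
          t02, t12] at x1 x2 m3 m4 ⊢
        linarith
    · have : ∀ ξ, sub j (some c) ξ = some c := fun ξ => by simp [sub, hc]
      have hc' : j ≠ c := fun e => hc e.symm
      simp [this, e1 c hc, en, hc']

end AlgM

theorem algS : StmtAlg := by
  intro G w l j
  refine ⟨AlgM.one G w l j, AlgM.two j, fun a a' _ hw h1 hl e1 e2 e3 e4 e5 e6 f => ?_⟩
  rw [AlgM.red w j f (fun g => |a' f - a g|)]
  exact AlgM.three G w l j a a' hw h1 hl e1 e2 e3 e4 e5 e6 f

end Vale.Agent.P235
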