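import Vale.Agent.P235.Spec

namespace Vale.Agent.P235.Ap16

open Finset

theorem sum_prod {ι : Type} [Fintype ι] [DecidableEq ι] (g : ι → Bool → ℝ) :
    ∑ η : ι → Bool, ∏ i, g i (η i) = ∏ i, (g i true + g i false) := by
  have := Finset.prod_univ_sum (fun _ : ι => (univ : Finset Bool)) g
  rw [Fintype.piFinset_univ] at this
  rw [← this]
  exact Finset.prod_congr rfl fun i _ => by simp

noncomputable def cd {ι V : Type} [Fintype ι] (a : ι → ℝ) (c : ι → V → Bool) (u v : V) : ℝ :=
  ∑ i, a i * if c i u = c i v then 0 else 1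

theorem cd_nn {ι V : Type} [Fintype ι] {a : ι → ℝ} (ha : ∀ i, 0 ≤ a i) (c : ι → V → Bool)
    (u v : V) : 0 ≤ cd a c u v :=
  sum_nonneg fun i _ => mul_nonneg (ha i) (by split_ifs <;> norm_num)

theorem scale {ι V : Type} [Fintype ι] [DecidableEq ι] (a : ι → ℝ) (ha : ∀ i, 0 ≤ a i)
    (c : ι → V → Bool) (M : ℝ) (hM : 0 < M) (t : V → ℝ) (ht : ∀ u, 0 ≤ t u) :
    ∃ φ : V → (ι → Bool) → ℝ, ∀ u v, ∑ η, |φ u η - φ v η| =
      (1 + Real.exp (-(cd a c u v / M))) / 2 * |t u - t v| +
      (1 - Real.exp (-(cd a c u v / M))) / 2 * (t u + t v) := by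
  set q : ι → ℝ := fun i => (1 - Real.exp (-(a i / M))) / 2 with hq
  have q0 : ∀ i, 0 ≤ q i ∧ 0 ≤ 1 - q i := fun i => by
    have h1 : Real.exp (-(a i / M)) ≤ 1 :=
      Real.exp_le_one_iff.2 (neg_nonpos.2 (div_nonneg (ha i) hM.le))
    have h2 := Real.exp_pos (-(a i / M))
    simp only [hq]
    constructor <;> linarith
  set w : (ι → Bool) → ℝ := fun η => ∏ i, if η i then q i else 1 - q i with hw
  set e : (ι → Bool) → V → ℝ := fun η u => ∏ i, if (η i && c i u) then -1 else 1 with he
  have w0 : ∀ η, 0 ≤ w η := fun η => prod_nonneg fun i _ => by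
    split_ifs
    exacts [(q0 i).1, (q0 i).2]
  have e1 : ∀ η u, e η u = 1 ∨ e η u = -1 := fun η u => by
    have : e η u * e η u = 1 := by
      simp only [he]
      rw [← prod_mul_distrib]
      exact prod_eq_one fun i _ => by split_ifs <;> norm_num
    exact mul_self_eq_one_iff.1 this
  have s1 : ∑ η, w η = 1 := by
    simp only [hw]
    rw [sum_prod (fun i b => if b then q i else 1 - q i)]
    simp
  have s2 : ∀ u v, ∑ η, w η * (e η u * e η v) = Real.exp (-(cd a c u v / M)) := fun u v => by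
    simp only [hw, he, ← prod_mul_distrib]
    rw [sum_prod (fun i b => (if b then q i else 1 - q i) *
      ((if (b && c i u) then -1 else 1) * if (b && c i v) then -1 else 1)), cd, sum_div,
      ← sum_neg_distrib, Real.exp_sum]
    refine prod_congr rfl fun i _ => ?_
    cases c i u <;> cases c i v <;> simp [hq] <;> ring
  refine ⟨fun u η => w η * (e η u * t u), fun u v => ?_⟩
  have : ∀ η, |w η * (e η u * t u) - w η * (e η v * t v)| =
      (|t u - t v| + (t u + t v)) / 2 * w η +
      (|t u - t v| - (t u + t v)) / 2 * (w η * (e η u * e η v)) := fun η => by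
    rw [← mul_sub, abs_mul, abs_of_nonneg (w0 η)]
    have hs : |t u + t v| = t u + t v := abs_of_nonneg (add_nonneg (ht u) (ht v))
    rcases e1 η u with h | h <;> rcases e1 η v with h' | h' <;> rw [h, h']
    · rw [one_mul, one_mul]; ring
    · rw [show 1 * t u - -1 * t v = t u + t v by ring, hs]; ring
    · rw [show -1 * t u - 1 * t v = -(t u + t v) by ring, abs_neg, hs]; ring
    · rw [show -1 * t u - -1 * t v = -(t u - t v) by ring, abs_neg]; ring
  simp only [this, sum_add_distrib, ← mul_sum, s1, s2]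
  ring

noncomputable def tent (j : ℤ) (r : ℝ) : ℝ := max 0 ((2 : ℝ) ^ j - |r - 2 * 2 ^ j|)

theorem tent_supp {j : ℤ} {r : ℝ} (h : tent j r ≠ 0) :
    (j = Int.log 2 r - 1 ∨ j = Int.log 2 r) ∧ (2 : ℝ) ^ j < r := by
  have h1 : 0 < (2 : ℝ) ^ j - |r - 2 * 2 ^ j| := by
    by_contra h'
    exact h (max_eq_left (not_lt.1 h'))
  have hp : (0 : ℝ) < 2 ^ j := zpow_pos two_pos j
  have h2 := abs_lt.1 (show |r - 2 * 2 ^ j| < (2 : ℝ) ^ j by linarith)
  have hr : 0 < r := by linarith [h2.1]
  have a1 : j ≤ Int.log 2 r := (Int.zpow_le_iff_le_log (by norm_num) hr).1 (by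
    push_cast; linarith [h2.1])
  have a2 : Int.log 2 r < j + 2 := (Int.lt_zpow_iff_log_lt (by norm_num) hr).1 (by
    push_cast
    rw [zpow_add₀ two_ne_zero]
    norm_num
    linarith [h2.2])
  exact ⟨by omega, by linarith [h2.1]⟩

theorem tent_lip (j : ℤ) (r s : ℝ) : |tent j r - tent j s| ≤ |r - s| := by
  unfold tent
  rw [max_comm 0, max_comm 0]
  refine (abs_max_sub_max_le_abs _ _ _).trans ?_
  have := abs_abs_sub_abs_le_abs_sub (s - 2 * 2 ^ j) (r - 2 * 2 ^ j)
  rw [show s - 2 * 2 ^ j - (r - 2 * 2 ^ j) = -(r - s) by ring, abs_neg] at this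
  rwa [show (2 : ℝ) ^ j - |r - 2 * 2 ^ j| - (2 ^ j - |s - 2 * 2 ^ j|) =
    |s - 2 * 2 ^ j| - |r - 2 * 2 ^ j| by ring]

theorem tent_le (j : ℤ) (r : ℝ) : tent j r ≤ 2 ^ j :=
  max_le (zpow_pos two_pos j).le (by linarith [abs_nonneg (r - 2 * 2 ^ j)])

theorem sum4 (J : Finset ℤ) (F : ℤ → ℝ) (B : ℝ) (hB : 0 ≤ B) (x y : ℤ) (h : ∀ j, F j ≤ B)
    (h0 : ∀ j, F j ≠ 0 → j ∈ ({x - 1, x, y - 1, y} : Finset ℤ)) : ∑ j ∈ J, F j ≤ 4 * B := by
  rw [← sum_filter_of_ne (p := fun j => j ∈ ({x - 1, x, y - 1, y} : Finset ℤ))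
    fun j _ hj => h0 j hj]
  refine (sum_le_card_nsmul _ _ B fun j _ => h j).trans ?_
  have : (J.filter fun j => j ∈ ({x - 1, x, y - 1, y} : Finset ℤ)).card ≤ 4 :=
    (card_le_card fun j hj => (mem_filter.1 hj).2).trans card_le_four
  rw [nsmul_eq_mul]
  exact mul_le_mul_of_nonneg_right (by exact_mod_cast this) hB

theorem low1 (x : ℝ) (hx : 0 ≤ x) : min x 1 / 2 ≤ 1 - Real.exp (-x) := by
  have h1 : Real.exp (-x) ≤ Real.exp (-min x 1) := Real.exp_le_exp.2 (neg_le_neg (min_le_left _ _))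
  have h0 : 0 ≤ min x 1 := le_min hx zero_le_one
  have h2 : min x 1 ≤ 1 := min_le_right _ _
  generalize min x 1 = y at *
  have h3 : Real.exp (-y) * (1 + y) ≤ 1 := by
    have := Real.add_one_le_exp y
    calc Real.exp (-y) * (1 + y) ≤ Real.exp (-y) * Real.exp y :=
          mul_le_mul_of_nonneg_left (by linarith) (Real.exp_pos _).le
      _ = 1 := by rw [← Real.exp_add]; simp
  nlinarith [Real.exp_pos (-y)]

theorem apex {ι V : Type} [Fintype ι] [DecidableEq ι] [Fintype V] [DecidableEq V]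
    (a : ι → ℝ) (ha : ∀ i, 0 ≤ a i) (c : ι → V → Bool) (d : V → V → ℝ) (hd : PM d)
    (S : Finset V) (hS : S.Nonempty) (C : ℝ) (hC : 0 ≤ C)
    (hl : ∀ u v, u ∉ S → v ∉ S → d u v ≤ cd a c u v) :
    ∃ (κ : Type) (_ : Fintype κ) (φ : V → κ → ℝ), ∀ u v,
      d u v ≤ 128 * ∑ k, |φ u k - φ v k| ∧
      ((u ∈ S ∨ v ∈ S ∨ cd a c u v ≤ C * d u v) →
        ∑ k, |φ u k - φ v k| ≤ (S.card + 4 + 4 * C) * d u v) := by
  obtain ⟨d0, ds, dn, dt⟩ := hd
  set r : V → ℝ := fun u => S.inf' hS fun s => d u s with hr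
  have rle : ∀ u, ∀ s ∈ S, r u ≤ d u s := fun u s hs => inf'_le _ hs
  have rex : ∀ u, ∃ s ∈ S, r u = d u s := fun u => exists_mem_eq_inf' hS _
  have rlip : ∀ u v, |r u - r v| ≤ d u v := fun u v => by
    obtain ⟨s, hs, e⟩ := rex u
    obtain ⟨s', hs', e'⟩ := rex v
    have := rle u s' hs'
    have := rle v s hs
    have := dt u v s'
    have := dt v u s
    have := ds u v
    rw [abs_le]
    constructor <;> linarith
  have r0 : ∀ u ∈ S, ∀ j, tent j (r u) = 0 := fun u hu j => by
    by_contra h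
    have h1 := (tent_supp h).2
    have h2 := rle u u hu
    rw [d0] at h2
    linarith [zpow_pos (two_pos : (0 : ℝ) < 2) j]
  have tn : ∀ j x, 0 ≤ tent j x := fun j x => le_max_left _ _
  choose ψ hψ using fun j : ℤ => scale a ha c (2 ^ j) (zpow_pos two_pos j) (fun u => tent j (r u))
    fun u => tn j _
  set J : Finset ℤ := univ.image fun v => Int.log 2 (3 * r v / 4) with hJ
  refine ⟨S ⊕ (J × (ι → Bool)), inferInstance,
    fun u => Sum.elim (fun s => d u s) fun p => ψ p.1 u p.2, fun u v => ?_⟩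
  have e : ∑ k : S ⊕ (J × (ι → Bool)), |Sum.elim (fun s : S => d u s) (fun p => ψ p.1 u p.2) k -
      Sum.elim (fun s : S => d v s) (fun p => ψ p.1 v p.2) k| =
      ∑ s ∈ S, |d u s - d v s| + ∑ j ∈ J, ∑ η, |ψ j u η - ψ j v η| := by
    rw [Fintype.sum_sum_type, Fintype.sum_prod_type]
    simp only [Sum.elim_inl, Sum.elim_inr]
    rw [sum_coe_sort S fun s => |d u s - d v s|,
      sum_coe_sort J fun j => ∑ η, |ψ j u η - ψ j v η|]
  rw [e]
  have n1 : 0 ≤ ∑ s ∈ S, |d u s - d v s| := sum_nonneg fun _ _ => abs_nonneg _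
  have n2 : 0 ≤ ∑ j ∈ J, ∑ η, |ψ j u η - ψ j v η| :=
    sum_nonneg fun _ _ => sum_nonneg fun _ _ => abs_nonneg _
  have D0 := cd_nn ha c u v
  have ρ : ∀ j : ℤ, 0 < Real.exp (-(cd a c u v / 2 ^ j)) ∧ Real.exp (-(cd a c u v / 2 ^ j)) ≤ 1 :=
    fun j => ⟨Real.exp_pos _,
      Real.exp_le_one_iff.2 (neg_nonpos.2 (div_nonneg D0 (zpow_pos two_pos j).le))⟩
  constructor
  · by_cases h : ∃ s ∈ S, d u v / 2 < |d u s - d v s|
    · obtain ⟨s, hs, h⟩ := h
      have := single_le_sum (f := fun s => |d u s - d v s|) (fun _ _ => abs_nonneg _) hs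
      have := dn u v
      linarith
    · push Not at h
      rcases (dn u v).eq_or_lt with h0 | h0
      · linarith
      have hu : u ∉ S := fun hu => by
        have := (abs_le.1 (h u hu)).1
        rw [d0, ds v u] at this
        linarith
      have hv : v ∉ S := fun hv => by
        have := (abs_le.1 (h v hv)).2
        rw [d0] at this
        linarith
      obtain ⟨s, hs, es⟩ := rex v
      have rv : d u v / 4 ≤ r v := by
        have := (abs_le.1 (h s hs)).2
        have := dt u s v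
        have := ds s v
        linarith
      have hp : 0 < 3 * r v / 4 := by linarith
      set j := Int.log 2 (3 * r v / 4) with hj
      have hjJ : j ∈ J := mem_image.2 ⟨v, mem_univ _, rfl⟩
      have a1 : (2 : ℝ) ^ j ≤ 3 * r v / 4 := by
        exact_mod_cast Int.zpow_log_le_self (b := 2) (by norm_num) hp
      have a2 : 3 * r v / 4 < (2 : ℝ) ^ (j + 1) := by
        exact_mod_cast Int.lt_zpow_succ_log_self (b := 2) (by norm_num) (3 * r v / 4)
      rw [zpow_add_one₀ two_ne_zero] at a2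
      have hM : (0 : ℝ) < 2 ^ j := zpow_pos two_pos j
      have t1 : 2 ^ j / 3 ≤ tent j (r v) := by
        refine le_trans ?_ (le_max_right _ _)
        have : |r v - 2 * 2 ^ j| ≤ 2 / 3 * 2 ^ j := abs_le.2 ⟨by linarith, by linarith⟩
        linarith
      have b1 := single_le_sum (f := fun j => ∑ η, |ψ j u η - ψ j v η|)
        (fun _ _ => sum_nonneg fun _ _ => abs_nonneg _) hjJ
      have b2 := low1 (cd a c u v / 2 ^ j) (div_nonneg D0 hM.le)
      have b3 : d u v / 128 * 12 ≤ min (cd a c u v / 2 ^ j) 1 * 2 ^ j := by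
        rw [min_mul_of_nonneg _ _ hM.le, div_mul_cancel₀ _ hM.ne']
        have := hl u v hu hv
        exact le_min (by linarith) (by linarith)
      have b4 := hψ j u v
      have b5 := ρ j
      have b6 := tn j (r u)
      have b7 : 0 ≤ min (cd a c u v / 2 ^ j) 1 := le_min (div_nonneg D0 hM.le) zero_le_one
      generalize Real.exp (-(cd a c u v / 2 ^ j)) = x at *
      generalize min (cd a c u v / 2 ^ j) 1 = y at *
      have b8 : 0 ≤ (1 + x) / 2 * |tent j (r u) - tent j (r v)| :=
        mul_nonneg (by linarith) (abs_nonneg _)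
      have b9 : y / 2 / 2 * (2 ^ j / 3) ≤ (1 - x) / 2 * (tent j (r u) + tent j (r v)) :=
        mul_le_mul (by linarith) (by linarith) (by linarith) (by linarith)
      nlinarith
  · intro h
    have c1 : ∑ s ∈ S, |d u s - d v s| ≤ S.card * d u v := by
      refine (sum_le_card_nsmul _ _ (d u v) fun s _ => ?_).trans (by rw [nsmul_eq_mul])
      have := dt u v s
      have := dt v u s
      have := ds u v
      rw [abs_le]
      constructor <;> linarith
    have c2 : ∑ j ∈ J, ∑ η, |ψ j u η - ψ j v η| ≤ 4 * (d u v + C * d u v) := by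
      have hCd := mul_nonneg hC (dn u v)
      refine sum4 J _ _ (add_nonneg (dn u v) hCd) (Int.log 2 (r u)) (Int.log 2 (r v))
        (fun j => ?_) fun j hj => ?_
      · rw [hψ j u v]
        have b5 := ρ j
        have l1 := (tent_lip j (r u) (r v)).trans (rlip u v)
        have hM : (0 : ℝ) < 2 ^ j := zpow_pos two_pos j
        have b6 := tn j (r u)
        have b7 := tn j (r v)
        rcases h with h | h | h
        · simp only [r0 u h j, zero_sub, abs_neg, zero_add, abs_of_nonneg b7] at l1 ⊢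
          linarith
        · simp only [r0 v h j, sub_zero, add_zero, abs_of_nonneg b6] at l1 ⊢
          linarith
        · have x1 := Real.add_one_le_exp (-(cd a c u v / 2 ^ j))
          have x2 : (1 - Real.exp (-(cd a c u v / 2 ^ j))) / 2 * (tent j (r u) + tent j (r v)) ≤
              cd a c u v / 2 ^ j / 2 * (2 * 2 ^ j) :=
            mul_le_mul (by linarith) (by linarith [tent_le j (r u), tent_le j (r v)])
              (by linarith) (by positivity)
          have x3 : cd a c u v / 2 ^ j / 2 * (2 * 2 ^ j) = cd a c u v := by field_simp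
          have x4 : (1 + Real.exp (-(cd a c u v / 2 ^ j))) / 2 * |tent j (r u) - tent j (r v)| ≤
              1 * d u v := mul_le_mul (by linarith) l1 (abs_nonneg _) zero_le_one
          linarith
      · rw [hψ j u v] at hj
        simp only [mem_insert, mem_singleton]
        by_cases h1 : tent j (r u) = 0
        · by_cases h2 : tent j (r v) = 0
          · simp [h1, h2] at hj
          · have := (tent_supp h2).1
            tauto
        · have := (tent_supp h1).1
          tauto
    linarith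

end Vale.Agent.P235.Ap16
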