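import Vale.Agent.P235.Spec

namespace Vale.Agent.P235

open MeasureTheory Finset

namespace EmbM

theorem lin_sum {Ω ι : Type} (I : (Ω → ℝ) → ℝ)
    (h : ∀ (F F' : Ω → ℝ) (a b : ℝ), I (fun ω => a * F ω + b * F' ω) = a * I F + b * I F')
    (s : Finset ι) (c : ι → ℝ) (F : ι → Ω → ℝ) :
    I (fun ω => ∑ i ∈ s, c i * F i ω) = ∑ i ∈ s, c i * I (F i) := by
  classical
  induction s using Finset.induction_on with
  | empty =>
    have := h (fun _ => 0) (fun _ => 0) 0 0
    simpa using this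
  | insert i s hi ih =>
    have := h (F i) (fun ω => ∑ i ∈ s, c i * F i ω) (c i) 1
    simp only [Finset.sum_insert hi]
    rw [← ih]
    simpa using this

theorem repr {Ω : Type} [Fintype Ω] [DecidableEq Ω] (I : (Ω → ℝ) → ℝ)
    (h : ∀ (F F' : Ω → ℝ) (a b : ℝ), I (fun ω => a * F ω + b * F' ω) = a * I F + b * I F')
    (F : Ω → ℝ) : I F = ∑ η, F η * I (fun ω => if ω = η then 1 else 0) := by
  rw [← lin_sum I h univ F (fun η ω => if ω = η then 1 else 0)]
  congr 1
  funext ω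
  simp

theorem exists_emb {Ω V : Type} [Fintype Ω] (φ : V → Ω → ℝ) :
    ∃ (_ : MeasurableSpace Ω) (μ : Measure Ω) (f : V → Lp ℝ 1 μ),
      ∀ u v, ‖f u - f v‖ = ∑ ω, |φ u ω - φ v ω| := by
  let _ : MeasurableSpace Ω := ⊤
  have hm : ∀ u, MemLp (φ u) 1 (Measure.count : Measure Ω) := fun u => MemLp.of_discrete
  refine ⟨inferInstance, Measure.count, fun u => (hm u).toLp (φ u), fun u v => ?_⟩
  rw [← MemLp.toLp_sub, L1.norm_eq_integral_norm,
    integral_congr_ae (g := fun ω => |φ u ω - φ v ω|), integral_count]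
  filter_upwards [MemLp.coeFn_toLp ((hm u).sub (hm v))] with ω hω
  rw [hω]
  simp

end EmbM

open EmbM in
theorem embS (hI : StmtInt) : StmtEmb := by
  intro V _ _ B d C S a ha
  obtain ⟨h1, h2, -⟩ := hI V B d C S
  have hp : ∀ η : V → Bool, 0 ≤ S.I B.n (fun ω => if ω = η then 1 else 0) := fun η => by
    have h0 : S.I B.n (fun _ => 0) = 0 := by
      simpa using h2 B.n (fun _ => 0) (fun _ => 0) 0 0
    refine h0.symm.le.trans (h1 B.n le_rfl _ _ fun ω => ?_)
    split_ifs <;> norm_num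
  obtain ⟨m, μ, f, hf⟩ := exists_emb (Ω := V → Bool) (V := V)
    (fun u η => if η u then a * S.I B.n (fun ω => if ω = η then 1 else 0) else 0)
  refine ⟨V → Bool, m, μ, f, fun u v => ?_⟩
  rw [hf, Strat.D, repr (S.I B.n) (h2 B.n), Finset.mul_sum]
  refine Finset.sum_congr rfl fun η _ => ?_
  have hq := mul_nonneg ha (hp η)
  cases hu : η u <;> cases hv : η v <;> simp [abs_of_nonneg hq]

end Vale.Agent.P235
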