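import Vale.Agent.P235.Ap16
import Vale.Agent.P235.Emb

namespace Vale.Agent.P235.Ap16

open Finset

theorem cuts (hG : StmtGame) (hT : StmtTD) (hR : StmtRec) (hI : StmtInt) (hD : StmtDis)
    (hL : StmtLB) : ∃ C : ℝ, 0 ≤ C ∧ ∀ (V : Type) [Fintype V] [DecidableEq V] (G : SimpleGraph V)
    (S : Finset V) (d : V → V → ℝ), PM d → TwLe (G.induce {v | v ∉ S}) 3 →
    ∃ (ι : Type) (_ : Fintype ι) (a : ι → ℝ) (c : ι → V → Bool), (∀ i, 0 ≤ a i) ∧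
      ∀ u v, u ∉ S → v ∉ S → d u v ≤ cd a c u v ∧ (G.Adj u v → cd a c u v ≤ C * d u v) := by
  classical
  obtain ⟨C, hC, hg⟩ := hG
  obtain ⟨C₂, hC₂, hl⟩ := hL
  refine ⟨C₂ * C, mul_nonneg hC₂.le hC, fun V _ _ G S d hd htw => ?_⟩
  by_cases hne : Nonempty {v | v ∉ S}
  swap
  · exact ⟨Empty, inferInstance, fun _ => 0, fun _ _ => false, fun _ => le_rfl,
      fun u _ hu _ => absurd ⟨⟨u, hu⟩⟩ hne⟩
  obtain ⟨B, hB⟩ := hT _ _ htw
  have hpm : PM fun u v : {v | v ∉ S} => d u v :=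
    ⟨fun _ => hd.1 _, fun _ _ => hd.2.1 _ _, fun _ _ => hd.2.2.1 _ _, fun _ _ _ => hd.2.2.2 _ _ _⟩
  obtain ⟨T⟩ := hR _ B _ C hpm hg
  obtain ⟨h1, h2, -⟩ := hI _ B _ C T
  have hD2 := (hD _ B _ C T hpm).2.1
  have hp : ∀ η : {v | v ∉ S} → Bool, 0 ≤ T.I B.n (fun ω => if ω = η then 1 else 0) := fun η => by
    have h0 : T.I B.n (fun _ => 0) = 0 := by
      simpa using h2 B.n (fun _ => 0) (fun _ => 0) 0 0
    refine h0.symm.le.trans (h1 B.n le_rfl _ _ fun ω => ?_)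
    split_ifs <;> norm_num
  refine ⟨{v | v ∉ S} → Bool, inferInstance,
    fun η => C₂ * T.I B.n (fun ω => if ω = η then 1 else 0),
    fun η u => if h : u ∉ S then η ⟨u, h⟩ else false, fun η => mul_nonneg hC₂.le (hp η),
    fun u v hu hv => ?_⟩
  have e : cd (fun η => C₂ * T.I B.n (fun ω => if ω = η then 1 else 0))
      (fun η u => if h : u ∉ S then η ⟨u, h⟩ else false) u v =
      C₂ * T.D B.n (fun ω => ω ⟨u, hu⟩) (fun ω => ω ⟨v, hv⟩) := by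
    rw [cd, Strat.D, EmbM.repr (T.I B.n) (h2 B.n), Finset.mul_sum]
    refine Finset.sum_congr rfl fun η _ => ?_
    rw [dif_pos hu, dif_pos hv]
    ring
  rw [e]
  refine ⟨hl _ B _ C T hpm ⟨u, hu⟩ ⟨v, hv⟩, fun h => ?_⟩
  rw [mul_assoc]
  exact mul_le_mul_of_nonneg_left (hD2 _ _ (hB ⟨u, hu⟩ ⟨v, hv⟩ h)) hC₂.le

theorem main (hG : StmtGame) (hT : StmtTD) (hM : StmtMet) (hR : StmtRec) (hI : StmtInt)
    (hD : StmtDis) (hL : StmtLB) : ∃ C : ℝ, ∀ (k : ℕ) (V : Type) [Fintype V] (G : SimpleGraph V),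
    G.Connected → (∃ S : Finset V, S.card ≤ k ∧ TwLe (G.induce {v | v ∉ S}) 3) →
    ∀ ℓ : Sym2 V → ℝ, (∀ e ∈ G.edgeSet, 0 < ℓ e) → EmbL1 (gdist G ℓ) (C + 128 * k) := by
  classical
  obtain ⟨C, hC, h⟩ := cuts hG hT hR hI hD hL
  refine ⟨128 * (5 + 4 * C), fun k V _ G hc ⟨S, hk, htw⟩ ℓ hℓ => ?_⟩
  obtain ⟨hpm, hup⟩ := hM V G ℓ hc hℓ
  obtain ⟨ι, _, a, c, ha, hac⟩ := h V G S _ hpm htw
  obtain ⟨z⟩ := hc.nonempty
  have hn : ∀ u, u ∉ insert z S → u ∉ S := fun u hu h => hu (mem_insert_of_mem h)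
  obtain ⟨κ, _, φ, hφ⟩ := apex a ha c _ hpm (insert z S) (insert_nonempty z S) C hC
    fun u v hu hv => (hac u v (hn u hu) (hn v hv)).1
  have hk' : ((insert z S).card : ℝ) ≤ k + 1 := by
    exact_mod_cast (card_insert_le z S).trans (Nat.succ_le_succ hk)
  have hP : PM fun u v => ∑ i, |φ u i - φ v i| :=
    ⟨fun u => by simp, fun u v => sum_congr rfl fun i _ => abs_sub_comm _ _,
      fun u v => sum_nonneg fun _ _ => abs_nonneg _, fun u v z => by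
        rw [← sum_add_distrib]
        exact sum_le_sum fun i _ => abs_sub_le _ _ _⟩
  have hle := hup _ (k + 5 + 4 * C) (by positivity) hP fun u v huv => by
    refine ((hφ u v).2 ?_).trans (mul_le_mul_of_nonneg_right (by linarith) (hpm.2.2.1 u v))
    by_cases hu : u ∈ insert z S
    · exact Or.inl hu
    by_cases hv : v ∈ insert z S
    · exact Or.inr (Or.inl hv)
    exact Or.inr (Or.inr ((hac u v (hn u hu) (hn v hv)).2 huv))
  obtain ⟨m, μ, f, hf⟩ := EmbM.exists_emb (Ω := κ) (V := V) fun u i => 128 * φ u i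
  refine ⟨κ, m, μ, f, fun x y => ?_⟩
  have e : ‖f x - f y‖ = 128 * ∑ i, |φ x i - φ y i| := by
    rw [hf, mul_sum]
    refine sum_congr rfl fun i _ => ?_
    rw [← mul_sub, abs_mul, abs_of_pos (by norm_num : (0 : ℝ) < 128)]
  rw [e]
  refine ⟨(hφ x y).1, ?_⟩
  have := hle x y
  linarith

end Vale.Agent.P235.Ap16
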