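import Vale.Agent.P235.CSpec

namespace Vale.Agent.P235

theorem spl {C : List Fm} {h : Fm} {t1 t2 : TT} (h1 : chkT (h :: C) t1 = true)
    (h2 : chkT (fsm (-1) h :: C) t2 = true) : chkT C (.split h t1 t2) = true := by
  rw [chkT, h1, h2]; rfl

theorem wsp {C : List Fm} {b : ℕ} {t1 t2 t3 : TT} (hb : b < 3) (h1 : chkT (wpar b 2 :: C) t1 = true)
    (h2 : chkT (wpar b 0 :: fsm (-1) (wpar b 2) :: C) t2 = true)
    (h3 : chkT (wpar b 1 :: fsm (-1) (wpar b 0) :: fsm (-1) (wpar b 2) :: C) t3 = true) :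
    chkT C (.w b t1 t2 t3) = true := by
  rw [chkT, h1, h2, h3, decide_eq_true hb]; rfl

theorem splE {C : List Fm} {h : Fm} (h1 : ∃ t, chkT (h :: C) t = true)
    (h2 : ∃ t, chkT (fsm (-1) h :: C) t = true) : ∃ t, chkT C t = true :=
  ⟨_, spl h1.choose_spec h2.choose_spec⟩

end Vale.Agent.P235
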