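import Vale.Agent.P235.Spec

namespace Vale.Agent.P235

open Finset

namespace ChainM

def dl (f : Sl) : Sl → ℝ := fun g => if g = f then 1 else 0

def SOK (K : Sl → Sl → ℝ) (h h' : Sl → ℝ) (Q Q' e : (Sl → ℝ) → ℝ) : Prop :=
  (∀ f, Prob (K f)) ∧
  (∀ α, Prob α → Q' (fun g => ∑ f, α f * K f g) ≤ Q α + e α) ∧
  (∀ α : Sl → ℝ, (∀ f, 0 ≤ α f) → 0 ≤ e α) ∧
  (∀ (α β : Sl → ℝ) (c : ℝ), 0 ≤ c → (∀ f, 0 ≤ α f) → (∀ f, c * α f ≤ β f) →
      c ^ 2 * e α ≤ e β) ∧
  (∀ f, ∑ g, K f g * |h f - h' g| ≤ e (dl f))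

def NOK (h : Sl → ℝ) (Q : (Sl → ℝ) → ℝ) : Prop :=
  (∀ α, Prob α → ∑ f, ∑ g, α f * α g * |h f - h g| ≤ Q α) ∧ ∀ f, Q (dl f) ≤ 0

theorem prob_dl (f : Sl) : Prob (dl f) := by
  refine ⟨fun g => ?_, ?_⟩
  · unfold dl; split_ifs <;> norm_num
  · simp [dl]

theorem evol_congr (K K' : ℕ → Sl → Sl → ℝ) (α : Sl → ℝ) (t : ℕ) (h : ∀ l, l < t → K l = K' l) :
    evol K 0 α t = evol K' 0 α t := by
  induction t with
  | zero => rfl
  | succ t ih =>
    have h1 := ih (fun l hl => h l (by omega))
    have h2 := h t (by omega)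
    funext g
    simp only [evol, h1, zero_add, h2]

theorem sok_id (h : Sl → ℝ) (Q : (Sl → ℝ) → ℝ) : SOK dl h h Q Q (fun _ => 0) := by
  refine ⟨prob_dl, fun α _ => ?_, fun _ _ => le_rfl, fun _ _ _ _ _ _ => by simp, fun f => ?_⟩
  · have : (fun g => ∑ f, α f * dl f g) = α := by
      funext g
      simp [dl]
    rw [this]; simp
  · apply le_of_eq
    apply Finset.sum_eq_zero
    intro g _
    by_cases hg : g = f
    · subst hg; simp
    · simp [dl, hg]

theorem low_fin (hL : StmtLow) : ∃ C₁ : ℝ, 0 ≤ C₁ ∧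
    ∀ (t : ℕ) (K : ℕ → Sl → Sl → ℝ) (h : ℕ → Sl → ℝ) (Q e : ℕ → (Sl → ℝ) → ℝ),
      (∀ l, l < t → SOK (K l) (h l) (h (l + 1)) (Q l) (Q (l + 1)) (e l)) →
      (∀ l, l ≤ t → NOK (h l) (Q l)) →
      ∀ u v, 1 / 4 ≤ evol K 0 (dl u) t v →
        |h 0 u - h t v| ≤ C₁ * ∑ r ∈ range t, e r (evol K 0 (dl u) r) := by
  obtain ⟨C₁, hC, H⟩ := hL Sl (1 / 4) (by norm_num)
  refine ⟨C₁, hC, fun t K h Q e hS hN u v hv => ?_⟩
  set K' : ℕ → Sl → Sl → ℝ := fun l => if l < t then K l else dl with hK'
  set e' : ℕ → (Sl → ℝ) → ℝ := fun l => if l < t then e l else fun _ => 0 with he'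
  have hS' : ∀ l, SOK (K' l) (h (min l t)) (h (min (l + 1) t)) (Q (min l t)) (Q (min (l + 1) t))
      (e' l) := by
    intro l
    by_cases hl : l < t
    · have h1 : min l t = l := by omega
      have h2 : min (l + 1) t = l + 1 := by omega
      simp only [hK', he', hl, if_true, h1, h2]
      exact hS l hl
    · have h1 : min l t = t := by omega
      have h2 : min (l + 1) t = t := by omega
      simp only [hK', he', hl, if_false, h1, h2]
      exact sok_id _ _
  have hN' : ∀ l, NOK (h (min l t)) (Q (min l t)) := fun l => hN _ (min_le_right _ _)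
  have hev : ∀ r, r ≤ t → evol K' 0 (dl u) r = evol K 0 (dl u) r := by
    intro r hr
    apply evol_congr
    intro l hl
    have : l < t := by omega
    simp only [hK', this, if_true]
  have key := H K' (fun l => h (min l t)) (fun l => Q (min l t)) e'
    (fun l => (hS' l).1) (fun l => (hN' l).1) (fun l => (hS' l).2.1) (fun l => (hS' l).2.2.1)
    (fun l => (hS' l).2.2.2.1) (fun l => (hS' l).2.2.2.2) (fun l => (hN' l).2)
    (dl u) t u v (prob_dl u) (by simp [dl]; norm_num) (by rw [hev t le_rfl]; exact hv)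
  simp only [Nat.zero_min, min_self] at key
  have hs : ∑ r ∈ range t, e' r (evol K' 0 (dl u) r) = ∑ r ∈ range t, e r (evol K 0 (dl u) r) := by
    apply Finset.sum_congr rfl
    intro r hr
    have hr' : r < t := Finset.mem_range.mp hr
    rw [hev r hr'.le]
    simp only [he', hr', if_true]
  rw [hs] at key
  refine key.trans (mul_le_mul_of_nonneg_left ?_ hC)
  have := (hN 0 (Nat.zero_le _)).2 u
  linarith

theorem Qf_dl (G : Fin 3 → ℝ) (f : Sl) : Qf G (dl f) = 0 := by
  unfold Qf
  apply Finset.sum_eq_zero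
  intro a _
  apply Finset.sum_eq_zero
  intro b _
  by_cases ha : a = f
  · by_cases hb : b = f
    · subst ha; subst hb
      cases b <;> simp [sd]
    · simp [dl, hb]
  · simp [dl, ha]

variable {V : Type} {B : Build V} {d : V → V → ℝ} {C : ℝ}

theorem lab_sd (S : Strat B d C) (h : V → ℝ) (y : Nd → ℝ) (hh : Lip d h) (hP : Pot S h y)
    (N : Nd) (hN : rk N ≤ B.n) (f g : Sl) :
    |lab B h y N f - lab B h y N g| ≤ sd (S.G N) f g := by
  cases f with
  | none =>
    cases g with
    | none => simp [sd]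
    | some c => exact (hP.1 N hN c).trans (S.hκ N hN c).2
  | some c =>
    cases g with
    | none =>
      rw [abs_sub_comm]
      exact (hP.1 N hN c).trans (S.hκ N hN c).2
    | some c' =>
      by_cases hc : c = c'
      · subst hc; simp [sd]
      · simp only [sd, hc, if_false, lab]
        have h1 := hh (B.tri N c) (B.tri N c')
        have h2 := S.kat N hN c c' hc
        have h3 := (S.hκ N hN c).2
        have h4 := (S.hκ N hN c').2
        linarith

theorem nok (S : Strat B d C) (h : V → ℝ) (y : Nd → ℝ) (hh : Lip d h) (hP : Pot S h y)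
    (N : Nd) (hN : rk N ≤ B.n) : NOK (lab B h y N) (Qf (S.G N)) := by
  refine ⟨fun α hα => ?_, fun f => (Qf_dl _ f).le⟩
  unfold Qf
  apply Finset.sum_le_sum
  intro f _
  apply Finset.sum_le_sum
  intro g _
  exact mul_le_mul_of_nonneg_left (lab_sd S h y hh hP N hN f g) (mul_nonneg (hα.1 f) (hα.1 g))

theorem rk_par (B : Build V) (i : ℕ) : rk (B.par i) ≤ i := by
  rcases hp : B.par i with _ | ⟨j, c⟩
  · simp [rk]
  · have := B.lt i j c hp
    simp only [rk]; omega

theorem w_le_one (w : Fin 3 → ℝ) (h0 : ∀ c, 0 ≤ w c) (h1 : w 0 + w 1 + w 2 ≤ 1) (c : Fin 3) :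
    w c ≤ 1 := by
  have a0 := h0 0
  have a1 := h0 1
  have a2 := h0 2
  fin_cases c <;> simp <;> linarith

theorem en_coef (G w : Fin 3 → ℝ) (hG : ∀ c, 0 ≤ G c) (h0 : ∀ c, 0 ≤ w c)
    (h1 : w 0 + w 1 + w 2 ≤ 1) (c : Fin 3) : 0 ≤ G c * w c * (1 - w c) :=
  mul_nonneg (mul_nonneg (hG c) (h0 c)) (sub_nonneg.mpr (w_le_one w h0 h1 c))

def Kr (w : Fin 3 → ℝ) (j : Fin 3) : Sl → Sl → ℝ :=
  fun f g => ∑ ξ, if sub j f ξ = g then wt w ξ else 0

theorem push_dl (w : Fin 3 → ℝ) (j : Fin 3) (f : Sl) : push w j (dl f) = Kr w j f := by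
  funext g
  simp [push, Kr, dl]

theorem third_succ (j : Fin 3) : third j (j + 1) = j + 2 := by
  revert j; decide

theorem succ_ne (j : Fin 3) : j ≠ j + 1 := by
  revert j; decide

theorem sok (hA : StmtAlg) (S : Strat B d C) (h : V → ℝ) (y : Nd → ℝ) (hh : Lip d h)
    (hP : Pot S h y) (i : ℕ) (hi : i < B.n) (j : Fin 3) :
    SOK (Kr (S.w i) j) (lab B h y (some (i, j))) (lab B h y (B.par i)) (Qf (S.G (some (i, j))))
      (Qf (S.G (B.par i))) (en (S.G (B.par i)) (S.w i) (S.l i) j) := by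
  have hpar : rk (B.par i) ≤ B.n := (rk_par B i).trans hi.le
  have hch : ∀ c, rk (some (i, c)) ≤ B.n := fun c => hi
  have hG0 : ∀ c, 0 ≤ S.G (B.par i) c := fun c =>
    (S.hκ _ hpar c).1.trans (S.hκ _ hpar c).2
  obtain ⟨hw0, hw1⟩ := S.hw i hi
  have hl := S.hl i hi
  obtain ⟨A1, A2, A3⟩ := hA (S.G (B.par i)) (S.w i) (S.l i) j
  have c0 := en_coef _ _ hG0 hw0 hw1 j
  have c1 := en_coef _ _ hG0 hw0 hw1 (j + 1)
  have c2 := en_coef _ _ hG0 hw0 hw1 (j + 2)
  refine ⟨fun f => ?_, fun α hα => ?_, fun α hα => ?_, fun α β c hc hα hβ => ?_, ?_⟩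
  · rw [← push_dl]; exact A2 hw0 hw1 _ (prob_dl f)
  · have h1 := A1 α hα.2
    have h2 : 0 ≤ α (some j) * S.l i := mul_nonneg (hα.1 _) hl
    rw [S.hG i hi j]
    change Qf _ (push (S.w i) j α) ≤ _
    linarith
  · unfold en
    have := add_nonneg c1 c2
    have := add_nonneg c0 hl
    positivity
  · unfold en
    have e1 : (c * (α (some j) + α none)) ^ 2 ≤ (β (some j) + β none) ^ 2 := by
      apply pow_le_pow_left₀ (mul_nonneg hc (add_nonneg (hα _) (hα _)))
      have := hβ (some j)
      have := hβ none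
      linarith
    have e2 : (c * α (some j)) ^ 2 ≤ (β (some j)) ^ 2 :=
      pow_le_pow_left₀ (mul_nonneg hc (hα _)) (hβ _) 2
    have f1 := mul_le_mul_of_nonneg_left e1 (add_nonneg c1 c2)
    have f2 := mul_le_mul_of_nonneg_left e2 (add_nonneg c0 hl)
    nlinarith [f1, f2]
  · have same : ∀ j' c : Fin 3, c ≠ j' →
        lab B h y (some (i, j')) (some c) = lab B h y (B.par i) (some c) := by
      intro j' c hc
      simp only [lab]
      rw [B.eq i hi j', Function.update_of_ne hc]
    have newv : ∀ j' : Fin 3, lab B h y (some (i, j')) (some j') = h (B.x i) := by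
      intro j'
      simp only [lab]
      rw [B.eq i hi j', Function.update_self]
    have sdc := fun j' => lab_sd S h y hh hP (some (i, j')) (hch j')
    apply A3 (lab B h y (B.par i)) (lab B h y (some (i, j))) hG0 hw0 hw1 hl (same j)
    · intro c hc
      have := sdc j (some j) (some c)
      rw [same j c hc, S.hG i hi j] at this
      simpa only [sd, hc.symm, if_false] using this
    · have hne := succ_ne j
      have := sdc (j + 1) (some (j + 1)) (some j)
      rw [same (j + 1) j hne, newv, S.hG i hi (j + 1)] at this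
      rw [newv]
      simp only [sd, hne.symm, if_false, newG, if_true, hne, third_succ] at this
      unfold noise
      linarith
    · have h1 := sdc j (some j) none
      rw [S.hG i hi j] at h1
      have h2 := hP.2.1 i hi j
      have h3 := abs_sub_le (lab B h y (some (i, j)) (some j)) (y (some (i, j))) (y (B.par i))
      simp only [sd] at h1
      change |lab B h y (some (i, j)) (some j) - y (some (i, j))| ≤ _ at h1
      change |lab B h y (some (i, j)) (some j) - y (B.par i)| ≤ _
      linarith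
    · intro c hc
      have := sdc j none (some c)
      rw [same j c hc, S.hG i hi j] at this
      simpa only [sd] using this
    · exact hP.2.1 i hi j

theorem inv (hA : StmtAlg) (S : Strat B d C) (h : V → ℝ) (y : Nd → ℝ) (hh : Lip d h)
    (hP : Pot S h y) (s : V) (N : Nd) (L : ℝ) (α : Sl → ℝ) (hs : St S s N L α) :
    0 ≤ L ∧ Prob α ∧ rk N ≤ B.n ∧
    ∃ (t : ℕ) (K : ℕ → Sl → Sl → ℝ) (hh : ℕ → Sl → ℝ) (Q e : ℕ → (Sl → ℝ) → ℝ) (u : Sl),
      (∀ l, l < t → SOK (K l) (hh l) (hh (l + 1)) (Q l) (Q (l + 1)) (e l)) ∧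
      (∀ l, l ≤ t → NOK (hh l) (Q l)) ∧ hh 0 u = h s ∧ hh t = lab B h y N ∧ Q t = Qf (S.G N) ∧
      evol K 0 (dl u) t = α ∧
      ∑ r ∈ range t, e r (evol K 0 (dl u) r) = Qf (S.G N) α + 2 * L := by
  induction hs with
  | base N c hN hc =>
    refine ⟨le_rfl, prob_dl (some c), hN, 0, fun _ => dl, fun _ => lab B h y N,
      fun _ => Qf (S.G N), fun _ _ => 0, some c, fun l hl => absurd hl (Nat.not_lt_zero _),
      fun _ _ => nok S h y hh hP N hN, ?_, rfl, rfl, rfl, ?_⟩
    · simp only [lab, hc]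
    · have := Qf_dl (S.G N) (some c)
      unfold dl at this
      simp [this]
  | up i j L α hi _ ih =>
    obtain ⟨hL, hα, _, t, K, g, Q, e, u, H1, H2, H3, H4, H5, H6, H7⟩ := ih
    have hpar : rk (B.par i) ≤ B.n := (rk_par B i).trans hi.le
    obtain ⟨hw0, hw1⟩ := S.hw i hi
    obtain ⟨A1, A2, -⟩ := hA (S.G (B.par i)) (S.w i) (S.l i) j
    have hl := S.hl i hi
    refine ⟨add_nonneg hL (mul_nonneg (hα.1 _) hl), A2 hw0 hw1 α hα, hpar, t + 1,
      fun l => if l < t then K l else Kr (S.w i) j,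
      fun l => if l ≤ t then g l else lab B h y (B.par i),
      fun l => if l ≤ t then Q l else Qf (S.G (B.par i)),
      fun l => if l < t then e l else en (S.G (B.par i)) (S.w i) (S.l i) j, u,
      ?_, ?_, ?_, ?_, ?_, ?_, ?_⟩
    · intro l hl
      by_cases hlt : l < t
      · have a1 : l ≤ t := hlt.le
        have a2 : l + 1 ≤ t := hlt
        simp only [hlt, a1, a2, if_true]
        exact H1 l hlt
      · have a0 : l = t := by omega
        subst a0
        have a2 : ¬ l + 1 ≤ l := by omega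
        simp only [hlt, a2, le_refl, if_true, if_false, H4, H5]
        exact sok hA S h y hh hP i hi j
    · intro l hl
      by_cases hlt : l ≤ t
      · simp only [hlt, if_true]; exact H2 l hlt
      · simp only [hlt, if_false]; exact nok S h y hh hP _ hpar
    · simp only [Nat.zero_le, if_true, H3]
    · have a2 : ¬ t + 1 ≤ t := by omega
      simp only [a2, if_false]
    · have a2 : ¬ t + 1 ≤ t := by omega
      simp only [a2, if_false]
    · have e1 : evol (fun l => if l < t then K l else Kr (S.w i) j) 0 (dl u) t = α := by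
        rw [← H6]
        apply evol_congr
        intro l hl
        simp only [hl, if_true]
      funext g'
      simp only [evol, e1, zero_add, lt_irrefl, if_false]
      rfl
    · have e1 : ∀ r, r ≤ t → evol (fun l => if l < t then K l else Kr (S.w i) j) 0 (dl u) r =
          evol K 0 (dl u) r := by
        intro r hr
        apply evol_congr
        intro l hl
        have : l < t := by omega
        simp only [this, if_true]
      rw [Finset.sum_range_succ, e1 t le_rfl, H6]
      have e2 : ∑ r ∈ range t, (if r < t then e r else en (S.G (B.par i)) (S.w i) (S.l i) j)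
          (evol (fun l => if l < t then K l else Kr (S.w i) j) 0 (dl u) r) =
          ∑ r ∈ range t, e r (evol K 0 (dl u) r) := by
        apply Finset.sum_congr rfl
        intro r hr
        have hr' : r < t := Finset.mem_range.mp hr
        rw [e1 r hr'.le]
        simp only [hr', if_true]
      rw [e2, H7, S.hG i hi j]
      have := A1 α hα.2
      simp only [lt_irrefl, if_false]
      linarith

end ChainM

theorem chainS (hL : StmtLow) (hA : StmtAlg) : StmtChain := by
  obtain ⟨C₁, hC, H⟩ := ChainM.low_fin hL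
  refine ⟨C₁, hC, fun V _ B d C S h y _ hh hP s N L α hs => ?_⟩
  obtain ⟨h1, h2, h3, t, K, g, Q, e, u, H1, H2, H3, H4, -, H6, H7⟩ :=
    ChainM.inv hA S h y hh hP s N L α hs
  refine ⟨h1, h2, h3, fun f hf => ?_⟩
  have := H t K g Q e H1 H2 u f (by rw [H6]; exact hf)
  rwa [H3, H4, H7] at this

end Vale.Agent.P235
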