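import Vale.Agent.P235.CSpec

namespace Vale.Agent.P235

namespace ChkHm

theorem fev_nil (x : List ℝ) : fev [] x = 0 := by
  cases x <;> simp [fev]

theorem fev_nil' (f : Fm) : fev f [] = 0 := by
  cases f <;> simp [fev]

theorem fev_fadd (f g : Fm) (x : List ℝ) : fev (fadd f g) x = fev f x + fev g x := by
  induction f generalizing g x with
  | nil => cases g <;> simp [fadd, fev_nil]
  | cons a f ih =>
    cases g with
    | nil => simp [fadd, fev_nil]
    | cons b g =>
      cases x with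
      | nil => simp [fev_nil']
      | cons c x => simp only [fadd, fev, ih]; push_cast; ring

theorem fev_fsm (c : ℤ) (f : Fm) (x : List ℝ) : fev (fsm c f) x = (c : ℝ) * fev f x := by
  induction f generalizing x with
  | nil => simp [fsm, fev_nil]
  | cons a f ih =>
    cases x with
    | nil => simp [fev_nil']
    | cons b x => simp only [fsm, fev, ih]; push_cast; ring

theorem fnn_ok (f : Fm) (x : List ℝ) (hx : ∀ z ∈ x, 0 ≤ z) (h : fnn f = true) : 0 ≤ fev f x := by
  induction f generalizing x with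
  | nil => simp [fev_nil]
  | cons a f ih =>
    cases x with
    | nil => simp [fev_nil']
    | cons b x =>
      simp only [fnn, Bool.and_eq_true, decide_eq_true_eq] at h
      simp only [fev]
      have h1 : (0 : ℝ) ≤ (a : ℝ) := by exact_mod_cast h.1
      have h2 : 0 ≤ b := hx b (by simp)
      have h3 := ih x (fun z hz => hx z (by simp [hz])) h.2
      positivity

theorem getD_ok (C : List Fm) (x : List ℝ) (hC : ∀ f ∈ C, 0 ≤ fev f x) (i : ℕ) :
    0 ≤ fev (C.getD i []) x := by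
  rw [List.getD_eq_getElem?_getD]
  rcases h : C[i]? with _ | f
  · simp [fev_nil]
  · exact hC f (List.mem_of_getElem? h)

theorem comb_ok (C : List Fm) (x : List ℝ) (hC : ∀ f ∈ C, 0 ≤ fev f x) (l : List (ℕ × ℕ)) :
    0 ≤ fev (comb C l) x := by
  induction l with
  | nil => simp [comb, fev_nil]
  | cons q r ih =>
    simp only [comb, fev_fadd, fev_fsm]
    have := getD_ok C x hC q.1
    have h2 : (0 : ℝ) ≤ ((q.2 : ℤ) : ℝ) := by positivity
    positivity

theorem cert_ok (C : List Fm) (x : List ℝ) (hx : ∀ z ∈ x, 0 ≤ z) (hC : ∀ f ∈ C, 0 ≤ fev f x)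
    (f : Fm) (c : ℕ × List (ℕ × ℕ)) (h : cert C f c = true) : 0 ≤ fev f x := by
  have h1 := fnn_ok _ x hx h
  rw [fev_fadd, fev_fsm, fev_fsm] at h1
  have h2 := comb_ok C x hC c.2
  have h3 : (0 : ℝ) < (((c.1 : ℤ) + 1 : ℤ) : ℝ) := by positivity
  have h4 : 0 ≤ (((c.1 : ℤ) + 1 : ℤ) : ℝ) * fev f x := by
    push_cast at h1 ⊢
    linarith
  exact (mul_nonneg_iff_of_pos_left h3).1 h4

theorem certs_ok (C : List Fm) (x : List ℝ) (hx : ∀ z ∈ x, 0 ≤ z) (hC : ∀ f ∈ C, 0 ≤ fev f x)
    (o : List Fm) (cs : List (ℕ × List (ℕ × ℕ))) (h : certs C o cs = true) :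
    ∀ f ∈ o, 0 ≤ fev f x := by
  induction o generalizing cs with
  | nil => simp
  | cons f r ih =>
    cases cs with
    | nil => simp [certs] at h
    | cons c s =>
      simp only [certs, Bool.and_eq_true] at h
      intro g hg
      rcases List.mem_cons.1 hg with rfl | hg
      · exact cert_ok C x hx hC _ c h.1
      · exact ih s h.2 g hg

theorem cons_ok {C : List Fm} {x : List ℝ} (hC : ∀ f ∈ C, 0 ≤ fev f x) {g : Fm}
    (hg : 0 ≤ fev g x) : ∀ f ∈ g :: C, 0 ≤ fev f x := by
  intro f hf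
  rcases List.mem_cons.1 hf with rfl | hf
  · exact hg
  · exact hC f hf

theorem neg_ok {x : List ℝ} {g : Fm} (hg : fev g x ≤ 0) : 0 ≤ fev (fsm (-1) g) x := by
  rw [fev_fsm]; push_cast; linarith

/-- the three alternatives at each vertex -/
def W3 (x : List ℝ) : Prop :=
  ∀ b < 3, 0 ≤ fev (wpar b 0) x ∨ 0 ≤ fev (wpar b 1) x ∨ 0 ≤ fev (wpar b 2) x

theorem w_cases {x : List ℝ} (hW : W3 x) {b : ℕ} (hb : b < 3) {C : List Fm}
    (hC : ∀ f ∈ C, 0 ≤ fev f x) :
    (∀ f ∈ wpar b 2 :: C, 0 ≤ fev f x) ∨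
    (∀ f ∈ wpar b 0 :: fsm (-1) (wpar b 2) :: C, 0 ≤ fev f x) ∨
    (∀ f ∈ wpar b 1 :: fsm (-1) (wpar b 0) :: fsm (-1) (wpar b 2) :: C, 0 ≤ fev f x) := by
  rcases le_or_gt 0 (fev (wpar b 2) x) with h2 | h2
  · exact Or.inl (cons_ok hC h2)
  · rcases le_or_gt 0 (fev (wpar b 0) x) with h0 | h0
    · exact Or.inr (Or.inl (cons_ok (cons_ok hC (neg_ok h2.le)) h0))
    · have h1 : 0 ≤ fev (wpar b 1) x := by
        rcases hW b hb with h | h | h
        · linarith
        · exact h
        · linarith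
      exact Or.inr (Or.inr (cons_ok (cons_ok (cons_ok hC (neg_ok h2.le)) (neg_ok h0.le)) h1))

theorem chkD_ok (x : List ℝ) (hx : ∀ z ∈ x, 0 ≤ z) (hW : W3 x) (d : List (List Fm)) (t : DT) :
    ∀ C : List Fm, (∀ f ∈ C, 0 ≤ fev f x) → chkD d C t = true → ∃ o ∈ d, ∀ f ∈ o, 0 ≤ fev f x := by
  induction t with
  | leaf o cs =>
    intro C hC h
    simp only [chkD, Bool.and_eq_true, decide_eq_true_eq] at h
    refine ⟨d.getD o [], ?_, certs_ok C x hx hC _ cs h.2⟩
    rw [List.getD_eq_getElem _ _ h.1]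
    exact List.getElem_mem _
  | split o r t1 t2 ih1 ih2 =>
    intro C hC h
    simp only [chkD, Bool.and_eq_true] at h
    rcases le_total 0 (fev ((d.getD o []).getD r []) x) with h0 | h0
    · exact ih1 _ (cons_ok hC h0) h.1
    · exact ih2 _ (cons_ok hC (neg_ok h0)) h.2
  | w b t1 t2 t3 ih1 ih2 ih3 =>
    intro C hC h
    simp only [chkD, Bool.and_eq_true, decide_eq_true_eq] at h
    rcases w_cases hW h.1.1.1 hC with h0 | h0 | h0
    · exact ih1 _ h0 h.1.1.2
    · exact ih2 _ h0 h.1.2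
    · exact ih3 _ h0 h.2

theorem chkDs_ok (x : List ℝ) (hx : ∀ z ∈ x, 0 ≤ z) (hW : W3 x) (C : List Fm)
    (hC : ∀ f ∈ C, 0 ≤ fev f x) (ds : List (List (List Fm))) (ts : List DT)
    (h : chkDs C ds ts = true) : DjOK x ds := by
  induction ds generalizing ts with
  | nil => simp [DjOK]
  | cons d r ih =>
    cases ts with
    | nil => simp [chkDs] at h
    | cons t s =>
      simp only [chkDs, Bool.and_eq_true] at h
      intro e he
      rcases List.mem_cons.1 he with rfl | he
      · exact chkD_ok x hx hW _ t C hC h.1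
      · exact ih s h.2 e he

theorem fev_lin (f : Fm) (N : List Fm) (x : List ℝ) (D : ℝ) (hD : D ≠ 0) :
    fev (lin f N) x = D * fev f (N.map (fun n => fev n x / D)) := by
  induction f generalizing N with
  | nil => simp [lin, fev_nil]
  | cons a f ih =>
    cases N with
    | nil => simp [lin, fev_nil, fev_nil']
    | cons n N =>
      simp only [lin, List.map_cons, fev]
      split_ifs with ha
      · rw [ih, ha]; simp
      · rw [fev_fadd, fev_fsm, ih]; field_simp

theorem fev_app (x y : List ℝ) (f : Fm) :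
    fev f (x ++ y) = fev (f.take x.length) x + fev (f.drop x.length) y := by
  induction x generalizing f with
  | nil => simp [fev_nil]
  | cons b x ih =>
    cases f with
    | nil => simp [fev_nil]
    | cons a f => simp only [List.cons_append, fev, List.length_cons, List.take_succ_cons,
        List.drop_succ_cons, ih]; ring

theorem cmp_ok (s : Sg) (x : List ℝ) (hx : x.length = 10) (f : Fm) (h : 0 ≤ fev (cmp s f) x) :
    0 ≤ fev f (x ++ s.N.map (fun n => fev n x / ((s.D : ℝ) + 1))) := by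
  have hD : (0 : ℝ) < (s.D : ℝ) + 1 := by positivity
  rw [fev_app, hx]
  rw [cmp, fev_fadd, fev_fsm, fev_lin _ _ _ _ hD.ne'] at h
  push_cast at h
  rw [← mul_add] at h
  exact (mul_nonneg_iff_of_pos_left hD).1 h

theorem rows_ok (s : Sg) (x : List ℝ) (hx : x.length = 10) (h : DjOK x s.rows) :
    DjOK (x ++ s.N.map (fun n => fev n x / ((s.D : ℝ) + 1)))
      (monoD s.ty s.c0 s.c1 s.c2 s.b ++ respD s.A) := by
  intro d hd
  obtain ⟨o, ho, hf⟩ := h (d.map (fun o => o.map (cmp s))) (List.mem_map.2 ⟨d, hd, rfl⟩)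
  obtain ⟨o', ho', rfl⟩ := List.mem_map.1 ho
  exact ⟨o', ho', fun f hf' => cmp_ok s x hx f (hf _ (List.mem_map.2 ⟨f, hf', rfl⟩))⟩

theorem len11 (N : List Fm) (h : N.length = 11) : ∃ a0 a1 a2 a3 a4 a5 a6 a7 a8 a9 a10 : Fm,
    N = [a0, a1, a2, a3, a4, a5, a6, a7, a8, a9, a10] := by
  match N, h with
  | [a0, a1, a2, a3, a4, a5, a6, a7, a8, a9, a10], _ =>
    exact ⟨a0, a1, a2, a3, a4, a5, a6, a7, a8, a9, a10, rfl⟩

theorem w3_ok (g0 g1 g2 G0 G1 G2 κ k0 k1 k2 : ℝ)
    (h0 : Wp g0 g1 g2 G0 G1 G2) (h1 : Wp g1 g2 g0 G1 G2 G0) (h2 : Wp g2 g0 g1 G2 G0 G1) :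
    W3 [g0, g1, g2, G0, G1, G2, κ, k0, k1, k2] := by
  intro b hb
  unfold Wp at h0 h1 h2
  interval_cases b
  · simp only [wpar, List.getD_cons_zero, List.getD_cons_succ, fev]
    push_cast
    rcases h0 with h | h | h
    · left; linarith
    · right; left; linarith
    · right; right; linarith
  · simp only [wpar, List.getD_cons_zero, List.getD_cons_succ, fev]
    push_cast
    rcases h1 with h | h | h
    · left; linarith
    · right; left; linarith
    · right; right; linarith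
  · simp only [wpar, List.getD_cons_zero, List.getD_cons_succ, fev]
    push_cast
    rcases h2 with h | h | h
    · left; linarith
    · right; left; linarith
    · right; right; linarith

end ChkHm

open ChkHm in
theorem chkH (hL : StmtLink) : StmtChk := by
  intro g0 g1 g2 G0 G1 G2 κ k0 k1 k2 hx h0 h1 h2 t
  have hW := w3_ok g0 g1 g2 G0 G1 G2 κ k0 k1 k2 h0 h1 h2
  induction t with
  | leaf s ds =>
    intro C hC h
    simp only [chkT, Bool.and_eq_true, decide_eq_true_eq] at h
    have h3 := rows_ok s _ rfl (chkDs_ok _ hx hW C hC _ ds h.2)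
    obtain ⟨a0, a1, a2, a3, a4, a5, a6, a7, a8, a9, a10, hN⟩ := len11 s.N h.1.1.1
    rw [hN] at h3
    exact hL s.ty s.c0 s.c1 s.c2 s.b s.A g0 g1 g2 G0 G1 G2 κ k0 k1 k2 _ _ _ _ _ _ _ _ _ _ _
      h.1.1.2 h.1.2 h3
  | split f t1 t2 ih1 ih2 =>
    intro C hC h
    simp only [chkT, Bool.and_eq_true] at h
    rcases le_total 0 (fev f [g0, g1, g2, G0, G1, G2, κ, k0, k1, k2]) with h3 | h3
    · exact ih1 _ (cons_ok hC h3) h.1
    · exact ih2 _ (cons_ok hC (neg_ok h3)) h.2
  | w b t1 t2 t3 ih1 ih2 ih3 =>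
    intro C hC h
    simp only [chkT, Bool.and_eq_true, decide_eq_true_eq] at h
    rcases w_cases hW h.1.1.1 hC with h3 | h3 | h3
    · exact ih1 _ h3 h.1.1.2
    · exact ih2 _ h3 h.1.2
    · exact ih3 _ h3 h.2

end Vale.Agent.P235
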