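import Vale.Agent.P235.CSpec

namespace Vale.Agent.P235

/-- the rows of `Base`, then the symmetry row -/
def baseC (a b : ℤ) : List Fm :=
  [[0, 0, 0, 1, 0, 0, -1], [1, 1, 0, -1, -1], [0, 1, 1, 0, -1, -1], [1, 0, 1, -1, 0, -1],
   [-1, -1, 0, 0, 32, 0, 32], [0, -1, -1, 0, 32, 32], [-1, 0, -1, 0, 0, 32, 32],
   [2, 2, 2, -3, -2, -2, -4],
   [-1, -1, 0, 0, 0, 0, 0, 1, 1], [1, 1, 0, 0, 0, 0, 0, -1, 1], [1, 1, 0, 0, 0, 0, 0, 1, -1],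
   [0, -1, -1, 0, 0, 0, 0, 0, 1, 1], [0, 1, 1, 0, 0, 0, 0, 0, -1, 1], [0, 1, 1, 0, 0, 0, 0, 0, 1, -1],
   [-1, 0, -1, 0, 0, 0, 0, 1, 0, 1], [1, 0, 1, 0, 0, 0, 0, 1, 0, -1], [1, 0, 1, 0, 0, 0, 0, -1, 0, 1],
   [0, 0, 0, 0, -a, a, 0, 0, -b, b]]

def rootA (a b : ℤ) : List Fm := [0, 0, 0, -1, 0, 0, 1] :: baseC a b

def rootB (a b : ℤ) : List Fm := [-2, -2, -2, 3, 2, 2, 4] :: baseC a b

def SyL (a b : ℤ) (x y z w : ℝ) : Prop := a * x + b * y ≤ a * z + b * w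

theorem syL_total (a b : ℤ) (x y z w : ℝ) : SyL a b x y z w ∨ SyL a b z w x y := le_total _ _

/-- what a closed tree for the root list `C` gives -/
def Closed (C : List Fm) : Prop := ∀ (g0 g1 g2 G0 G1 G2 κ k0 k1 k2 : ℝ),
  (∀ z ∈ [g0, g1, g2, G0, G1, G2, κ, k0, k1, k2], 0 ≤ z) →
  Wp g0 g1 g2 G0 G1 G2 → Wp g1 g2 g0 G1 G2 G0 → Wp g2 g0 g1 G2 G0 G1 →
  (∀ f ∈ C, 0 ≤ fev f [g0, g1, g2, G0, G1, G2, κ, k0, k1, k2]) →
    Resp g0 g1 g2 G0 G1 G2 κ k0 k1 k2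

theorem closed_of (hC : StmtChk) (C : List Fm) (t : TT) (h : chkT C t = true) : Closed C :=
  fun g0 g1 g2 G0 G1 G2 κ k0 k1 k2 h0 w0 w1 w2 hf => hC g0 g1 g2 G0 G1 G2 κ k0 k1 k2 h0 w0 w1 w2 t C hf h

theorem fev_neg (f : Fm) (x : List ℝ) : fev (fsm (-1) f) x = - fev f x := by
  induction f generalizing x with
  | nil => simp [fsm, fev]
  | cons a f ih =>
    cases x with
    | nil => simp [fsm, fev]
    | cons b x => simp only [fsm, fev, ih]; push_cast; ring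

/-- glue two closed halves -/
theorem closed_split (C : List Fm) (h : Fm) (h1 : Closed (h :: C)) (h2 : Closed (fsm (-1) h :: C)) :
    Closed C := by
  intro g0 g1 g2 G0 G1 G2 κ k0 k1 k2 h0 w0 w1 w2 hf
  rcases le_total 0 (fev h [g0, g1, g2, G0, G1, G2, κ, k0, k1, k2]) with a | a
  · exact h1 _ _ _ _ _ _ _ _ _ _ h0 w0 w1 w2 (List.forall_mem_cons.2 ⟨a, hf⟩)
  · exact h2 _ _ _ _ _ _ _ _ _ _ h0 w0 w1 w2 (List.forall_mem_cons.2 ⟨by rw [fev_neg]; linarith, hf⟩)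

theorem coreOf (a b : ℤ) (hA : Closed (rootA a b)) (hB : Closed (rootB a b)) : Core (SyL a b) := by
  intro g0 g1 g2 G0 G1 G2 κ k0 k1 k2 hb hk w0 w1 w2 hs
  obtain ⟨⟨a0, a1, a2⟩, ⟨b0, b1, b2, b3⟩, ⟨c0, c1, c2⟩, ⟨d0, d1, d2⟩, e, ⟨f0, f1, f2⟩, ⟨i0, i1, i2⟩,
    ⟨j0, j1, j2⟩, l0, l1, l2⟩ := hb
  have h0 : ∀ z ∈ [g0, g1, g2, G0, G1, G2, κ, k0, k1, k2], 0 ≤ z := by
    simp only [List.forall_mem_cons, List.not_mem_nil, false_imp_iff, implies_true, and_true]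
    exact ⟨a0, a1, a2, b0.trans b1, b2, b3, b0, l0, l1, l2⟩
  have hc : ∀ f ∈ baseC a b, 0 ≤ fev f [g0, g1, g2, G0, G1, G2, κ, k0, k1, k2] := by
    unfold SyL at hs
    simp only [baseC, List.forall_mem_cons, List.not_mem_nil, false_imp_iff, implies_true, and_true,
      fev]
    push_cast
    refine ⟨?_, ?_, ?_, ?_, ?_, ?_, ?_, ?_, ?_, ?_, ?_, ?_, ?_, ?_, ?_, ?_, ?_, ?_⟩ <;> linarith
  rcases hk with hk | hk
  · refine hA _ _ _ _ _ _ _ _ _ _ h0 w0 w1 w2 (List.forall_mem_cons.2 ⟨?_, hc⟩)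
    simp only [fev]; push_cast; linarith
  · refine hB _ _ _ _ _ _ _ _ _ _ h0 w0 w1 w2 (List.forall_mem_cons.2 ⟨?_, hc⟩)
    simp only [fev]; push_cast; linarith

end Vale.Agent.P235
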