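import Vale.Agent.P235.CoreOf

/-! A decoder of trees from one number (no property of it is needed). -/

namespace Vale.Agent.P235

/-- list of numbers: each item has a 24 bit header (length plus one) -/
noncomputable def ul (f : ℕ) : ℕ → List ℕ :=
  Nat.rec (fun _ => []) (fun _ ih n => cond (Nat.beq n 0) []
    (List.cons (Nat.mod (Nat.shiftRight n 24) (Nat.shiftLeft 1 (Nat.pred (Nat.land n 16777215))))
      (ih (Nat.shiftRight n (Nat.add 23 (Nat.land n 16777215)))))) f

/-- short list: each item has an 8 bit header -/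
noncomputable def us (f : ℕ) : ℕ → List ℕ :=
  Nat.rec (fun _ => []) (fun _ ih n => cond (Nat.beq n 0) []
    (List.cons (Nat.mod (Nat.shiftRight n 8) (Nat.shiftLeft 1 (Nat.pred (Nat.land n 255))))
      (ih (Nat.shiftRight n (Nat.add 7 (Nat.land n 255)))))) f

noncomputable def lmap {α β : Type} (g : α → β) (l : List α) : List β :=
  List.rec [] (fun a _ ih => List.cons (g a) ih) l

noncomputable def hd (l : List ℕ) : ℕ := List.rec 0 (fun a _ _ => a) l

noncomputable def tl (l : List ℕ) : List ℕ := List.rec [] (fun _ r _ => r) l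

noncomputable def dz (n : ℕ) : ℤ :=
  cond (Nat.beq (Nat.land n 1) 0) (Int.ofNat (Nat.shiftRight n 1)) (Int.negSucc (Nat.shiftRight n 1))

noncomputable def dF (n : ℕ) : Fm := lmap dz (us 30 n)

/-- certificate: items with a 12 bit header are avoided by nesting in `ul` -/
noncomputable def dC (l : List ℕ) : ℕ × List (ℕ × ℕ) :=
  (hd l, lmap (fun q => (Nat.land q 255, Nat.shiftRight q 8)) (tl l))

noncomputable def dD (f : ℕ) : ℕ → DT :=
  Nat.rec (fun _ => DT.leaf 0 []) (fun _ ih n =>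
    cond (Nat.beq (Nat.land n 3) 0)
      (DT.leaf (Nat.land (Nat.shiftRight n 2) 63) (lmap (fun c => dC (ul 30 c)) (ul 30 (Nat.shiftRight n 16))))
      (cond (Nat.beq (Nat.land n 3) 1)
        (DT.split (Nat.land (Nat.shiftRight n 2) 63) (Nat.land (Nat.shiftRight n 8) 255)
          (ih (hd (ul 3 (Nat.shiftRight n 16)))) (ih (hd (tl (ul 3 (Nat.shiftRight n 16))))))
        (DT.w (Nat.land (Nat.shiftRight n 2) 63) (ih (hd (ul 3 (Nat.shiftRight n 16))))
          (ih (hd (tl (ul 3 (Nat.shiftRight n 16))))) (ih (hd (tl (tl (ul 3 (Nat.shiftRight n 16))))))))) f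

noncomputable def dS (l : List ℕ) : Sg :=
  ⟨Nat.beq (hd l) 1, hd (tl l), hd (tl (tl l)), hd (tl (tl (tl l))), hd (tl (tl (tl (tl l)))),
    hd (tl (tl (tl (tl (tl l))))), hd (tl (tl (tl (tl (tl (tl l)))))),
    lmap dF (tl (tl (tl (tl (tl (tl (tl l)))))))⟩

noncomputable def dT (f : ℕ) : ℕ → TT :=
  Nat.rec (fun _ => TT.leaf (dS []) []) (fun _ ih n =>
    cond (Nat.beq (Nat.land n 3) 0)
      (TT.leaf (dS (ul 30 (hd (ul 60 (Nat.shiftRight n 8))))) (lmap (dD 200) (tl (ul 60 (Nat.shiftRight n 8)))))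
      (cond (Nat.beq (Nat.land n 3) 1)
        (TT.split (dF (hd (ul 3 (Nat.shiftRight n 8)))) (ih (hd (tl (ul 3 (Nat.shiftRight n 8)))))
          (ih (hd (tl (tl (ul 3 (Nat.shiftRight n 8)))))))
        (TT.w (Nat.land (Nat.shiftRight n 2) 63) (ih (hd (ul 3 (Nat.shiftRight n 8))))
          (ih (hd (tl (ul 3 (Nat.shiftRight n 8))))) (ih (hd (tl (tl (ul 3 (Nat.shiftRight n 8))))))))) f

noncomputable def decTT (n : ℕ) : TT := dT 200 n

/-- list of rows from one number -/
noncomputable def decC (n : ℕ) : List Fm := lmap dF (ul 300 n)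

end Vale.Agent.P235
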