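import Vale.Agent.P235.CoreOf
import Vale.Agent.P235.ChkH

namespace Vale.Agent.P235.T25

def dl (w : ℕ) : ℕ → ℕ → List (ℕ × ℕ)
  | 0, _ => []
  | k + 1, n => (Nat.land n 127, Nat.mod (Nat.shiftRight n 7) (Nat.pow 2 w)) ::
      dl w k (Nat.shiftRight n (Nat.add w 7))

def dc (w k n : ℕ) : ℕ × List (ℕ × ℕ) :=
  (Nat.mod (Nat.shiftRight n 16) (Nat.pow 2 w), dl w k (Nat.shiftRight n (Nat.add w 16)))

def dcs : ℕ → ℕ → List (ℕ × List (ℕ × ℕ))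
  | 0, _ => []
  | f + 1, n => dc (Nat.land n 4095) (Nat.land (Nat.shiftRight n 12) 15) n ::
      dcs f (Nat.shiftRight n (Nat.add (Nat.add (Nat.land n 4095) 16)
        (Nat.mul (Nat.land (Nat.shiftRight n 12) 15) (Nat.add (Nat.land n 4095) 7))))

def q (n : ℕ) : DT := .leaf (Nat.land n 7) (dcs 6 (Nat.shiftRight n 3))

def qs : List ℕ → List DT
  | [] => []
  | n :: l => q n :: qs l

theorem closed_w (C : List Fm) (b : ℕ) (hb : b < 3)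
    (h1 : Closed (wpar b 2 :: C)) (h2 : Closed (wpar b 0 :: fsm (-1) (wpar b 2) :: C))
    (h3 : Closed (wpar b 1 :: fsm (-1) (wpar b 0) :: fsm (-1) (wpar b 2) :: C)) : Closed C := by
  intro g0 g1 g2 G0 G1 G2 κ k0 k1 k2 h0 w0 w1 w2 hf
  rcases ChkHm.w_cases (ChkHm.w3_ok g0 g1 g2 G0 G1 G2 κ k0 k1 k2 w0 w1 w2) hb hf with h | h | h
  · exact h1 _ _ _ _ _ _ _ _ _ _ h0 w0 w1 w2 h
  · exact h2 _ _ _ _ _ _ _ _ _ _ h0 w0 w1 w2 h
  · exact h3 _ _ _ _ _ _ _ _ _ _ h0 w0 w1 w2 h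

/-- the constraints added by branch `t` of the `w` node at `b` -/
def wb (b t : ℕ) (C : List Fm) : List Fm :=
  match t with
  | 0 => wpar b 2 :: C
  | 1 => wpar b 0 :: fsm (-1) (wpar b 2) :: C
  | _ => wpar b 1 :: fsm (-1) (wpar b 0) :: fsm (-1) (wpar b 2) :: C

def rt (C : List Fm) (t0 t1 t2 : ℕ) : List Fm := wb 2 t2 (wb 1 t1 (wb 0 t0 C))

theorem closed_rt (C : List Fm) (h : ∀ t0 < 3, ∀ t1 < 3, ∀ t2 < 3, Closed (rt C t0 t1 t2)) :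
    Closed C := by
  have h2 : ∀ t0 < 3, ∀ t1 < 3, Closed (wb 1 t1 (wb 0 t0 C)) := fun t0 a t1 b =>
    closed_w _ 2 (by norm_num) (h t0 a t1 b 0 (by norm_num)) (h t0 a t1 b 1 (by norm_num))
      (h t0 a t1 b 2 (by norm_num))
  have h1 : ∀ t0 < 3, Closed (wb 0 t0 C) := fun t0 a =>
    closed_w _ 1 (by norm_num) (h2 t0 a 0 (by norm_num)) (h2 t0 a 1 (by norm_num))
      (h2 t0 a 2 (by norm_num))
  exact closed_w _ 0 (by norm_num) (h1 0 (by norm_num)) (h1 1 (by norm_num)) (h1 2 (by norm_num))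

end Vale.Agent.P235.T25
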