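import Mathlib

namespace Vale.Agent.P235

open MeasureTheory

/-- Shortest-path distance for edge lengths `ℓ`. -/
noncomputable def gdist {V : Type} (G : SimpleGraph V) (ℓ : Sym2 V → ℝ) (u v : V) : ℝ :=
  ⨅ p : G.Walk u v, (p.edges.map ℓ).sum

/-- `G` has a tree decomposition of width at most `w`. -/
def TwLe {V : Type} (G : SimpleGraph V) (w : ℕ) : Prop :=
  ∃ (ι : Type) (_ : Finite ι) (T : SimpleGraph ι) (B : ι → Finset V), T.IsTree ∧
    (∀ u v, G.Adj u v → ∃ t, u ∈ B t ∧ v ∈ B t) ∧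
    (∀ v, (T.induce {t | v ∈ B t}).Connected) ∧ ∀ t, (B t).card ≤ w + 1

/-- `(V, d)` embeds into `L₁` with distortion at most `C`. -/
def EmbL1 {V : Type} (d : V → V → ℝ) (C : ℝ) : Prop :=
  ∃ (Ω : Type) (_ : MeasurableSpace Ω) (μ : Measure Ω) (f : V → Lp ℝ 1 μ),
    ∀ x y, d x y ≤ ‖f x - f y‖ ∧ ‖f x - f y‖ ≤ C * d x y

end Vale.Agent.P235
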