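import Vale.Agent.P235.Int

namespace Vale.Agent.P235

open Finset

namespace DisM

open IntM

theorem evB_delta : ∀ (j : Fin 3) (f : Sl),
    evB (fun c => decide (c = j)) f = decide (f = some j) := by
  decide

theorem alg_root (G : Fin 3 → ℝ) (f g : Sl) :
    ∑ c, G c * (if decide (f = some c) = decide (g = some c) then 0 else 1) = sd G f g := by
  rcases f with _ | f <;> rcases g with _ | g
  · simp [sd]
  · fin_cases g <;> simp [sd, Fin.sum_univ_three]
  · fin_cases f <;> simp [sd, Fin.sum_univ_three]
  · fin_cases f <;> fin_cases g <;> simp [sd, Fin.sum_univ_three] <;> ring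

theorem alg_child (G w : Fin 3 → ℝ) (l : ℝ) (j : Fin 3) (f g : Sl) :
    ∑ ξ : Sl, wt w ξ * sd G (sub j f ξ) (sub j g ξ) +
      l * (if decide (f = some j) = decide (g = some j) then 0 else 1) =
      sd (newG G w l j) f g := by
  have t01 : third 0 1 = 2 := by decide
  have t02 : third 0 2 = 1 := by decide
  have t10 : third 1 0 = 2 := by decide
  have t12 : third 1 2 = 0 := by decide
  have t20 : third 2 0 = 1 := by decide
  have t21 : third 2 1 = 0 := by decide
  rcases f with _ | f <;> rcases g with _ | g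
  · fin_cases j <;> simp [sd, sub, wt, Fintype.sum_option, Fin.sum_univ_three]
  · fin_cases j <;> fin_cases g <;>
      simp [sd, sub, wt, newG, Fintype.sum_option, Fin.sum_univ_three, t01, t02, t10, t12,
        t20, t21] <;> ring
  · fin_cases j <;> fin_cases f <;>
      simp [sd, sub, wt, newG, Fintype.sum_option, Fin.sum_univ_three, t01, t02, t10, t12,
        t20, t21] <;> ring
  · fin_cases j <;> fin_cases f <;> fin_cases g <;>
      simp [sd, sub, wt, newG, Fintype.sum_option, Fin.sum_univ_three, t01, t02, t10, t12,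
        t20, t21] <;> ring

theorem alg_mv (G w : Fin 3 → ℝ) (l : ℝ) (j j' : Fin 3) (h : j ≠ j') :
    ∑ ξ : Sl, wt w ξ * sd G (sub j none ξ) (sub j' (some j) ξ) +
      l * (if decide ((none : Sl) = some j) = decide (some j = some j') then 0 else 1) =
      G j + noise G w j := by
  fin_cases j <;> fin_cases j' <;>
    first
    | exact absurd rfl h
    | (simp [sd, sub, wt, noise, Fintype.sum_option, Fin.sum_univ_three]; ring)

theorem alg_mm (G w : Fin 3 → ℝ) (l : ℝ) (j j' : Fin 3) (h : j ≠ j') :
    ∑ ξ : Sl, wt w ξ * sd G (sub j none ξ) (sub j' none ξ) +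
      l * (if decide ((none : Sl) = some j) = decide ((none : Sl) = some j') then 0 else 1) =
      w j * G j + w j' * G j' := by
  fin_cases j <;> fin_cases j' <;>
    first
    | exact absurd rfl h
    | (simp [sd, sub, wt, Fintype.sum_option, Fin.sum_univ_three]; done)
    | (simp [sd, sub, wt, Fintype.sum_option, Fin.sum_univ_three]; ring)

variable {V : Type} [DecidableEq V] {B : Build V} {d : V → V → ℝ} {C : ℝ}

theorem ev_ind_child (B : Build V) (i : ℕ) (hi : i < B.n) (j : Fin 3) (f : Sl) :
    ev (B.tri (some (i, j))) f (ind (B.x i)) = decide (f = some j) := by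
  have h1 := rk_par B i
  have a : ∀ c, B.tri (B.par i) c ≠ B.x i := fresh B _ _ rfl (by omega) i h1 hi
  rw [B.eq i hi j, ev_eq, ← evB_delta]
  congr 1
  funext c
  by_cases hc : c = j
  · subst hc
    simp [ind]
  · simp [ind, Function.update_of_ne hc, a c, hc]

theorem sibD (S : Strat B d C) (i : ℕ) (hi : i < B.n)
    (ih : ∀ f g, S.D B.n (ev (B.tri (B.par i)) f) (ev (B.tri (B.par i)) g) =
      sd (S.G (B.par i)) f g) (j j' : Fin 3) (f g : Sl) :
    S.D B.n (ev (B.tri (some (i, j))) f) (ev (B.tri (some (i, j'))) g) =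
      ∑ ξ : Sl, wt (S.w i) ξ * sd (S.G (B.par i)) (sub j f ξ) (sub j' g ξ) +
      S.l i * (if decide (f = some j) = decide (g = some j') then 0 else 1) := by
  have h1 := rk_par B i
  rw [stab S _ _ f g (i + 1) (by simp [rk]) (by simp [rk]) B.n (by omega) le_rfl]
  have e : ∀ f g, S.I i (fun ω => if ev (B.tri (B.par i)) f ω = ev (B.tri (B.par i)) g ω
      then 0 else 1) = sd (S.G (B.par i)) f g := by
    intro f g
    rw [← ih f g, stab S _ _ f g i h1 h1 B.n (by omega) le_rfl]
    rfl
  simp only [Strat.D, Strat.I, step B i hi, ev_ind_child B i hi, e]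

theorem root (S : Strat B d C) (hd : PM d) (f g : Sl) :
    S.D B.n (ev (B.tri none) f) (ev (B.tri none) g) = sd (S.G none) f g := by
  rw [stab S _ _ f g 0 (by simp [rk]) (by simp [rk]) B.n (by omega) le_rfl, ← alg_root]
  simp only [Strat.D, Strat.I]
  refine sum_congr rfl fun c _ => ?_
  by_cases h : ∀ c', B.tri none c' = B.tri none c → c' = c
  · have e : ∀ f, ev (B.tri none) f (ind (B.tri none c)) = decide (f = some c) := by
      intro f
      rw [ev_eq, ← evB_delta]
      congr 1
      funext c'
      simp only [ind, decide_eq_decide]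
      exact ⟨h c', fun h => by rw [h]⟩
    rw [e, e]
  · push Not at h
    obtain ⟨c', h1, h2⟩ := h
    have h3 := S.up none (by simp [rk]) c' c h2
    rw [h1, hd.1, mul_zero] at h3
    have h4 := G_nonneg S none (by simp [rk]) c
    have h5 := G_nonneg S none (by simp [rk]) c'
    have h6 : S.G none c = 0 := by linarith
    rw [h6, zero_mul, zero_mul]

theorem one (S : Strat B d C) (hd : PM d) : ∀ r N, rk N = r → rk N ≤ B.n → ∀ f g,
    S.D B.n (ev (B.tri N) f) (ev (B.tri N) g) = sd (S.G N) f g := by
  intro r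
  induction r using Nat.strong_induction_on with
  | _ r ih =>
    intro N hr hN f g
    rcases N with _ | ⟨i, j⟩
    · exact root S hd f g
    · simp only [rk] at hr hN
      have h1 := rk_par B i
      rw [sibD S i (by omega) (ih (rk (B.par i)) (by omega) _ rfl (by omega)), alg_child,
        S.hG i (by omega) j]

theorem tri_self (B : Build V) (i : ℕ) (hi : i < B.n) (j : Fin 3) :
    B.tri (some (i, j)) j = B.x i := by
  rw [B.eq i hi j, Function.update_self]

theorem tri_ne (B : Build V) (i : ℕ) (hi : i < B.n) (j c : Fin 3) (h : c ≠ j) :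
    B.tri (some (i, j)) c = B.tri (B.par i) c := by
  rw [B.eq i hi j, Function.update_of_ne h]

theorem bag_node (B : Build V) (u v : V) (h : B.InBag u v) :
    ∃ M a b, rk M ≤ B.n ∧ B.tri M a = u ∧ B.tri M b = v := by
  have hs : ∀ c : Fin 3, c ≠ c + 1 := by decide
  rcases h with ⟨c, c', h1, h2⟩ | ⟨i, hi, h1, h2⟩
  · exact ⟨none, c, c', by simp [rk], h1, h2⟩
  · have hr := rk_par B i
    rcases h1 with h1 | ⟨c, h1⟩ <;> rcases h2 with h2 | ⟨c', h2⟩
    · exact ⟨some (i, 0), 0, 0, by simp only [rk]; omega, by rw [h1, tri_self B i hi],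
        by rw [h2, tri_self B i hi]⟩
    · exact ⟨some (i, c' + 1), c' + 1, c', by simp only [rk]; omega, by rw [h1, tri_self B i hi],
        by rw [tri_ne B i hi _ _ (hs c'), h2]⟩
    · exact ⟨some (i, c + 1), c, c + 1, by simp only [rk]; omega,
        by rw [tri_ne B i hi _ _ (hs c), h1], by rw [h2, tri_self B i hi]⟩
    · exact ⟨B.par i, c, c', by omega, h1, h2⟩

theorem two (S : Strat B d C) (hd : PM d) (u v : V) (h : B.InBag u v) :
    S.D B.n (fun ω => ω u) (fun ω => ω v) ≤ C * d u v := by
  obtain ⟨M, a, b, hM, rfl, rfl⟩ := bag_node B u v h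
  have := one S hd _ M rfl hM (some a) (some b)
  change S.D B.n (ev (B.tri M) (some a)) (ev (B.tri M) (some b)) ≤ _
  rw [this]
  simp only [sd]
  split_ifs with hab
  · rw [hab, hd.1, mul_zero]
  · exact S.up M hM a b hab

theorem same (S : Strat B d C) (hd : PM d) (h : V → ℝ) (y : Nd → ℝ) (hL : Lip d h)
    (hP : Pot S h y) (N : Nd) (hN : rk N ≤ B.n) (f g : Sl) :
    |lab B h y N f - lab B h y N g| ≤ S.D B.n (ev (B.tri N) f) (ev (B.tri N) g) := by
  rw [one S hd _ N rfl hN]
  rcases f with _ | c <;> rcases g with _ | c'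
  · simp [sd]
  · exact (hP.1 N hN c').trans (S.hκ N hN c').2
  · simp only [lab, sd]
    rw [abs_sub_comm]
    exact (hP.1 N hN c).trans (S.hκ N hN c).2
  · simp only [lab, sd]
    split_ifs with hc
    · simp [hc]
    · have := S.kat N hN c c' hc
      have := (S.hκ N hN c).2
      have := (S.hκ N hN c').2
      have := hL (B.tri N c) (B.tri N c')
      linarith

theorem medv (S : Strat B d C) (hd : PM d) (h : V → ℝ) (y : Nd → ℝ) (hL : Lip d h)
    (hP : Pot S h y) (i : ℕ) (hi : i < B.n) (j j' : Fin 3) (hj : j ≠ j') (c : Fin 3) :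
    |lab B h y (some (i, j)) none - lab B h y (some (i, j')) (some c)| ≤
      S.D B.n (ev (B.tri (some (i, j))) none) (ev (B.tri (some (i, j'))) (some c)) := by
  have hr := rk_par B i
  have key : ∀ a, B.tri (some (i, j')) c = B.tri (some (i, j)) a →
      |lab B h y (some (i, j)) none - lab B h y (some (i, j')) (some c)| ≤
      S.D B.n (ev (B.tri (some (i, j))) none) (ev (B.tri (some (i, j'))) (some c)) := by
    intro a ha
    have := same S hd h y hL hP (some (i, j)) (by simp only [rk]; omega) none (some a)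
    have e1 : lab B h y (some (i, j')) (some c) = lab B h y (some (i, j)) (some a) := by
      simp only [lab, ha]
    have e2 : ev (B.tri (some (i, j'))) (some c) = ev (B.tri (some (i, j))) (some a) := by
      funext ω
      simp only [ev, ha]
    rw [e1, e2]
    exact this
  by_cases h1 : c = j'
  · exact key j (by rw [h1, tri_self B i hi, tri_self B i hi])
  by_cases h2 : c = j
  · subst h2
    rw [sibD S i hi (one S hd _ _ rfl (by omega)), alg_mv _ _ _ _ _ hj]
    simp only [lab]
    rw [tri_ne B i hi _ _ h1]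
    have a1 := hP.1 (B.par i) (by omega) c
    have a2 := hP.2.1 i hi c
    have a3 := (S.hκ (B.par i) (by omega) c).2
    have a4 := abs_sub_le (y (some (i, c))) (y (B.par i)) (h (B.tri (B.par i) c))
    linarith
  · exact key c (by rw [tri_ne B i hi _ _ h1, tri_ne B i hi _ _ h2])

theorem inbag (B : Build V) (i : ℕ) (hi : i < B.n) (j c : Fin 3) :
    B.tri (some (i, j)) c = B.x i ∨ ∃ c', B.tri (B.par i) c' = B.tri (some (i, j)) c := by
  by_cases h : c = j
  · left; rw [h, tri_self B i hi]
  · right; exact ⟨c, (tri_ne B i hi j c h).symm⟩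

theorem three (S : Strat B d C) (hd : PM d) (h : V → ℝ) (y : Nd → ℝ) (hL : Lip d h)
    (hP : Pot S h y) (N N' : Nd) (hN : rk N ≤ B.n) (hS : Sib B N N') (f g : Sl) :
    |lab B h y N f - lab B h y N' g| ≤ S.D B.n (ev (B.tri N) f) (ev (B.tri N') g) := by
  rcases hS with rfl | ⟨i, j, j', hi, hj, rfl, rfl⟩
  · exact same S hd h y hL hP N hN f g
  have hr := rk_par B i
  rcases f with _ | c <;> rcases g with _ | c'
  · rw [sibD S i hi (one S hd _ _ rfl (by omega)), alg_mm _ _ _ _ _ hj]
    exact hP.2.2 i hi j j' hj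
  · exact medv S hd h y hL hP i hi j j' hj c'
  · rw [abs_sub_comm, (pm S B.n le_rfl).2.1]
    exact medv S hd h y hL hP i hi j' j hj.symm c
  · obtain ⟨M, a, b, hM, ha, hb⟩ := bag_node B (B.tri (some (i, j)) c) (B.tri (some (i, j')) c')
      (Or.inr ⟨i, hi, inbag B i hi j c, inbag B i hi j' c'⟩)
    have := same S hd h y hL hP M hM (some a) (some b)
    have e1 : lab B h y (some (i, j)) (some c) = lab B h y M (some a) := by simp only [lab, ha]
    have e2 : lab B h y (some (i, j')) (some c') = lab B h y M (some b) := by simp only [lab, hb]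
    have e3 : ev (B.tri (some (i, j))) (some c) = ev (B.tri M) (some a) := by
      funext ω; simp only [ev, ha]
    have e4 : ev (B.tri (some (i, j'))) (some c') = ev (B.tri M) (some b) := by
      funext ω; simp only [ev, hb]
    rw [e1, e2, e3, e4]
    exact this

end DisM

theorem disS (_hI : StmtInt) : StmtDis := by
  intro V _ B d C S hd
  exact ⟨fun N => DisM.one S hd _ N rfl, DisM.two S hd, DisM.three S hd⟩

end Vale.Agent.P235
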