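import Vale.Agent.P235.Defs

namespace Vale.Agent.P235

/-- `Elim G k A`: the subgraph induced on `A` is built from graphs of treewidth at most three by
disjoint unions, gluing at one vertex, and at most `k` nested additions of an apex vertex. -/
inductive Elim {V : Type} (G : SimpleGraph V) : ℕ → Set V → Prop
  | base (k : ℕ) (A : Set V) : TwLe (G.induce A) 3 → Elim G k A
  | apex (k : ℕ) (A : Set V) (a : V) : Elim G k (A \ {a}) → Elim G (k + 1) A
  | glue (k : ℕ) (A B : Set V) : Elim G k A → Elim G k B → (A ∩ B).Subsingleton →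
      (∀ u ∈ A \ B, ∀ v ∈ B \ A, ¬ G.Adj u v) → Elim G k (A ∪ B)

end Vale.Agent.P235
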