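import Vale.Agent.P235.Ap16b
import Vale.Agent.P235.ElDef

namespace Vale.Agent.P235.Ap16

open Finset

def CM {W : Type} (D : W → W → ℝ) : Prop :=
  ∃ (ι : Type) (_ : Fintype ι) (a : ι → ℝ) (c : ι → W → Bool), (∀ i, 0 ≤ a i) ∧
    ∀ u v, D u v = cd a c u v

theorem CM.add {W : Type} {D D' : W → W → ℝ} (h : CM D) (h' : CM D') :
    CM fun u v => D u v + D' u v := by
  obtain ⟨ι, _, a, c, ha, e⟩ := h
  obtain ⟨ι', _, a', c', ha', e'⟩ := h'
  refine ⟨ι ⊕ ι', inferInstance, Sum.elim a a', Sum.elim c c', fun i => ?_, fun u v => ?_⟩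
  · cases i
    exacts [ha _, ha' _]
  · show D u v + D' u v = _
    rw [e, e', cd, cd, cd, Fintype.sum_sum_type]
    rfl

theorem CM.one {W : Type} (t : ℝ) (ht : 0 ≤ t) (c : W → Bool) :
    CM fun u v => t * if c u = c v then 0 else 1 :=
  ⟨Unit, inferInstance, fun _ => t, fun _ => c, fun _ => ht, fun u v => by simp [cd]⟩

theorem CM.comp {W W' : Type} {D : W → W → ℝ} (h : CM D) (f : W' → W) :
    CM fun u v => D (f u) (f v) := by
  obtain ⟨ι, _, a, c, ha, e⟩ := h
  exact ⟨ι, inferInstance, a, fun i u => c i (f u), ha, fun u v => e _ _⟩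

theorem CM.self {W : Type} {D : W → W → ℝ} (h : CM D) (u : W) : D u u = 0 := by
  obtain ⟨ι, _, a, c, ha, e⟩ := h
  simp [e, cd]

theorem CM.congr {W : Type} {D D' : W → W → ℝ} (h : CM D) (e : ∀ u v, D' u v = D u v) : CM D' := by
  rwa [show D' = D from funext fun u => funext fun v => e u v]

theorem CM.zero {W : Type} : CM fun _ _ : W => (0 : ℝ) :=
  (CM.one 0 le_rfl fun _ => true).congr fun _ _ => by simp

theorem cutR {W : Type} [Fintype W] (n : ℕ) : ∀ φ : W → ℝ, (univ.image φ).card ≤ n + 1 →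
    CM fun u v => |φ u - φ v| := by
  classical
  induction n with
  | zero =>
    intro φ h
    refine CM.zero.congr fun u v => ?_
    rw [card_le_one.1 h _ (mem_image_of_mem φ (mem_univ u)) _ (mem_image_of_mem φ (mem_univ v))]
    simp
  | succ n ih =>
    intro φ h
    by_cases h' : (univ.image φ).card ≤ n + 1
    · exact ih φ h'
    have h1 : (univ.image φ).Nonempty := card_pos.1 (by omega)
    set m := (univ.image φ).min' h1 with hm
    have hc : ((univ.image φ).erase m).card = (univ.image φ).card - 1 :=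
      card_erase_of_mem (min'_mem _ h1)
    have h2 : ((univ.image φ).erase m).Nonempty := card_pos.1 (by omega)
    set m2 := ((univ.image φ).erase m).min' h2 with hm2
    have k2 : m2 ∈ (univ.image φ).erase m := min'_mem _ h2
    have k1 : m ≤ m2 := min'_le _ _ (mem_of_mem_erase k2)
    have k3 : ∀ u, φ u ≠ m → m2 ≤ φ u := fun u hu =>
      min'_le _ _ (mem_erase.2 ⟨hu, mem_image_of_mem φ (mem_univ u)⟩)
    have hs : (univ.image fun u => max (φ u) m2) ⊆ (univ.image φ).erase m := fun y hy => by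
      obtain ⟨u, -, rfl⟩ := mem_image.1 hy
      by_cases hu : φ u = m
      · rw [hu, max_eq_right k1]; exact k2
      · rw [max_eq_left (k3 u hu)]
        exact mem_erase.2 ⟨hu, mem_image_of_mem φ (mem_univ u)⟩
    refine ((ih _ ((card_le_card hs).trans (by omega))).add
      (CM.one (m2 - m) (sub_nonneg.2 k1) fun u => decide (φ u = m))).congr fun u v => ?_
    by_cases hu : φ u = m <;> by_cases hv : φ v = m
    · simp [hu, hv]
    · have := k3 v hv
      rw [max_eq_left this, hu, max_eq_right k1, abs_of_nonpos (by linarith),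
        abs_of_nonpos (by linarith)]
      simp [hv]
    · have := k3 u hu
      rw [max_eq_left this, hv, max_eq_right k1, abs_of_nonneg (by linarith),
        abs_of_nonneg (by linarith)]
      simp [hu]
    · rw [max_eq_left (k3 u hu), max_eq_left (k3 v hv)]
      simp [hu, hv]

theorem cutS {W κ : Type} [Fintype W] (φ : W → κ → ℝ) (s : Finset κ) :
    CM fun u v => ∑ k ∈ s, |φ u k - φ v k| := by
  classical
  induction s using Finset.induction_on with
  | empty => exact CM.zero.congr fun _ _ => by simp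
  | insert k s hk ih =>
    exact ((cutR _ (fun u => φ u k) (Nat.le_succ _)).add ih).congr fun u v => by rw [sum_insert hk]

def Q {V : Type} (G : SimpleGraph V) (d : V → V → ℝ) (C : ℝ) (A : Set V) : Prop :=
  ∃ D, CM D ∧ ∀ u ∈ A, ∀ v ∈ A, d u v ≤ D u v ∧ (G.Adj u v → D u v ≤ C * d u v)

noncomputable def cst (C : ℝ) : ℕ → ℝ
  | 0 => C
  | k + 1 => 128 * (5 + 4 * cst C k)

theorem cst_le {C : ℝ} (hC : 0 ≤ C) (k : ℕ) : C ≤ cst C k := by
  induction k with
  | zero => exact le_rfl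
  | succ k ih => rw [cst]; linarith

theorem elim (hG : StmtGame) (hT : StmtTD) (hR : StmtRec) (hI : StmtInt) (hD : StmtDis)
    (hL : StmtLB) : ∃ C : ℝ, 0 ≤ C ∧ ∀ (V : Type) [Fintype V] (G : SimpleGraph V)
    (d : V → V → ℝ), PM d → ∀ k A, Elim G k A → Q G d (cst C k) A := by
  classical
  obtain ⟨C, hC, h⟩ := cuts hG hT hR hI hD hL
  refine ⟨C, hC, fun V _ G d hd k A hA => ?_⟩
  induction hA with
  | base k A htw =>
    have e : A = {v | v ∉ univ.filter fun v => v ∉ A} := by ext v; simp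
    rw [e] at htw
    obtain ⟨ι, _, a, c, ha, hac⟩ := h V G _ d hd htw
    refine ⟨cd a c, ⟨ι, inferInstance, a, c, ha, fun _ _ => rfl⟩, fun u hu v hv => ?_⟩
    have := hac u v (by simpa using hu) (by simpa using hv)
    exact ⟨this.1, fun h => (this.2 h).trans
      (mul_le_mul_of_nonneg_right (cst_le hC k) (hd.2.2.1 u v))⟩
  | apex k A z _ ih =>
    obtain ⟨D, ⟨ι, _, a, c, ha, e⟩, hD⟩ := ih
    have h0 : 0 ≤ cst C k := hC.trans (cst_le hC k)
    have hpm : PM fun u v : (insert z A : Set V) => d u v :=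
      ⟨fun _ => hd.1 _, fun _ _ => hd.2.1 _ _, fun _ _ => hd.2.2.1 _ _, fun _ _ _ => hd.2.2.2 _ _ _⟩
    have hn : ∀ u : (insert z A : Set V),
        u ∉ ({⟨z, Set.mem_insert z A⟩} : Finset (insert z A : Set V)) → (u : V) ∈ A \ {z} :=
      fun u hu => by
        have : (u : V) ≠ z := fun h => hu (mem_singleton.2 (Subtype.ext h))
        exact ⟨(Set.mem_insert_iff.1 u.2).resolve_left this, this⟩
    obtain ⟨κ, _, φ, hφ⟩ := apex a ha (fun i (u : (insert z A : Set V)) => c i u) _ hpm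
      {⟨z, Set.mem_insert z A⟩} (singleton_nonempty _) _ h0
      fun u v hu hv => ((hD u (hn u hu) v (hn v hv)).1).trans (e u v).le
    refine ⟨_, (cutS (fun u k => 128 * φ u k) univ).comp fun u : V =>
      if h : u ∈ insert z A then ⟨u, h⟩ else ⟨z, Set.mem_insert z A⟩, fun u hu v hv => ?_⟩
    have hu' : u ∈ insert z A := Set.mem_insert_of_mem z hu
    have hv' : v ∈ insert z A := Set.mem_insert_of_mem z hv
    simp only [dif_pos hu', dif_pos hv', ← mul_sub, abs_mul,
      abs_of_pos (by norm_num : (0 : ℝ) < 128), ← mul_sum]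
    refine ⟨(hφ ⟨u, hu'⟩ ⟨v, hv'⟩).1, fun h => ?_⟩
    have := (hφ ⟨u, hu'⟩ ⟨v, hv'⟩).2 (by
      by_contra hh
      push Not at hh
      exact absurd ((e u v).symm.le.trans ((hD u (hn _ hh.1) v (hn _ hh.2.1)).2 h))
        (not_le.2 hh.2.2))
    rw [card_singleton] at this
    rw [cst]
    push_cast at this
    linarith
  | glue k A B _ _ hs hn ihA ihB =>
    obtain ⟨D, hD, h1⟩ := ihA
    obtain ⟨D', hD', h2⟩ := ihB
    rcases A.eq_empty_or_nonempty with rfl | ⟨x0, hx0⟩
    · exact ⟨D', hD', by simpa using h2⟩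
    rcases B.eq_empty_or_nonempty with rfl | ⟨y0, hy0⟩
    · exact ⟨D, hD, by simpa using h1⟩
    obtain ⟨x, hx, y, hy, hxy⟩ : ∃ x ∈ A, ∃ y ∈ B, ∀ z ∈ A, z ∈ B → z = x ∧ z = y := by
      rcases (A ∩ B).eq_empty_or_nonempty with h | ⟨z, hz⟩
      · exact ⟨x0, hx0, y0, hy0, fun z a b => absurd (h ▸ (⟨a, b⟩ : z ∈ A ∩ B)) (Set.notMem_empty z)⟩
      · exact ⟨z, hz.1, z, hz.2, fun w a b => ⟨hs ⟨a, b⟩ hz, hs ⟨a, b⟩ hz⟩⟩
    have pA : ∀ u ∈ B, (if u ∈ A then u else x) = x := fun u hu => by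
      split_ifs with h
      exacts [(hxy u h hu).1, rfl]
    have pB : ∀ u ∈ A, (if u ∈ B then u else y) = y := fun u hu => by
      split_ifs with h
      exacts [(hxy u hu h).2, rfl]
    refine ⟨_, ((hD.comp fun u => if u ∈ A then u else x).add
      (hD'.comp fun u => if u ∈ B then u else y)).add
      (CM.one (d x y) (hd.2.2.1 x y) fun u => decide (u ∈ A)), ?_⟩
    have cr : ∀ u ∈ A, u ∉ B → ∀ v ∈ B, v ∉ A → d u v ≤ D u x + D' y v + d x y ∧
        d v u ≤ D x u + D' v y + d x y := fun u hu _ v hv _ => by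
      have := (h1 u hu x hx).1
      have := (h1 x hx u hu).1
      have := (h2 y hy v hv).1
      have := (h2 v hv y hy).1
      have := hd.2.2.2 u x v
      have := hd.2.2.2 x y v
      have := hd.2.1 u v
      have := hd.2.1 u x
      have := hd.2.1 y v
      constructor <;> linarith
    have inB : ∀ u ∈ B, ∀ v ∈ B, (d x y * if decide (u ∈ A) = decide (v ∈ A) then 0 else 1) = 0 :=
      fun u hu v hv => by
        by_cases a : u ∈ A
        · rw [← (hxy u a hu).1, ← (hxy u a hu).2, hd.1, zero_mul]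
        by_cases b : v ∈ A
        · rw [← (hxy v b hv).1, ← (hxy v b hv).2, hd.1, zero_mul]
        simp [a, b]
    intro u hu v hv
    by_cases a : u ∈ A ∧ v ∈ A
    · simpa [a.1, a.2, pB u a.1, pB v a.2, hD'.self] using h1 u a.1 v a.2
    by_cases b : u ∈ B ∧ v ∈ B
    · simp only [pA u b.1, pA v b.2, hD.self, inB u b.1 v b.2, if_pos b.1, if_pos b.2, zero_add,
        add_zero]
      exact h2 u b.1 v b.2
    by_cases c : u ∈ A
    · have v1 : v ∉ A := fun h => a ⟨c, h⟩
      have v2 : v ∈ B := hv.resolve_left v1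
      have u2 : u ∉ B := fun h => b ⟨h, v2⟩
      refine ⟨?_, fun h => absurd h (hn u ⟨c, u2⟩ v ⟨v2, v1⟩)⟩
      simpa [c, v1, v2, u2] using (cr u c u2 v v2 v1).1
    · have u2 : u ∈ B := hu.resolve_left c
      have v2 : v ∉ B := fun h => b ⟨u2, h⟩
      have v1 : v ∈ A := hv.resolve_right v2
      refine ⟨?_, fun h => absurd h.symm (hn v ⟨v1, v2⟩ u ⟨u2, c⟩)⟩
      simpa [c, v1, v2, u2] using (cr v v1 v2 u u2 c).2

theorem mainE (hG : StmtGame) (hT : StmtTD) (hM : StmtMet) (hR : StmtRec) (hI : StmtInt)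
    (hD : StmtDis) (hL : StmtLB) (k : ℕ) : ∃ C : ℝ, ∀ (V : Type) [Fintype V] (G : SimpleGraph V),
    G.Connected → Elim G k Set.univ →
    ∀ ℓ : Sym2 V → ℝ, (∀ e ∈ G.edgeSet, 0 < ℓ e) → EmbL1 (gdist G ℓ) C := by
  classical
  obtain ⟨C, hC, h⟩ := elim hG hT hR hI hD hL
  refine ⟨cst C k, fun V _ G hc hE ℓ hℓ => ?_⟩
  obtain ⟨hpm, hup⟩ := hM V G ℓ hc hℓ
  obtain ⟨D, ⟨ι, _, a, c, ha, e⟩, hD⟩ := h V G _ hpm k _ hE
  obtain ⟨m, μ, f, hf⟩ := EmbM.exists_emb (Ω := ι) (V := V) fun u i => if c i u then a i else 0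
  have e2 : ∀ u v, ‖f u - f v‖ = D u v := fun u v => by
    rw [hf, e, cd]
    refine sum_congr rfl fun i _ => ?_
    cases c i u <;> cases c i v <;> simp [abs_of_nonneg (ha i)]
  have hP : PM D := ⟨fun u => by rw [← e2]; simp, fun u v => by rw [← e2, ← e2, norm_sub_rev],
    fun u v => by rw [← e2]; exact norm_nonneg _,
    fun u v z => by rw [← e2, ← e2, ← e2]; exact norm_sub_le_norm_sub_add_norm_sub _ _ _⟩
  have hle := hup D _ (hC.trans (cst_le hC k)) hP fun u v h => (hD u trivial v trivial).2 h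
  exact ⟨ι, m, μ, f, fun x y => by rw [e2]; exact ⟨(hD x trivial y trivial).1, hle x y⟩⟩

end Vale.Agent.P235.Ap16
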