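import Vale.Agent.P235.CSpec

namespace Vale.Agent.P235

namespace LinkM

variable {z : List ℝ}

theorem one {f : Fm} (h : ∃ o ∈ [[f]], ∀ g ∈ o, 0 ≤ fev g z) : 0 ≤ fev f z := by simpa using h

theorem three {f1 f2 f3 : Fm} (h : ∃ o ∈ [[f1], [f2], [f3]], ∀ g ∈ o, 0 ≤ fev g z) :
    0 ≤ fev f1 z ∨ 0 ≤ fev f2 z ∨ 0 ≤ fev f3 z := by simpa using h

theorem five {o1 o2 o3 o4 o5 : List Fm} (h : ∃ o ∈ [o1, o2, o3, o4, o5], ∀ g ∈ o, 0 ≤ fev g z) :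
    (∀ g ∈ o1, 0 ≤ fev g z) ∨ (∀ g ∈ o2, 0 ≤ fev g z) ∨ (∀ g ∈ o3, 0 ≤ fev g z) ∨
      (∀ g ∈ o4, 0 ≤ fev g z) ∨ (∀ g ∈ o5, 0 ≤ fev g z) := by
  simpa only [List.mem_cons, exists_eq_or_imp, List.not_mem_nil, false_and, exists_false,
    or_false, exists_eq_left] using h

theorem an {A a : ℕ} {f1 f2 f3 f4 X Y : Fm} {M Gs Gt ds dt N q pj rj dj ra : ℝ}
    (h : ∀ g ∈ [f1, f2, f3, f4, if A = a then X else Y], 0 ≤ fev g z)
    (e1 : fev f1 z = 128 * M) (e2 : fev f2 z = 128 * (M + Gs - ds / 32))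
    (e3 : fev f3 z = 128 * (M + Gt - dt / 32)) (e4 : fev f4 z = 128 * (M + 8 * N - q))
    (e5 : fev X z = 128 * (M + 8 * pj + rj - dj / 32)) (e6 : fev Y z = 128 * (M + 8 * pj - ra)) :
    An A a M Gs Gt ds dt N q pj rj dj ra := by
  simp only [List.forall_mem_cons] at h
  obtain ⟨h1, h2, h3, h4, h5, -⟩ := h
  refine ⟨by linarith, by linarith, by linarith, by linarith, ?_⟩
  by_cases c : A = a
  · rw [if_pos c] at h5
    exact Or.inl ⟨c, by linarith⟩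
  · rw [if_neg c] at h5
    exact Or.inr (by linarith)

theorem or3 {f1 f2 f3 : Fm} {a1 b1 a2 b2 a3 b3 : ℝ}
    (h : ∃ o ∈ [[f1], [f2], [f3]], ∀ g ∈ o, 0 ≤ fev g z) (e1 : fev f1 z = 128 * (b1 - a1))
    (e2 : fev f2 z = 128 * (b2 - a2)) (e3 : fev f3 z = 128 * (b3 - a3)) :
    a1 ≤ b1 ∨ a2 ≤ b2 ∨ a3 ≤ b3 := by
  rcases three h with h | h | h
  · exact Or.inl (by linarith)
  · exact Or.inr (Or.inl (by linarith))
  · exact Or.inr (Or.inr (by linarith))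

theorem le1 {f : Fm} {a b : ℝ} (h : ∃ o ∈ [[f]], ∀ g ∈ o, 0 ≤ fev g z)
    (e : fev f z = 128 * (b - a)) : a ≤ b := by linarith [one h]

variable {A : ℕ} {g0 g1 g2 G0 G1 G2 κ k0 k1 k2 p0 p1 p2 l e0 e1 e2 m0 m1 m2 M : ℝ}

theorem ch0 (h : DjOK [g0, g1, g2, G0, G1, G2, κ, k0, k1, k2, p0, p1, p2, l, e0, e1, e2, m0, m1, m2, M]
    (respD A)) : Ch A 1 2 g0 g1 g2 G1 G2 κ G1 G2 k0 k1 k2 p0 p1 p2 l
    (G0 - p0 + p1 + p2 + e0) (G1 - p1 + p0 + p2 + e1) (G2 - p2 + p0 + p1 + e2) := by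
  simp only [DjOK, respD, List.forall_mem_cons] at h
  obtain ⟨-, -, -, -, -, -, -, -, -, -, -, -, -, -, -, -, h1, h2, h3, h4, h5, -⟩ := h
  refine ⟨or3 h1 ?_ ?_ ?_, (five h2).imp (fun h => an h ?_ ?_ ?_ ?_ ?_ ?_) (Or.imp
    (fun h => an h ?_ ?_ ?_ ?_ ?_ ?_) (Or.imp (fun h => an h ?_ ?_ ?_ ?_ ?_ ?_) (Or.imp
    (fun h => an h ?_ ?_ ?_ ?_ ?_ ?_) fun h => an h ?_ ?_ ?_ ?_ ?_ ?_))), or3 h3 ?_ ?_ ?_,
    or3 h4 ?_ ?_ ?_, or3 h5 ?_ ?_ ?_⟩ <;> (simp only [fev]; push_cast; ring)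

theorem ch1 (h : DjOK [g0, g1, g2, G0, G1, G2, κ, k0, k1, k2, p0, p1, p2, l, e0, e1, e2, m0, m1, m2, M]
    (respD A)) : Ch A 2 0 g1 g2 g0 G2 G0 G1 G2 κ k1 k2 k0 p1 p2 p0 l
    (G1 - p1 + p0 + p2 + e1) (G2 - p2 + p0 + p1 + e2) (G0 - p0 + p1 + p2 + e0) := by
  simp only [DjOK, respD, List.forall_mem_cons] at h
  obtain ⟨-, -, -, -, -, -, -, -, -, -, -, -, -, -, -, -, -, -, -, -, -, h1, h2, h3, h4, h5, -⟩ := h
  refine ⟨or3 h1 ?_ ?_ ?_, (five h2).imp (fun h => an h ?_ ?_ ?_ ?_ ?_ ?_) (Or.imp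
    (fun h => an h ?_ ?_ ?_ ?_ ?_ ?_) (Or.imp (fun h => an h ?_ ?_ ?_ ?_ ?_ ?_) (Or.imp
    (fun h => an h ?_ ?_ ?_ ?_ ?_ ?_) fun h => an h ?_ ?_ ?_ ?_ ?_ ?_))), or3 h3 ?_ ?_ ?_,
    or3 h4 ?_ ?_ ?_, or3 h5 ?_ ?_ ?_⟩ <;> (simp only [fev]; push_cast; ring)

theorem ch2 (h : DjOK [g0, g1, g2, G0, G1, G2, κ, k0, k1, k2, p0, p1, p2, l, e0, e1, e2, m0, m1, m2, M]
    (respD A)) : Ch A 0 1 g2 g0 g1 G0 G1 G2 κ G1 k2 k0 k1 p2 p0 p1 l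
    (G2 - p2 + p0 + p1 + e2) (G0 - p0 + p1 + p2 + e0) (G1 - p1 + p0 + p2 + e1) := by
  simp only [DjOK, respD, List.forall_mem_cons] at h
  obtain ⟨-, -, -, -, -, -, -, -, -, -, -, -, -, -, -, -, -, -, -, -, -, -, -, -, -, -, h1, h2, h3, h4, h5, -⟩ := h
  refine ⟨or3 h1 ?_ ?_ ?_, (five h2).imp (fun h => an h ?_ ?_ ?_ ?_ ?_ ?_) (Or.imp
    (fun h => an h ?_ ?_ ?_ ?_ ?_ ?_) (Or.imp (fun h => an h ?_ ?_ ?_ ?_ ?_ ?_) (Or.imp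
    (fun h => an h ?_ ?_ ?_ ?_ ?_ ?_) fun h => an h ?_ ?_ ?_ ?_ ?_ ?_))), or3 h3 ?_ ?_ ?_,
    or3 h4 ?_ ?_ ?_, or3 h5 ?_ ?_ ?_⟩ <;> (simp only [fev]; push_cast; ring)

theorem ra (h : DjOK [g0, g1, g2, G0, G1, G2, κ, k0, k1, k2, p0, p1, p2, l, e0, e1, e2, m0, m1, m2, M]
    (respD A)) : RespA A g0 g1 g2 G0 G1 G2 κ k0 k1 k2 p0 p1 p2 l e0 e1 e2 := by
  have c0 := ch0 h
  have c1 := ch1 h
  have c2 := ch2 h
  simp only [DjOK, respD, List.forall_mem_cons] at h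
  obtain ⟨h1, h2, h3, h4, h5, h6, h7, h8, h9, h10, h11, h12, h13, h14, h15, h16, -⟩ := h
  refine ⟨le1 h1 ?_, ⟨le1 h2 ?_, le1 h3 ?_, le1 h4 ?_⟩, ⟨le1 h5 ?_, le1 h6 ?_, le1 h7 ?_⟩,
    ⟨le1 h8 ?_, le1 h9 ?_, le1 h10 ?_⟩, ⟨le1 h11 ?_, le1 h12 ?_, le1 h13 ?_⟩,
    ⟨le1 h14 ?_, le1 h15 ?_, le1 h16 ?_⟩, c0, c1, c2⟩ <;> (simp only [fev]; push_cast; ring)

theorem mo (hM : StmtMono) {ty : Bool} {c0 c1 c2 b : ℕ} (hb : 0 < b) (hc : c0 + c1 + c2 ≤ b)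
    (h : DjOK [g0, g1, g2, G0, G1, G2, κ, k0, k1, k2, p0, p1, p2, l, e0, e1, e2, m0, m1, m2, M]
    (monoD ty c0 c1 c2 b)) : Mono G0 G1 G2 p0 p1 p2 := by
  cases ty
  · simp only [DjOK, monoD, Bool.false_eq_true, if_false, List.forall_mem_cons] at h
    obtain ⟨h1, h2, h3, h4, h5, h6, -⟩ := h
    replace h1 := one h1
    replace h2 := one h2
    replace h3 := one h3
    replace h4 := one h4
    replace h5 := one h5
    replace h6 := one h6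
    simp only [fev] at h1 h2 h3 h4 h5 h6
    push_cast at h1 h2 h3 h4 h5 h6
    have b0 : (0 : ℝ) < b := by exact_mod_cast hb
    have c' : (c0 : ℝ) + c1 + c2 ≤ b := by exact_mod_cast hc
    refine hM.1 _ _ _ _ _ _ (c0 / b) (c1 / b) (c2 / b) (by positivity) (by positivity)
      (by positivity) ?_ (by linarith) (by linarith) (by linarith) ?_ ?_ ?_
    · rw [← add_div, ← add_div, div_le_one b0]; exact c'
    · rw [div_mul_eq_mul_div, le_div_iff₀ b0]; linarith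
    · rw [div_mul_eq_mul_div, le_div_iff₀ b0]; linarith
    · rw [div_mul_eq_mul_div, le_div_iff₀ b0]; linarith
  · simp only [DjOK, monoD, if_true, List.forall_mem_cons] at h
    obtain ⟨h1, h2, h3, h4, h5, h6, h7, ⟨o, ho, h8⟩, -⟩ := h
    rw [List.mem_singleton] at ho
    subst ho
    simp only [List.forall_mem_cons] at h8
    obtain ⟨a1, a2, a3, a4, a5, a6, -⟩ := h8
    replace h1 := one h1
    replace h2 := one h2
    replace h3 := one h3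
    replace h4 := one h4
    replace h5 := one h5
    replace h6 := one h6
    replace h7 := one h7
    simp only [fev] at h1 h2 h3 h4 h5 h6 h7 a1 a2 a3 a4 a5 a6
    push_cast at h1 h2 h3 h4 h5 h6 h7 a1 a2 a3 a4 a5 a6
    have q0 : p0 = c0 * m0 := by linarith
    have q1 : p1 = c1 * m1 := by linarith
    have q2 : p2 = c2 * m2 := by linarith
    rw [q0, q1, q2]
    exact hM.2 _ _ _ _ _ _ M _ _ _ (by positivity) (by positivity) (by positivity) (by linarith)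
      (by linarith) (by linarith) (by linarith) (by linarith) (by linarith) (by linarith)

end LinkM

theorem linkS (hM : StmtMono) : StmtLink := by
  intro ty c0 c1 c2 b A g0 g1 g2 G0 G1 G2 κ k0 k1 k2 p0 p1 p2 l e0 e1 e2 m0 m1 m2 M hb hc h
  exact ⟨A, p0, p1, p2, l, e0, e1, e2,
    LinkM.mo hM hb hc fun d hd => h d (List.mem_append_left _ hd),
    LinkM.ra fun d hd => h d (List.mem_append_right _ hd)⟩

end Vale.Agent.P235
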