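import Vale.Agent.P235.GSpec

namespace Vale.Agent.P235

namespace MonoLm

theorem one (G p c : ℝ) (hc : 0 ≤ c) (hp : 0 ≤ p) (h : p ≤ c * G) :
    ∃ w : ℝ, 0 ≤ w ∧ w ≤ c ∧ p = w * G := by
  rcases hp.eq_or_lt with h0 | h0
  · exact ⟨0, le_refl _, hc, by rw [← h0]; ring⟩
  · have hG : 0 < G := by
      by_contra hn
      have : c * G ≤ 0 := mul_nonpos_of_nonneg_of_nonpos hc (not_lt.mp hn)
      linarith
    refine ⟨p / G, div_nonneg h0.le hG.le, ?_, ?_⟩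
    · rw [div_le_iff₀ hG]; exact h
    · field_simp

theorem first (G0 G1 G2 p0 p1 p2 c0 c1 c2 : ℝ) (h0 : 0 ≤ c0) (h1 : 0 ≤ c1) (h2 : 0 ≤ c2)
    (hs : c0 + c1 + c2 ≤ 1) (q0 : 0 ≤ p0) (q1 : 0 ≤ p1) (q2 : 0 ≤ p2)
    (r0 : p0 ≤ c0 * G0) (r1 : p1 ≤ c1 * G1) (r2 : p2 ≤ c2 * G2) :
    Mono G0 G1 G2 p0 p1 p2 := by
  obtain ⟨w0, a0, b0, e0⟩ := one G0 p0 c0 h0 q0 r0
  obtain ⟨w1, a1, b1, e1⟩ := one G1 p1 c1 h1 q1 r1
  obtain ⟨w2, a2, b2, e2⟩ := one G2 p2 c2 h2 q2 r2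
  exact ⟨w0, w1, w2, a0, a1, a2, by linarith, e0, e1, e2⟩

theorem step (G m M c : ℝ) (hm : 0 ≤ m) (hM : 0 < M) (h : c * M ≤ G) :
    c * m ≤ m / M * G := by
  have e : c * m = m / M * (c * M) := by field_simp
  rw [e]
  exact mul_le_mul_of_nonneg_left h (div_nonneg hm hM.le)

end MonoLm

theorem monoS : StmtMono := by
  refine ⟨MonoLm.first, ?_⟩
  intro G0 G1 G2 m0 m1 m2 M c0 c1 c2 h0 h1 h2 n0 n1 n2 hs r0 r1 r2
  have hM : 0 ≤ M := by linarith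
  rcases hM.eq_or_lt with hz | hz
  · have z0 : m0 = 0 := by linarith
    have z1 : m1 = 0 := by linarith
    have z2 : m2 = 0 := by linarith
    subst z0 z1 z2
    exact ⟨0, 0, 0, le_refl _, le_refl _, le_refl _, by norm_num, by ring, by ring, by ring⟩
  · refine MonoLm.first G0 G1 G2 _ _ _ (m0 / M) (m1 / M) (m2 / M)
      (div_nonneg n0 hM) (div_nonneg n1 hM) (div_nonneg n2 hM) ?_
      (mul_nonneg h0 n0) (mul_nonneg h1 n1) (mul_nonneg h2 n2)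
      (MonoLm.step _ _ _ _ n0 hz r0) (MonoLm.step _ _ _ _ n1 hz r1) (MonoLm.step _ _ _ _ n2 hz r2)
    rw [← add_div, ← add_div, div_le_one hz]
    exact hs

end Vale.Agent.P235
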