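import Vale.Agent.P235.FastT
import Vale.Agent.P235.Link
import Vale.Agent.P235.MonoL

namespace Vale.Agent.P235

theorem cF (C : List Fm) (t : TT) (h : chkF C t = true) : Closed C := closedF (linkS monoS) C t h

theorem splC {C : List Fm} {h : Fm} (h1 : Closed (h :: C)) (h2 : Closed (fsm (-1) h :: C)) :
    Closed C := closed_split C h h1 h2

theorem wspC {C : List Fm} {b : ℕ} (hb : b < 3) (h1 : Closed (wpar b 2 :: C))
    (h2 : Closed (wpar b 0 :: fsm (-1) (wpar b 2) :: C))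
    (h3 : Closed (wpar b 1 :: fsm (-1) (wpar b 0) :: fsm (-1) (wpar b 2) :: C)) : Closed C := by
  intro g0 g1 g2 G0 G1 G2 κ k0 k1 k2 h0 w0 w1 w2 hf
  rcases ChkHm.w_cases (ChkHm.w3_ok g0 g1 g2 G0 G1 G2 κ k0 k1 k2 w0 w1 w2) hb hf with h | h | h
  · exact h1 _ _ _ _ _ _ _ _ _ _ h0 w0 w1 w2 h
  · exact h2 _ _ _ _ _ _ _ _ _ _ h0 w0 w1 w2 h
  · exact h3 _ _ _ _ _ _ _ _ _ _ h0 w0 w1 w2 h

/-- trees checked by the slow checker -/
theorem cE {C : List Fm} (h : ∃ t, chkT C t = true) : Closed C :=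
  closed_of (chkH (linkS monoS)) C _ h.choose_spec

end Vale.Agent.P235
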