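import Vale.Agent.P235.Dec25

namespace Vale.Agent.P235.T25

open ChkHm

def HW : ℕ := 191
def Wd : ℕ := Nat.succ HW
def RW : ℕ := 1920
def HB : ℕ := Nat.pow 2 HW
def RM : ℕ := Nat.sub (Nat.pow 2 RW) 1

def pk : Fm → ℤ
  | [] => 0
  | a :: f => a + 2 ^ Wd * pk f

def pP : Fm → ℕ
  | [] => 0
  | a :: f => Nat.add a.toNat (Nat.shiftLeft (pP f) Wd)

def pN : Fm → ℕ
  | [] => 0
  | a :: f => Nat.add (Int.neg a).toNat (Nat.shiftLeft (pN f) Wd)

def pB : Fm → ℕ
  | [] => 0
  | a :: f => Nat.add a.natAbs (pB f)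

theorem pk_eq (f : Fm) : pk f = (pP f : ℤ) - pN f := by
  induction f with
  | nil => simp [pk, pP, pN]
  | cons a f ih =>
    have h : a = (a.toNat : ℤ) - (Int.neg a).toNat := (Int.toNat_sub_toNat_neg a).symm
    simp only [pk, pP, pN, Nat.add_eq, Nat.shiftLeft_eq', Nat.shiftLeft_eq, ih]
    push_cast
    linarith

theorem pk_fadd (f g : Fm) : pk (fadd f g) = pk f + pk g := by
  induction f generalizing g with
  | nil => cases g <;> simp [fadd, pk]
  | cons a f ih =>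
    cases g with
    | nil => simp [fadd, pk]
    | cons b g => simp only [fadd, pk, ih]; ring

theorem pk_fsm (c : ℤ) (f : Fm) : pk (fsm c f) = c * pk f := by
  induction f with
  | nil => simp [fsm, pk]
  | cons a f ih => simp only [fsm, pk, ih]; ring

theorem pB_fadd (f g : Fm) : pB (fadd f g) ≤ pB f + pB g := by
  induction f generalizing g with
  | nil => cases g <;> simp [fadd, pB]
  | cons a f ih =>
    cases g with
    | nil => simp [fadd, pB]
    | cons b g =>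
      have := ih g
      have h2 := Int.natAbs_add_le a b
      simp only [fadd, pB, Nat.add_eq]; omega

theorem pB_fsm (c : ℤ) (f : Fm) : pB (fsm c f) = c.natAbs * pB f := by
  induction f with
  | nil => simp [fsm, pB]
  | cons a f ih => simp only [fsm, pB, Nat.add_eq, ih, Int.natAbs_mul]; ring

def mk : ℕ → ℕ
  | 0 => 0
  | k + 1 => Nat.add (Nat.sub HB 1) (Nat.shiftLeft (mk k) Wd)

def MK : ℕ := mk 10

theorem two_Wd : 2 ^ Wd = 2 * HB := by
  show 2 ^ (HW + 1) = 2 * 2 ^ HW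
  ring

theorem HB_pos : 0 < HB := Nat.two_pow_pos HW

theorem fin_nn (r : Fm) : ∀ (k n : ℕ), n &&& mk k = n →
    pk r = n → pB r ≤ HB → fnn r = true := by
  induction r with
  | nil => intros; rfl
  | cons a r ih =>
    intro k n hn hp hb
    have hH := HB_pos
    have hB := two_Wd
    have key : n % 2 ^ Wd < HB ∧ ∃ k', (n / 2 ^ Wd) &&& mk k' = n / 2 ^ Wd := by
      cases k with
      | zero =>
        have : n = 0 := by simpa [mk] using hn.symm
        subst this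
        exact ⟨by simpa using hH, 0, by simp⟩
      | succ k =>
        have e1 : mk (k + 1) % 2 ^ Wd = HB - 1 := by
          simp only [mk, Nat.add_eq, Nat.sub_eq, Nat.shiftLeft_eq', Nat.shiftLeft_eq]
          rw [Nat.add_mul_mod_self_right, Nat.mod_eq_of_lt (by omega)]
        have e2 : mk (k + 1) / 2 ^ Wd = mk k := by
          simp only [mk, Nat.add_eq, Nat.sub_eq, Nat.shiftLeft_eq', Nat.shiftLeft_eq]
          rw [Nat.add_mul_div_right _ _ (by omega), Nat.div_eq_of_lt (by omega), Nat.zero_add]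
        refine ⟨?_, k, ?_⟩
        · have h1 : n % 2 ^ Wd = n % 2 ^ Wd &&& (HB - 1) := by
            conv_lhs => rw [← hn]
            rw [Nat.and_mod_two_pow, e1]
          have h2 : n % 2 ^ Wd &&& (HB - 1) ≤ HB - 1 := Nat.and_le_right
          omega
        · conv_rhs => rw [← hn]
          rw [Nat.and_div_two_pow, e2]
    obtain ⟨h1, k', h2⟩ := key
    have hdm : (n : ℤ) = (n % 2 ^ Wd : ℕ) + 2 ^ Wd * ((n / 2 ^ Wd : ℕ) : ℤ) := by
      exact_mod_cast (Nat.mod_add_div n (2 ^ Wd)).symm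
    have hBz : (2 : ℤ) ^ Wd = 2 * HB := by exact_mod_cast hB
    simp only [pB, Nat.add_eq] at hb
    simp only [pk] at hp
    generalize n % 2 ^ Wd = d at h1 hdm
    generalize n / 2 ^ Wd = m at h2 hdm
    have ha : |a| ≤ HB := by rw [Int.abs_eq_natAbs]; exact_mod_cast (by omega : a.natAbs ≤ HB)
    have hd : (d : ℤ) < HB := by exact_mod_cast h1
    have hd0 : (0 : ℤ) ≤ d := Int.natCast_nonneg d
    have hH' : (0 : ℤ) < HB := by exact_mod_cast hH
    rw [hBz] at hp hdm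
    have e : pk r = m := by
      have h3 : 2 * (HB : ℤ) * (pk r - m) = d - a := by linarith
      rw [abs_le] at ha
      by_contra hne
      rcases lt_or_gt_of_ne hne with h | h
      · have : pk r - m ≤ -1 := by omega
        nlinarith
      · have : 1 ≤ pk r - m := by omega
        nlinarith
    have ea : a = d := by rw [e] at hp; linarith
    simp only [fnn, Bool.and_eq_true, decide_eq_true_eq]
    exact ⟨by omega, ih k' m h2 e (by omega)⟩

def g0 : Fm := List.replicate 10 (Int.ofNat (Nat.pow 2 60))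
def OFF : ℕ := pP g0
def BB : ℕ := pB g0

def row (X i : ℕ) : ℕ := Nat.land (Nat.shiftRight X (Nat.mul i RW)) RM

theorem land_gen (X i R : ℕ) : Nat.land (Nat.shiftRight X (Nat.mul i R)) (Nat.sub (Nat.pow 2 R) 1) =
    X / 2 ^ (i * R) % 2 ^ R := by
  show (X >>> (i * R)) &&& (2 ^ R - 1) = _
  rw [Nat.and_two_pow_sub_one_eq_mod, Nat.shiftRight_eq_div_pow]

theorem sub_gen (R : ℕ) : Nat.sub (Nat.pow 2 R) 1 = 2 ^ R - 1 := rfl

theorem row_eq (X i : ℕ) : row X i = X / 2 ^ (i * RW) % 2 ^ RW := by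
  unfold row RM
  exact land_gen X i RW

def Inv (x : List ℝ) (X : ℕ) : Prop :=
  ∀ i, ∃ g : Fm, pk g + row X i = OFF ∧ pB g ≤ BB ∧ 0 ≤ fev g x

theorem inv0 (x : List ℝ) (hx : ∀ z ∈ x, 0 ≤ z) : Inv x 0 := by
  intro i
  refine ⟨g0, ?_, le_rfl, fnn_ok _ _ hx (by decide +kernel)⟩
  have : pN g0 = 0 := by decide +kernel
  rw [row_eq, pk_eq, this]
  simp [OFF]

def push (X p n : ℕ) : ℕ := Nat.add (Nat.shiftLeft X RW) (Nat.sub (Nat.add OFF n) p)

def okp (p n b : ℕ) : Bool :=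
  Nat.ble b BB && (Nat.ble p (Nat.add OFF n) && Nat.ble (Nat.sub (Nat.add OFF n) p) RM)

theorem inv_push {x : List ℝ} {X p n b : ℕ} (hX : Inv x X) (g : Fm) (h1 : pk g = (p : ℤ) - n)
    (h2 : pB g ≤ b) (h3 : 0 ≤ fev g x) (h : okp p n b = true) : Inv x (push X p n) := by
  simp only [okp, Bool.and_eq_true, Nat.ble_eq, Nat.add_eq, Nat.sub_eq] at h
  obtain ⟨a1, a2, a3⟩ := h
  have hp : 0 < 2 ^ RW := Nat.two_pow_pos RW
  have a4 : OFF + n - p < 2 ^ RW := by
    have : RM = 2 ^ RW - 1 := by unfold RM; exact sub_gen RW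
    omega
  have e : push X p n = OFF + n - p + X * 2 ^ RW := by
    simp only [push, Nat.add_eq, Nat.sub_eq, Nat.shiftLeft_eq', Nat.shiftLeft_eq]
    omega
  intro i
  cases i with
  | zero =>
    refine ⟨g, ?_, h2.trans a1, h3⟩
    rw [row_eq, e, Nat.zero_mul, pow_zero, Nat.div_one, Nat.add_mul_mod_self_right,
      Nat.mod_eq_of_lt a4, h1]
    omega
  | succ i =>
    obtain ⟨g', b1, b2⟩ := hX i
    refine ⟨g', ?_, b2⟩
    rw [← b1, row_eq, row_eq, e, Nat.succ_mul, Nat.add_comm (i * RW), pow_add,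
      ← Nat.div_div_eq_div_mul, Nat.add_mul_div_right _ _ hp, Nat.div_eq_of_lt a4, Nat.zero_add]

def fin (p n b : ℕ) : Bool :=
  Nat.ble n p && (Nat.beq (Nat.land (Nat.sub p n) MK) (Nat.sub p n) && Nat.ble b HB)

theorem fin_ok {x : List ℝ} (hx : ∀ z ∈ x, 0 ≤ z) {p n b : ℕ} (r : Fm) (h1 : pk r = (p : ℤ) - n)
    (h2 : pB r ≤ b) (h : fin p n b = true) : 0 ≤ fev r x := by
  simp only [fin, Bool.and_eq_true, Nat.ble_eq, Nat.beq_eq, Nat.sub_eq] at h
  obtain ⟨a1, a2, a3⟩ := h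
  refine fnn_ok _ _ hx (fin_nn r 10 (p - n) a2 ?_ (h2.trans a3))
  rw [h1]; omega

noncomputable def go (X v mw n b : ℕ) (k : ℕ) : ℕ → ℕ → ℕ → Bool :=
  Nat.rec (motive := fun _ => ℕ → ℕ → ℕ → Bool)
    (fun _ p t => fin p (Nat.add n (Nat.mul t OFF)) (Nat.add b (Nat.mul t BB)))
    (fun _ ih c p t => ih (Nat.shiftRight c v)
      (Nat.add p (Nat.mul (Nat.land (Nat.shiftRight c 7) mw) (row X (Nat.land c 127))))
      (Nat.add t (Nat.land (Nat.shiftRight c 7) mw))) k

theorem go_ok {x : List ℝ} (hx : ∀ z ∈ x, 0 ≤ z) {X : ℕ} (hX : Inv x X) (v mw n b k : ℕ) :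
    ∀ (c p t : ℕ) (r : Fm), pk r = (p : ℤ) - (n + t * OFF : ℕ) → pB r ≤ b + t * BB →
      go X v mw n b k c p t = true → 0 ≤ fev r x := by
  induction k with
  | zero => intro c p t r h1 h2 h; exact fin_ok hx r h1 h2 h
  | succ k ih =>
    intro c p t r h1 h2 h
    obtain ⟨g, a1, a2, a3⟩ := hX (Nat.land c 127)
    generalize hm : Nat.land (Nat.shiftRight c 7) mw = m
    have h' : go X v mw n b k (Nat.shiftRight c v) (p + m * row X (Nat.land c 127)) (t + m)
        = true := by rw [← hm]; exact h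
    have := ih _ _ _ (fadd r (fsm (-(m : ℤ)) g)) ?_ ?_ h'
    · rw [fev_fadd, fev_fsm] at this
      push_cast at this
      have h5 : (0 : ℝ) ≤ m * fev g x := mul_nonneg (Nat.cast_nonneg m) a3
      linarith
    · rw [pk_fadd, pk_fsm, h1]
      push_cast
      rw [← a1]; ring
    · refine (pB_fadd _ _).trans ?_
      rw [pB_fsm, Int.natAbs_neg, Int.natAbs_natCast, Nat.add_mul]
      have := Nat.mul_le_mul_left m a2
      omega

def lP : Fm → List Fm → ℕ
  | .ofNat k :: f, n :: N => Nat.add (Nat.mul k (pP n)) (lP f N)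
  | .negSucc k :: f, n :: N => Nat.add (Nat.mul (Nat.succ k) (pN n)) (lP f N)
  | _, _ => 0

def lN : Fm → List Fm → ℕ
  | .ofNat k :: f, n :: N => Nat.add (Nat.mul k (pN n)) (lN f N)
  | .negSucc k :: f, n :: N => Nat.add (Nat.mul (Nat.succ k) (pP n)) (lN f N)
  | _, _ => 0

def lB : Fm → List Fm → ℕ
  | a :: f, n :: N => Nat.add (Nat.mul a.natAbs (pB n)) (lB f N)
  | _, _ => 0

theorem lin_pk (f : Fm) (N : List Fm) : pk (lin f N) = (lP f N : ℤ) - lN f N := by
  induction f generalizing N with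
  | nil => simp [lin, lP, lN, pk]
  | cons a f ih =>
    cases N with
    | nil => cases a <;> simp [lin, lP, lN, pk]
    | cons n N =>
      have e : pk (lin (a :: f) (n :: N)) = a * pk n + pk (lin f N) := by
        simp only [lin]
        split_ifs with ha
        · simp [ha]
        · rw [pk_fadd, pk_fsm]
      rw [e, ih, pk_eq]
      cases a with
      | ofNat k =>
        simp only [lP, lN, Nat.add_eq, Nat.mul_eq, Int.ofNat_eq_natCast]; push_cast; ring
      | negSucc k =>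
        simp only [lP, lN, Nat.add_eq, Nat.mul_eq, Int.negSucc_eq, Nat.succ_eq_add_one]
        push_cast; ring

theorem lin_pB (f : Fm) (N : List Fm) : pB (lin f N) ≤ lB f N := by
  induction f generalizing N with
  | nil => simp [lin, lB, pB]
  | cons a f ih =>
    cases N with
    | nil => simp [lin, lB, pB]
    | cons n N =>
      have := ih N
      simp only [lin, lB, Nat.add_eq, Nat.mul_eq]
      split_ifs with ha
      · omega
      · refine (pB_fadd _ _).trans ?_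
        rw [pB_fsm]; omega

def tP (s : Sg) (f : Fm) : ℕ := Nat.add (Nat.mul (Nat.succ s.D) (pP (f.take 10))) (lP (f.drop 10) s.N)
def tN (s : Sg) (f : Fm) : ℕ := Nat.add (Nat.mul (Nat.succ s.D) (pN (f.take 10))) (lN (f.drop 10) s.N)
def tB (s : Sg) (f : Fm) : ℕ := Nat.add (Nat.mul (Nat.succ s.D) (pB (f.take 10))) (lB (f.drop 10) s.N)

theorem cmp_pk (s : Sg) (f : Fm) : pk (cmp s f) = (tP s f : ℤ) - tN s f := by
  rw [cmp, pk_fadd, pk_fsm, lin_pk, pk_eq]
  simp only [tP, tN, Nat.add_eq, Nat.mul_eq, Nat.succ_eq_add_one]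
  push_cast; ring

theorem cmp_pB (s : Sg) (f : Fm) : pB (cmp s f) ≤ tB s f := by
  rw [cmp]
  refine (pB_fadd _ _).trans ?_
  have := lin_pB (f.drop 10) s.N
  have e : ((s.D : ℤ) + 1).natAbs = s.D + 1 := by omega
  rw [pB_fsm, e]
  simp only [tB, Nat.add_eq, Nat.mul_eq, Nat.succ_eq_add_one]
  omega

noncomputable def ct (X p n b w k c0 c : ℕ) : Bool :=
  go X (Nat.add w 7) (Nat.sub (Nat.pow 2 w) 1) (Nat.mul c0 n) (Nat.mul c0 b) k
    (Nat.shiftRight c (Nat.add w 16)) (Nat.mul c0 p) 0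

noncomputable def ct1 (X p n b w c : ℕ) : Bool :=
  ct X p n b w (Nat.land (Nat.shiftRight c 12) 15)
    (Nat.succ (Nat.land (Nat.shiftRight c 16) (Nat.sub (Nat.pow 2 w) 1))) c

theorem ct1_ok {x : List ℝ} (hx : ∀ z ∈ x, 0 ≤ z) {X : ℕ} (hX : Inv x X) {p n b w c : ℕ} (r : Fm)
    (h1 : pk r = (p : ℤ) - n) (h2 : pB r ≤ b) (h : ct1 X p n b w c = true) : 0 ≤ fev r x := by
  unfold ct1 ct at h
  generalize Nat.land (Nat.shiftRight c 16) (Nat.sub (Nat.pow 2 w) 1) = e at h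
  have := go_ok hx hX _ _ _ _ _ _ _ _ (fsm ((e + 1 : ℕ) : ℤ) r) ?_ ?_ h
  · rw [fev_fsm] at this
    have h3 : (0 : ℝ) < (((e + 1 : ℕ) : ℤ) : ℝ) := by push_cast; positivity
    exact (mul_nonneg_iff_of_pos_left h3).1 this
  · rw [pk_fsm, h1]
    simp only [Nat.mul_eq, Nat.succ_eq_add_one]
    push_cast; ring
  · rw [pB_fsm, Int.natAbs_natCast]
    simp only [Nat.mul_eq, Nat.succ_eq_add_one]
    have := Nat.mul_le_mul_left (e + 1) h2
    omega

def nxt (c : ℕ) : ℕ := Nat.shiftRight c (Nat.add (Nat.add (Nat.land c 4095) 16)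
  (Nat.mul (Nat.land (Nat.shiftRight c 12) 15) (Nat.add (Nat.land c 4095) 7)))

noncomputable def cts (s : Sg) (X : ℕ) (l : List Fm) : ℕ → Bool :=
  List.rec (motive := fun _ => ℕ → Bool) (fun _ => true)
    (fun f _ ih c => ct1 X (tP s f) (tN s f) (tB s f) (Nat.land c 4095) c && ih (nxt c)) l

theorem cts_ok {x : List ℝ} (hx : ∀ z ∈ x, 0 ≤ z) {X : ℕ} (hX : Inv x X) (s : Sg) (l : List Fm) :
    ∀ c, cts s X l c = true → ∀ f ∈ l, 0 ≤ fev (cmp s f) x := by
  induction l with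
  | nil => simp
  | cons f l ih =>
    intro c h
    have h' : (ct1 X (tP s f) (tN s f) (tB s f) (Nat.land c 4095) c && cts s X l (nxt c)) = true := h
    rw [Bool.and_eq_true] at h'
    exact List.forall_mem_cons.2 ⟨ct1_ok hx hX _ (cmp_pk s f) (cmp_pB s f) h'.1, ih _ h'.2⟩

inductive FD
  | q (n : ℕ)
  | split (o r : ℕ) (t1 t2 : FD)

noncomputable def lf (s : Sg) (X : ℕ) (d : List (List Fm)) (n : ℕ) : Bool :=
  Nat.blt (Nat.land n 7) d.length && cts s X (d.getD (Nat.land n 7) []) (Nat.shiftRight n 3)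

theorem lf_ok {x : List ℝ} (hx : ∀ z ∈ x, 0 ≤ z) {X : ℕ} (hX : Inv x X) (s : Sg)
    (d : List (List Fm)) (n : ℕ) (h : lf s X d n = true) :
    ∃ o ∈ d, ∀ f ∈ o, 0 ≤ fev (cmp s f) x := by
  simp only [lf, Bool.and_eq_true, Nat.blt_eq] at h
  refine ⟨d.getD (Nat.land n 7) [], ?_, cts_ok hx hX s _ _ h.2⟩
  rw [List.getD_eq_getElem _ _ h.1]
  exact List.getElem_mem _

noncomputable def cD (s : Sg) (d : List (List Fm)) : FD → ℕ → Bool
  | .q n, X => lf s X d n
  | .split o r t1 t2, X =>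
    okp (tP s ((d.getD o []).getD r [])) (tN s ((d.getD o []).getD r []))
      (tB s ((d.getD o []).getD r [])) &&
    okp (tN s ((d.getD o []).getD r [])) (tP s ((d.getD o []).getD r []))
      (tB s ((d.getD o []).getD r [])) &&
    cD s d t1 (push X (tP s ((d.getD o []).getD r [])) (tN s ((d.getD o []).getD r []))) &&
    cD s d t2 (push X (tN s ((d.getD o []).getD r [])) (tP s ((d.getD o []).getD r [])))

theorem split_inv {x : List ℝ} {X p n b : ℕ} (hX : Inv x X) (g : Fm) (h1 : pk g = (p : ℤ) - n)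
    (h2 : pB g ≤ b) (a1 : okp p n b = true) (a2 : okp n p b = true) :
    Inv x (push X p n) ∨ Inv x (push X n p) := by
  rcases le_total 0 (fev g x) with h | h
  · exact Or.inl (inv_push hX g h1 h2 h a1)
  · refine Or.inr (inv_push hX (fsm (-1) g) ?_ ?_ (neg_ok h) a2)
    · rw [pk_fsm, h1]; ring
    · rw [pB_fsm]; simpa using h2

theorem cD_ok {x : List ℝ} (hx : ∀ z ∈ x, 0 ≤ z) (s : Sg) (d : List (List Fm)) (t : FD) :
    ∀ X, Inv x X → cD s d t X = true → ∃ o ∈ d, ∀ f ∈ o, 0 ≤ fev (cmp s f) x := by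
  induction t with
  | q n => intro X hX h; exact lf_ok hx hX s d n h
  | split o r t1 t2 ih1 ih2 =>
    intro X hX h
    simp only [cD, Bool.and_eq_true] at h
    rcases split_inv hX _ (cmp_pk s _) (cmp_pB s _) h.1.1.1 h.1.1.2 with a | a
    · exact ih1 _ a h.1.2
    · exact ih2 _ a h.2

noncomputable def cDs (s : Sg) (X : ℕ) : List (List (List Fm)) → List FD → Bool
  | [], _ => true
  | d :: r, t :: u => cD s d t X && cDs s X r u
  | _ :: _, [] => false

noncomputable def cNs (s : Sg) (X : ℕ) : List (List (List Fm)) → List ℕ → Bool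
  | [], _ => true
  | d :: r, t :: u => lf s X d t && cNs s X r u
  | _ :: _, [] => false

theorem cDs_ok {x : List ℝ} (hx : ∀ z ∈ x, 0 ≤ z) {X : ℕ} (hX : Inv x X) (s : Sg)
    (ds : List (List (List Fm))) : ∀ ts, cDs s X ds ts = true →
    ∀ d ∈ ds, ∃ o ∈ d, ∀ f ∈ o, 0 ≤ fev (cmp s f) x := by
  induction ds with
  | nil => simp
  | cons d r ih =>
    intro ts h
    cases ts with
    | nil => simp [cDs] at h
    | cons t u =>
      simp only [cDs, Bool.and_eq_true] at h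
      exact List.forall_mem_cons.2 ⟨cD_ok hx s d t X hX h.1, ih u h.2⟩

theorem cNs_ok {x : List ℝ} (hx : ∀ z ∈ x, 0 ≤ z) {X : ℕ} (hX : Inv x X) (s : Sg)
    (ds : List (List (List Fm))) : ∀ ts, cNs s X ds ts = true →
    ∀ d ∈ ds, ∃ o ∈ d, ∀ f ∈ o, 0 ≤ fev (cmp s f) x := by
  induction ds with
  | nil => simp
  | cons d r ih =>
    intro ts h
    cases ts with
    | nil => simp [cNs] at h
    | cons t u =>
      simp only [cNs, Bool.and_eq_true] at h
      exact List.forall_mem_cons.2 ⟨lf_ok hx hX s d t h.1, ih u h.2⟩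

def R0 := respD 0
def R1 := respD 1
def R2 := respD 2
def R3 := respD 3

def rA : ℕ → List (List (List Fm))
  | 0 => R0
  | 1 => R1
  | 2 => R2
  | 3 => R3
  | A => respD A

theorem rA_eq (A : ℕ) : rA A = respD A := by
  match A with
  | 0 => rfl
  | 1 => rfl
  | 2 => rfl
  | 3 => rfl
  | _ + 4 => rfl

def rws (s : Sg) : List (List (List Fm)) := monoD s.ty s.c0 s.c1 s.c2 s.b ++ rA s.A

def oks (s : Sg) : Bool :=
  Nat.beq s.N.length 11 && (Nat.blt 0 s.b && Nat.ble (s.c0 + s.c1 + s.c2) s.b)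

inductive FT
  | ld (s : Sg) (ds : List FD)
  | ln (s : Sg) (ns : List ℕ)
  | sp (h : Fm) (t1 t2 : FT)

noncomputable def cT : FT → ℕ → Bool
  | .ld s ds, X => oks s && cDs s X (rws s) ds
  | .ln s ns, X => oks s && cNs s X (rws s) ns
  | .sp h t1 t2, X => okp (pP h) (pN h) (pB h) && okp (pN h) (pP h) (pB h) &&
      cT t1 (push X (pP h) (pN h)) && cT t2 (push X (pN h) (pP h))

theorem leaf_ok (hL : StmtLink) (g0 g1 g2 G0 G1 G2 κ k0 k1 k2 : ℝ) (s : Sg) (h : oks s = true)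
    (h2 : ∀ d ∈ rws s, ∃ o ∈ d, ∀ f ∈ o,
      0 ≤ fev (cmp s f) [g0, g1, g2, G0, G1, G2, κ, k0, k1, k2]) :
    Resp g0 g1 g2 G0 G1 G2 κ k0 k1 k2 := by
  simp only [oks, Bool.and_eq_true, Nat.beq_eq, Nat.blt_eq, Nat.ble_eq] at h
  rw [rws, rA_eq] at h2
  have h3 : DjOK ([g0, g1, g2, G0, G1, G2, κ, k0, k1, k2] ++ s.N.map (fun n =>
      fev n [g0, g1, g2, G0, G1, G2, κ, k0, k1, k2] / ((s.D : ℝ) + 1)))
      (monoD s.ty s.c0 s.c1 s.c2 s.b ++ respD s.A) := by
    intro d hd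
    obtain ⟨o, ho, hf⟩ := h2 d hd
    exact ⟨o, ho, fun f hf' => cmp_ok s _ rfl f (hf f hf')⟩
  obtain ⟨a0, a1, a2, a3, a4, a5, a6, a7, a8, a9, a10, hN⟩ := len11 s.N h.1
  rw [hN] at h3
  exact hL s.ty s.c0 s.c1 s.c2 s.b s.A g0 g1 g2 G0 G1 G2 κ k0 k1 k2 _ _ _ _ _ _ _ _ _ _ _
    h.2.1 h.2.2 h3

def mkX : List Fm → ℕ
  | [] => 0
  | h :: C => push (mkX C) (pP h) (pN h)

def okC : List Fm → Bool
  | [] => true
  | h :: C => okp (pP h) (pN h) (pB h) && okC C

theorem mkX_inv {x : List ℝ} (hx : ∀ z ∈ x, 0 ≤ z) (C : List Fm) (h : okC C = true)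
    (hC : ∀ f ∈ C, 0 ≤ fev f x) : Inv x (mkX C) := by
  induction C with
  | nil => exact inv0 x hx
  | cons g C ih =>
    simp only [okC, Bool.and_eq_true] at h
    rw [List.forall_mem_cons] at hC
    exact inv_push (ih h.2 hC.2) g (pk_eq g) le_rfl hC.1 h.1

noncomputable def chk (C : List Fm) (t : FT) : Bool := okC C && cT t (mkX C)

theorem closedF (hL : StmtLink) (C : List Fm) (t : FT) (h : chk C t = true) : Closed C := by
  intro g0 g1 g2 G0 G1 G2 κ k0 k1 k2 hx _ _ _ hC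
  simp only [chk, Bool.and_eq_true] at h
  have hX := mkX_inv hx C h.1 hC
  have h2 := h.2
  generalize mkX C = X at hX h2
  clear h
  induction t generalizing X with
  | ld s ds =>
    simp only [cT, Bool.and_eq_true] at h2
    exact leaf_ok hL _ _ _ _ _ _ _ _ _ _ s h2.1 (cDs_ok hx hX s _ _ h2.2)
  | ln s ns =>
    simp only [cT, Bool.and_eq_true] at h2
    exact leaf_ok hL _ _ _ _ _ _ _ _ _ _ s h2.1 (cNs_ok hx hX s _ _ h2.2)
  | sp g t1 t2 ih1 ih2 =>
    simp only [cT, Bool.and_eq_true] at h2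
    rcases split_inv hX g (pk_eq g) le_rfl h2.1.1.1 h2.1.1.2 with a | a
    · exact ih1 _ a h2.1.2
    · exact ih2 _ a h2.2

end Vale.Agent.P235.T25
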