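import Vale.Agent.P235.ChkH
import Vale.Agent.P235.CoreOf

/-! Packed form of the tree checker: a form is one natural number, 256 bits a digit. -/

namespace Vale.Agent.P235

open Finset

namespace FT

def wt (k : ℕ) : ℕ := Nat.add (Nat.pow 2 k) (Nat.pow 2 5120)

def WP : List (ℕ × ℕ) := [(wt 0, wt 2560), (wt 256, wt 2816), (wt 512, wt 3072), (wt 768, wt 3328), (wt 1024, wt 3584), (wt 1280, wt 3840), (wt 1536, wt 4096), (wt 1792, wt 4352), (wt 2048, wt 4608), (wt 2304, wt 4864)]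

def WM : List (ℕ × ℕ) := [(wt 2560, wt 0), (wt 2816, wt 256), (wt 3072, wt 512), (wt 3328, wt 768), (wt 3584, wt 1024), (wt 3840, wt 1280), (wt 4096, wt 1536), (wt 4352, wt 1792), (wt 4608, wt 2048), (wt 4864, wt 2304)]

noncomputable def go (w : List (ℕ × ℕ)) : Fm → ℕ :=
  List.rec (fun _ => 0) (fun p _ ih f => List.casesOn f 0 fun a g =>
    Nat.add (Int.rec (fun n => Nat.mul n p.1) (fun n => Nat.mul (Nat.succ n) p.2) a) (ih g)) w

noncomputable def pp (f : Fm) : ℕ := Nat.add (go WP f) 0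

noncomputable def pm (f : Fm) : ℕ := Nat.add (go WM f) 0

def lo (z : ℕ) : ℕ := Nat.land z (Nat.sub (Nat.pow 2 2560) 1)

def O10 : ℕ := Nat.div (Nat.sub (Nat.pow 2 2560) 1) (Nat.sub (Nat.pow 2 256) 1)

def nn (z : ℕ) : Bool := and (Nat.ble (Nat.succ z) (Nat.pow 2 5374))
  (Nat.beq (Nat.land (Nat.sub (Nat.add (lo (Nat.shiftRight z 2560))
    (Nat.mul (Nat.sub (Nat.pow 2 255) 1) O10)) (lo z)) (Nat.mul (Nat.pow 2 255) O10)) 0)

def sw (z : ℕ) : ℕ := Nat.add (lo (Nat.shiftRight z 2560)) (Nat.mul (Nat.pow 2 2560)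
  (Nat.add (lo z) (Nat.mul (Nat.pow 2 2560) (Nat.shiftRight (Nat.shiftRight z 2560) 2560))))

noncomputable def get {α : Type} (d : α) (C : List α) : ℕ → α :=
  List.rec (fun _ => d) (fun a _ ih i => Nat.casesOn i a ih) C

noncomputable def cmb (C : List ℕ) (l : List (ℕ × ℕ)) : ℕ :=
  List.rec 0 (fun q _ r => Nat.add (Nat.mul q.2 (get 0 C q.1)) r) l

noncomputable def cts (c : Fm → ℕ) (C : List ℕ) (o : List Fm) :
    List (ℕ × List (ℕ × ℕ)) → Bool :=
  List.rec (fun _ => true) (fun f _ ih cs => List.casesOn cs false fun q s =>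
    and (nn (Nat.add (Nat.mul (Nat.succ q.1) (c f)) (cmb C q.2))) (ih s)) o

noncomputable def pick {α : Type} (k : α → Bool) (l : List α) : ℕ → Bool :=
  List.rec (fun _ => false) (fun a _ ih i => Nat.casesOn i (k a) ih) l

def wbr (b : ℕ) (k1 k2 k3 : List ℕ → Bool) (n0 n1 n2 p0 p2 : ℕ) (C : List ℕ) : Bool :=
  and (Nat.ble b 2) (and (k1 (n2 :: C)) (and (k2 (n0 :: p2 :: C)) (k3 (n1 :: p0 :: p2 :: C))))

noncomputable def wb (b : ℕ) (k1 k2 k3 : List ℕ → Bool) (C : List ℕ) : Bool :=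
  wbr b k1 k2 k3 (pm (wpar b 0)) (pm (wpar b 1)) (pm (wpar b 2)) (pp (wpar b 0)) (pp (wpar b 2)) C

def spl (k1 k2 : List ℕ → Bool) (z : ℕ) (C : List ℕ) : Bool :=
  and (Nat.ble (Nat.succ z) (Nat.pow 2 5374)) (and (k1 (Nat.add (sw z) 0 :: C)) (k2 (z :: C)))

noncomputable def cD (c : Fm → ℕ) (d : List (List Fm)) (t : DT) : List ℕ → Bool :=
  DT.rec (fun o cs C => pick (fun a => cts c C a cs) d o)
    (fun o r _ _ k1 k2 C => spl k1 k2 (Nat.add (c (get [] (get [] d o) r)) 0) C)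
    (fun b _ _ _ k1 k2 k3 C => wb b k1 k2 k3 C) t

noncomputable def cDs (c : Fm → ℕ) (C : List ℕ) (ds : List (List (List Fm))) : List DT → Bool :=
  List.rec (fun _ => true) (fun d _ ih ts => List.casesOn ts false fun t s =>
    and (cD c d t C) (ih s)) ds

noncomputable def nw (N : List Fm) : List (ℕ × ℕ) :=
  List.rec [] (fun n _ ih => (go WP n, go WM n) :: ih) N

noncomputable def cm (s : Sg) (f : Fm) : ℕ :=
  Nat.add (Nat.mul (Nat.succ s.D) (go WP f)) (go (nw s.N) (f.drop 10))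

noncomputable def cT (t : TT) : List ℕ → Bool :=
  TT.rec (fun s ds C => and (Nat.beq s.N.length 11) (and (Nat.ble 1 s.b)
      (and (Nat.ble (Nat.add (Nat.add s.c0 s.c1) s.c2) s.b)
        (cDs (cm s) C (monoD s.ty s.c0 s.c1 s.c2 s.b ++ respD s.A) ds))))
    (fun h _ _ k1 k2 C => and (k1 (pm h :: C)) (k2 (pp h :: C)))
    (fun b _ _ _ k1 k2 k3 C => wb b k1 k2 k3 C) t

def pv (B : ℕ) (p : ℕ → ℕ) : ℕ := ∑ i ∈ range 10, p i * B ^ i

def Rep (B : ℕ) (x : List ℝ) (z : ℕ) (y : ℝ) : Prop := ∃ (p m : ℕ → ℕ) (s : ℕ),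
  (∀ i, p i ≤ s) ∧ (∀ i, m i ≤ s) ∧ z = pv B p + B ^ 10 * (pv B m + B ^ 10 * s) ∧
    y = ∑ i ∈ range 10, ((p i : ℝ) - m i) * x.getD i 0

section
variable {B : ℕ} {x : List ℝ}

theorem r0 : Rep B x 0 0 := ⟨fun _ => 0, fun _ => 0, 0, by simp, by simp, by simp [pv], by simp⟩

theorem radd {a b : ℕ} {y t : ℝ} (h : Rep B x a y) (k : Rep B x b t) :
    Rep B x (Nat.add a b) (y + t) := by
  obtain ⟨p, m, s, h1, h2, rfl, rfl⟩ := h
  obtain ⟨p', m', s', k1, k2, rfl, rfl⟩ := k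
  refine ⟨fun i => p i + p' i, fun i => m i + m' i, s + s', fun i => add_le_add (h1 i) (k1 i),
    fun i => add_le_add (h2 i) (k2 i), ?_, ?_⟩
  · simp only [pv, Nat.add_eq, add_mul, sum_add_distrib]; ring
  · rw [← sum_add_distrib]
    exact sum_congr rfl fun i _ => by push_cast; ring

theorem rmul (c : ℕ) {a : ℕ} {y : ℝ} (h : Rep B x a y) : Rep B x (Nat.mul c a) (c * y) := by
  obtain ⟨p, m, s, h1, h2, rfl, rfl⟩ := h
  refine ⟨fun i => c * p i, fun i => c * m i, c * s, fun i => Nat.mul_le_mul_left c (h1 i),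
    fun i => Nat.mul_le_mul_left c (h2 i), ?_, ?_⟩
  · simp only [pv, Nat.mul_eq, mul_assoc, ← mul_sum]; ring
  · rw [mul_sum]
    exact sum_congr rfl fun i _ => by push_cast; ring

theorem ru (j : ℕ) (hj : j < 10) : Rep B x (B ^ j + B ^ 20) (x.getD j 0) ∧
    Rep B x (B ^ (10 + j) + B ^ 20) (-x.getD j 0) := by
  have hb : ∀ i, (if i = j then 1 else 0 : ℕ) ≤ 1 := fun i => by split_ifs <;> simp
  constructor
  · refine ⟨fun i => if i = j then 1 else 0, fun _ => 0, 1, hb, by simp, ?_, ?_⟩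
    · simp [pv, hj]; ring
    · simp [hj]
  · refine ⟨fun _ => 0, fun i => if i = j then 1 else 0, 1, by simp, hb, ?_, ?_⟩
    · simp [pv, hj]; ring
    · simp [hj, apply_ite]

theorem rgo (w : List (ℕ × ℕ)) (y : List ℝ)
    (h : List.Forall₂ (fun p t => Rep B x p.1 t ∧ Rep B x p.2 (-t)) w y) (f : Fm) :
    Rep B x (go w f) (fev f y) := by
  induction h generalizing f with
  | nil => rw [ChkHm.fev_nil']; exact r0
  | @cons p t w y h _ ih =>
    cases f with
    | nil => exact r0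
    | cons a g =>
      have e : go (p :: w) (a :: g) = Nat.add (Int.rec (fun n => Nat.mul n p.1)
        (fun n => Nat.mul (Nat.succ n) p.2) a) (go w g) := rfl
      rw [e, fev]
      refine radd ?_ (ih g)
      cases a with
      | ofNat n => simpa using rmul n h.1
      | negSucc n =>
        have := rmul (Nat.succ n) h.2
        rw [Int.cast_negSucc]
        convert this using 1
        ring

theorem pv_lt (n : ℕ) (p : ℕ → ℕ) (h : ∀ i, p i < B) : ∑ i ∈ range n, p i * B ^ i < B ^ n := by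
  induction n with
  | zero => simp
  | succ n ih =>
    rw [sum_range_succ, pow_succ]
    have := Nat.mul_le_mul_right (B ^ n) (Nat.succ_le_of_lt (h n))
    rw [Nat.succ_mul] at this
    rw [mul_comm (B ^ n) B]
    omega

theorem dec {X a b s : ℕ} (ha : a < X) (hb : b < X) :
    (a + X * (b + X * s)) % X = a ∧ (a + X * (b + X * s)) / X % X = b ∧
      (a + X * (b + X * s)) / X / X = s := by
  have hX : 0 < X := by omega
  have e : (a + X * (b + X * s)) / X = b + X * s := by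
    rw [Nat.add_mul_div_left _ _ hX, Nat.div_eq_of_lt ha, zero_add]
  refine ⟨by rw [Nat.add_mul_mod_self_left, Nat.mod_eq_of_lt ha], ?_, ?_⟩
  · rw [e, Nat.add_mul_mod_self_left, Nat.mod_eq_of_lt hb]
  · rw [e, Nat.add_mul_div_left _ _ hX, Nat.div_eq_of_lt hb, zero_add]

end

theorem dgt (B : ℕ) (j : ℕ) : ∀ (n : ℕ) (D : ℕ → ℕ), (∀ i < n, D i < B) → j < n →
    (∑ i ∈ range n, D i * B ^ i) / B ^ j % B = D j := by
  induction j with
  | zero =>
    intro n D hD hj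
    obtain ⟨n, rfl⟩ : ∃ m, n = m + 1 := ⟨n - 1, by omega⟩
    rw [sum_range_succ', pow_zero, Nat.div_one, mul_one]
    simp only [pow_succ, ← mul_assoc, ← sum_mul]
    rw [Nat.mul_add_mod_of_lt (hD 0 hj)]
  | succ j ih =>
    intro n D hD hj
    obtain ⟨n, rfl⟩ : ∃ m, n = m + 1 := ⟨n - 1, by omega⟩
    have h0 := hD 0 (by omega)
    rw [sum_range_succ', pow_zero, mul_one, pow_succ' B j, ← Nat.div_div_eq_div_mul]
    simp only [pow_succ, ← mul_assoc, ← sum_mul]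
    rw [add_comm, Nat.add_mul_div_right _ _ (by omega), Nat.div_eq_of_lt h0, zero_add]
    exact ih n (fun i => D (i + 1)) (fun i hi => hD _ (by omega)) (by omega)

theorem tb (k n j : ℕ) (D : ℕ → ℕ) (hD : ∀ i < n, D i < 2 ^ (k + 1)) (hj : j < n) :
    (∑ i ∈ range n, D i * (2 ^ (k + 1)) ^ i).testBit (k + (k + 1) * j) = (D j).testBit k := by
  rw [← dgt _ j n D hD hj, Nat.testBit_mod_two_pow, ← pow_mul, Nat.testBit_div_two_pow]
  simp

theorem bit (k n : ℕ) (D : ℕ → ℕ) (hD : ∀ i < n, D i < 2 ^ (k + 1))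
    (h : (∑ i ∈ range n, D i * (2 ^ (k + 1)) ^ i) &&&
      (2 ^ k * ∑ i ∈ range n, (2 ^ (k + 1)) ^ i) = 0) (j : ℕ) (hj : j < n) : D j < 2 ^ k := by
  by_contra c
  have a := congrArg (fun x => x.testBit (k + (k + 1) * j)) h
  simp only [Nat.testBit_and, Nat.zero_testBit] at a
  rw [tb k n j D hD hj, mul_sum, tb k n j (fun _ => 2 ^ k)
    (fun _ _ => Nat.pow_lt_pow_right (by norm_num) (by omega)) hj, Nat.testBit_two_pow_self,
    Nat.testBit_of_two_pow_le_and_two_pow_add_one_gt (not_lt.1 c) (hD j hj)] at a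
  simp at a

/-- decoding, with symbolic digit width `k + 2` -/
theorem core (k : ℕ) (x : List ℝ) (hx : ∀ z ∈ x, 0 ≤ z) (z : ℕ) (y : ℝ)
    (h : Rep (2 ^ (k + 1 + 1)) x z y) (X O : ℕ) (hX : X = (2 ^ (k + 1 + 1)) ^ 10)
    (hO : O = ∑ i ∈ range 10, (2 ^ (k + 1 + 1)) ^ i) (hz : z < X * X * 2 ^ k) :
    Rep (2 ^ (k + 1 + 1)) x (z / X % X + X * (z % X + X * (z / X / X))) (-y) ∧
    ((z / X % X + (2 ^ (k + 1) - 1) * O - z % X) &&& (2 ^ (k + 1) * O) = 0 → 0 ≤ y) := by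
  obtain ⟨p, m, s, h1, h2, e, rfl⟩ := h
  rw [← hX] at e
  have hs : s < 2 ^ k := by
    by_contra c
    have := Nat.mul_le_mul_left (X * X) (not_lt.1 c)
    rw [e, mul_add, ← mul_assoc] at hz
    omega
  have hK : 0 < 2 ^ k := by positivity
  have e1 : 2 ^ (k + 1) = 2 * 2 ^ k := pow_succ' 2 k
  have e2 : 2 ^ (k + 1 + 1) = 2 * 2 ^ (k + 1) := pow_succ' 2 (k + 1)
  have hp : pv (2 ^ (k + 1 + 1)) p < X := hX ▸ pv_lt 10 p fun i => by have := h1 i; omega
  have hm : pv (2 ^ (k + 1 + 1)) m < X := hX ▸ pv_lt 10 m fun i => by have := h2 i; omega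
  obtain ⟨d1, d2, d3⟩ := dec (s := s) hp hm
  rw [← e] at d1 d2 d3
  rw [d1, d2, d3]
  refine ⟨⟨m, p, s, h2, h1, by rw [← hX], ?_⟩, fun hb => ?_⟩
  · rw [← sum_neg_distrib]
    exact sum_congr rfl fun i _ => by ring
  · have e3 : pv (2 ^ (k + 1 + 1)) m + (2 ^ (k + 1) - 1) * O = pv (2 ^ (k + 1 + 1)) p +
        ∑ i ∈ range 10, (m i + (2 ^ (k + 1) - 1) - p i) * (2 ^ (k + 1 + 1)) ^ i := by
      rw [hO, pv, pv, mul_sum, ← sum_add_distrib, ← sum_add_distrib]
      refine sum_congr rfl fun i _ => ?_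
      rw [← add_mul, ← add_mul]
      congr 1
      have := h1 i
      omega
    rw [e3, Nat.add_sub_cancel_left, hO] at hb
    refine sum_nonneg fun i hi => mul_nonneg ?_ ?_
    · have := bit (k + 1) 10 _ (fun i _ => by have := h2 i; omega) hb i (mem_range.1 hi)
      have h3 : m i ≤ p i := by have := h1 i; omega
      exact sub_nonneg.2 (by exact_mod_cast h3)
    · rw [List.getD_eq_getElem?_getD]
      rcases h : x[i]? with _ | t
      · exact le_rfl
      · exact hx t (List.mem_of_getElem? h)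

theorem lo_eq (z k : ℕ) : Nat.land z (Nat.sub (Nat.pow 2 k) 1) = z % Nat.pow 2 k :=
  Nat.and_two_pow_sub_one_eq_mod z k

theorem sh_eq (z k : ℕ) : Nat.shiftRight z k = z / Nat.pow 2 k := Nat.shiftRight_eq_div_pow z k

def BB : ℕ := 2 ^ (254 + 1 + 1)

theorem k1 : Nat.pow 2 2560 = (2 ^ (254 + 1 + 1)) ^ 10 := by decide +kernel
theorem k2 : O10 = ∑ i ∈ range 10, (2 ^ (254 + 1 + 1)) ^ i := by decide +kernel
theorem k3 : Nat.pow 2 5374 = Nat.pow 2 2560 * Nat.pow 2 2560 * 2 ^ 254 := by decide +kernel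
theorem k4 : Nat.pow 2 255 = 2 ^ (254 + 1) := by decide +kernel
theorem k5 : WP = (List.range 10).map fun j => (BB ^ j + BB ^ 20, BB ^ (10 + j) + BB ^ 20) := by
  decide +kernel
theorem k6 : WM = (List.range 10).map fun j => (BB ^ (10 + j) + BB ^ 20, BB ^ j + BB ^ 20) := by
  decide +kernel

section
variable {x : List ℝ} (hx : ∀ z ∈ x, 0 ≤ z)
include hx

theorem rsw {z : ℕ} {y : ℝ} (h : Rep BB x z y)
    (hz : Nat.ble (Nat.succ z) (Nat.pow 2 5374) = true) : Rep BB x (sw z) (-y) := by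
  rw [Nat.ble_eq, k3] at hz
  have := (core 254 x hx z y h _ _ k1 k2 hz).1
  unfold sw lo
  rw [lo_eq, lo_eq, sh_eq, sh_eq]
  exact this

theorem rnn {z : ℕ} {y : ℝ} (h : Rep BB x z y) (hz : nn z = true) : 0 ≤ y := by
  unfold nn lo at hz
  rw [Bool.and_eq_true, Nat.ble_eq, k3, Nat.beq_eq, lo_eq, lo_eq, sh_eq, k4] at hz
  have h2 := (core 254 x hx z y h _ _ k1 k2 hz.1).2
  have h3 := hz.2
  generalize Nat.pow 2 2560 = X at h2 h3
  generalize 2 ^ (254 + 1) = K at h2 h3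
  generalize O10 = O at h2 h3
  exact h2 h3

end

theorem fev_negx (f : Fm) (x : List ℝ) : fev f (x.map fun t => -t) = -fev f x := by
  induction f generalizing x with
  | nil => simp [fev]
  | cons a f ih =>
    cases x with
    | nil => simp [fev]
    | cons b x => simp only [List.map_cons, fev, ih]; ring

theorem fa {x : List ℝ} (hl : x.length = 10) (F : ℕ → ℕ × ℕ) (g : ℝ → ℝ) (P : ℕ × ℕ → ℝ → Prop)
    (h : ∀ j < 10, P (F j) (g (x.getD j 0))) :
    List.Forall₂ P ((List.range 10).map F) (x.map g) := by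
  refine List.forall₂_iff_get.2 ⟨by simp [hl], fun i h1 h2 => ?_⟩
  have hi : i < 10 := by simpa using h1
  have := h i hi
  rw [List.getD_eq_getElem _ _ (by omega)] at this
  simpa using this

theorem rP {x : List ℝ} (hl : x.length = 10) (f : Fm) : Rep BB x (go WP f) (fev f x) := by
  have := rgo (B := BB) (x := x) _ _ (fa hl
    (fun j => (BB ^ j + BB ^ 20, BB ^ (10 + j) + BB ^ 20)) id _ fun j hj => ru j hj) f
  rwa [← k5, List.map_id] at this

theorem rM {x : List ℝ} (hl : x.length = 10) (f : Fm) : Rep BB x (go WM f) (-fev f x) := by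
  have := rgo (B := BB) (x := x) _ _ (fa hl
    (fun j => (BB ^ (10 + j) + BB ^ 20, BB ^ j + BB ^ 20)) (fun t => -t) _ fun j hj =>
      ⟨(ru j hj).2, by rw [neg_neg]; exact (ru j hj).1⟩) f
  rwa [← k6, fev_negx] at this

theorem rcm {x : List ℝ} (hl : x.length = 10) (s : Sg) (f : Fm) :
    Rep BB x (cm s f) (fev (cmp s f) x) := by
  have h1 : ∀ N : List Fm, List.Forall₂ (fun p t => Rep BB x p.1 t ∧ Rep BB x p.2 (-t)) (nw N)
      (N.map fun n => fev n x / 1) := by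
    intro N
    induction N with
    | nil => exact .nil
    | cons n N ih => exact .cons (by simp only [div_one]; exact ⟨rP hl n, rM hl n⟩) ih
  have h2 := radd (rmul (Nat.succ s.D) (rP hl f)) (rgo _ _ (h1 s.N) (f.drop 10))
  have h3 := ChkHm.fev_app x [] f
  rw [List.append_nil, hl, ChkHm.fev_nil', add_zero] at h3
  rw [cmp, ChkHm.fev_fadd, ChkHm.fev_fsm, ChkHm.fev_lin _ _ _ 1 one_ne_zero, one_mul, ← h3]
  have e : (((s.D : ℤ) + 1 : ℤ) : ℝ) = (Nat.succ s.D : ℕ) := by push_cast; rfl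
  rw [e]
  exact h2

/-- the packed list holds negated valid rows -/
def Ok (x : List ℝ) (C : List ℕ) : Prop := ∀ z ∈ C, ∃ y, Rep BB x z y ∧ y ≤ 0

theorem ok_cons {x : List ℝ} {C : List ℕ} (h : Ok x C) {z : ℕ} {y : ℝ} (r : Rep BB x z y)
    (hy : y ≤ 0) : Ok x (Nat.add z 0 :: C) :=
  List.forall_mem_cons.2 ⟨⟨y, r, hy⟩, h⟩

theorem get_ok {x : List ℝ} (C : List ℕ) (h : Ok x C) (i : ℕ) :
    ∃ y, Rep BB x (get 0 C i) y ∧ y ≤ 0 := by
  induction C generalizing i with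
  | nil => exact ⟨0, r0, le_rfl⟩
  | cons a C ih =>
    cases i with
    | zero => exact h a (by simp)
    | succ i => exact ih (fun z hz => h z (by simp [hz])) i

theorem cmb_ok {x : List ℝ} (C : List ℕ) (h : Ok x C) (l : List (ℕ × ℕ)) :
    ∃ y, Rep BB x (cmb C l) y ∧ y ≤ 0 := by
  induction l with
  | nil => exact ⟨0, r0, le_rfl⟩
  | cons q l ih =>
    obtain ⟨y, r, hy⟩ := ih
    obtain ⟨t, r', ht⟩ := get_ok C h q.1
    exact ⟨_, radd (rmul q.2 r') r,
      add_nonpos (mul_nonpos_of_nonneg_of_nonpos (Nat.cast_nonneg _) ht) hy⟩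

theorem pick_ok {α : Type} (k : α → Bool) (l : List α) (i : ℕ) (h : pick k l i = true) :
    ∃ a ∈ l, k a = true := by
  induction l generalizing i with
  | nil => exact absurd h (by simp [pick])
  | cons a l ih =>
    cases i with
    | zero => exact ⟨a, by simp, h⟩
    | succ i =>
      obtain ⟨b, hb, e⟩ := ih i h
      exact ⟨b, by simp [hb], e⟩

section
variable {x : List ℝ} (hx : ∀ z ∈ x, 0 ≤ z) (hl : x.length = 10) (hW : ChkHm.W3 x)

include hl hW in
theorem wb_ok {b : ℕ} {k1 k2 k3 : List ℕ → Bool} {C : List ℕ} (hC : Ok x C)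
    (h : wb b k1 k2 k3 C = true) :
    (∃ D, Ok x D ∧ k1 D = true) ∨ (∃ D, Ok x D ∧ k2 D = true) ∨ ∃ D, Ok x D ∧ k3 D = true := by
  simp only [wb, wbr, Bool.and_eq_true, Nat.ble_eq] at h
  rcases le_or_gt 0 (fev (wpar b 2) x) with h2 | h2
  · exact .inl ⟨_, ok_cons hC (rM hl _) (by linarith), h.2.1⟩
  · have c2 := ok_cons hC (rP hl _) h2.le
    rcases le_or_gt 0 (fev (wpar b 0) x) with h0 | h0
    · exact .inr (.inl ⟨_, ok_cons c2 (rM hl _) (by linarith), h.2.2.1⟩)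
    · refine .inr (.inr ⟨_, ok_cons (ok_cons c2 (rP hl _) h0.le) (rM hl _) ?_, h.2.2.2⟩)
      rcases hW b (by omega) with h | h | h <;> linarith

variable {c : Fm → ℕ} {v : Fm → ℝ} (hc : ∀ f, Rep BB x (c f) (v f))

include hx hc in
theorem cts_ok {C : List ℕ} (hC : Ok x C) (o : List Fm) (cs : List (ℕ × List (ℕ × ℕ)))
    (h : cts c C o cs = true) : ∀ f ∈ o, 0 ≤ v f := by
  induction o generalizing cs with
  | nil => simp
  | cons f o ih =>
    cases cs with
    | nil => exact absurd h (by simp [cts])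
    | cons q s =>
      have e : cts c C (f :: o) (q :: s) =
        (nn (Nat.add (Nat.mul (Nat.succ q.1) (c f)) (cmb C q.2)) && cts c C o s) := rfl
      rw [e, Bool.and_eq_true] at h
      refine List.forall_mem_cons.2 ⟨?_, ih s h.2⟩
      obtain ⟨y, r, hy⟩ := cmb_ok C hC q.2
      have h1 := rnn hx (radd (rmul _ (hc f)) r) h.1
      have h2 : (0 : ℝ) < (Nat.succ q.1 : ℕ) := by exact_mod_cast Nat.succ_pos _
      exact (mul_nonneg_iff_of_pos_left h2).1 (by linarith)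

include hx hl hW hc in
theorem cD_ok (d : List (List Fm)) (t : DT) : ∀ C, Ok x C → cD c d t C = true →
    ∃ o ∈ d, ∀ f ∈ o, 0 ≤ v f := by
  induction t with
  | leaf o cs =>
    intro C hC h
    obtain ⟨a, ha, e⟩ := pick_ok _ d o h
    exact ⟨a, ha, cts_ok hx hc hC a cs e⟩
  | split o r t1 t2 ih1 ih2 =>
    intro C hC h
    have e : cD c d (.split o r t1 t2) C =
      spl (cD c d t1) (cD c d t2) (Nat.add (c (get [] (get [] d o) r)) 0) C := rfl
    rw [e, spl, Bool.and_eq_true, Bool.and_eq_true] at h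
    rcases le_total 0 (v (get [] (get [] d o) r)) with h0 | h0
    · exact ih1 _ (ok_cons hC (rsw hx (hc _) h.1) (by linarith)) h.2.1
    · exact ih2 _ (ok_cons hC (hc _) h0) h.2.2
  | w b t1 t2 t3 ih1 ih2 ih3 =>
    intro C hC h
    rcases wb_ok hl hW (k1 := cD c d t1) (k2 := cD c d t2) (k3 := cD c d t3) hC h with
      ⟨D, h1, h2⟩ | ⟨D, h1, h2⟩ | ⟨D, h1, h2⟩
    exacts [ih1 D h1 h2, ih2 D h1 h2, ih3 D h1 h2]

include hx hl hW hc in
theorem cDs_ok {C : List ℕ} (hC : Ok x C) (ds : List (List (List Fm))) (ts : List DT)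
    (h : cDs c C ds ts = true) : ∀ d ∈ ds, ∃ o ∈ d, ∀ f ∈ o, 0 ≤ v f := by
  induction ds generalizing ts with
  | nil => simp
  | cons d r ih =>
    cases ts with
    | nil => exact absurd h (by simp [cDs])
    | cons t s =>
      have e : cDs c C (d :: r) (t :: s) = (cD c d t C && cDs c C r s) := rfl
      rw [e, Bool.and_eq_true] at h
      exact List.forall_mem_cons.2 ⟨cD_ok hx hl hW hc d t C hC h.1, ih s h.2⟩

end

end FT

/-- packed checker on the same trees -/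
noncomputable def chkF (C : List Fm) (t : TT) : Bool := FT.cT t (C.map FT.pm)

open FT in
theorem closedF (hL : StmtLink) (C : List Fm) (t : TT) (h : chkF C t = true) : Closed C := by
  intro g0 g1 g2 G0 G1 G2 κ k0 k1 k2 hx h0 h1 h2 hC
  have hW := ChkHm.w3_ok g0 g1 g2 G0 G1 G2 κ k0 k1 k2 h0 h1 h2
  have hl : [g0, g1, g2, G0, G1, G2, κ, k0, k1, k2].length = 10 := rfl
  have hD : Ok [g0, g1, g2, G0, G1, G2, κ, k0, k1, k2] (C.map pm) := by
    intro z hz
    obtain ⟨f, hf, rfl⟩ := List.mem_map.1 hz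
    exact ⟨_, rM hl f, neg_nonpos.2 (hC f hf)⟩
  unfold chkF at h
  generalize C.map pm = D at h hD
  induction t generalizing D with
  | leaf s ds =>
    have e : cT (.leaf s ds) D = (Nat.beq s.N.length 11 && (Nat.ble 1 s.b &&
      (Nat.ble (s.c0 + s.c1 + s.c2) s.b &&
        cDs (cm s) D (monoD s.ty s.c0 s.c1 s.c2 s.b ++ respD s.A) ds))) := rfl
    rw [e, Bool.and_eq_true, Bool.and_eq_true, Bool.and_eq_true, Nat.beq_eq, Nat.ble_eq,
      Nat.ble_eq] at h
    have h3 : DjOK ([g0, g1, g2, G0, G1, G2, κ, k0, k1, k2] ++ s.N.map (fun n =>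
        fev n [g0, g1, g2, G0, G1, G2, κ, k0, k1, k2] / ((s.D : ℝ) + 1)))
        (monoD s.ty s.c0 s.c1 s.c2 s.b ++ respD s.A) := by
      intro d hd
      obtain ⟨o, ho, hf⟩ := cDs_ok hx hl hW (rcm hl s) hD _ ds h.2.2.2 d hd
      exact ⟨o, ho, fun f hf' => ChkHm.cmp_ok s _ hl f (hf f hf')⟩
    obtain ⟨a0, a1, a2, a3, a4, a5, a6, a7, a8, a9, a10, hN⟩ := ChkHm.len11 s.N h.1
    rw [hN] at h3
    exact hL s.ty s.c0 s.c1 s.c2 s.b s.A g0 g1 g2 G0 G1 G2 κ k0 k1 k2 _ _ _ _ _ _ _ _ _ _ _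
      h.2.1 h.2.2.1 h3
  | split f t1 t2 ih1 ih2 =>
    have e : cT (.split f t1 t2) D = (cT t1 (pm f :: D) && cT t2 (pp f :: D)) := rfl
    rw [e, Bool.and_eq_true] at h
    rcases le_total 0 (fev f [g0, g1, g2, G0, G1, G2, κ, k0, k1, k2]) with h3 | h3
    · exact ih1 _ h.1 (ok_cons hD (rM hl f) (by linarith))
    · exact ih2 _ h.2 (ok_cons hD (rP hl f) h3)
  | w b t1 t2 t3 ih1 ih2 ih3 =>
    rcases wb_ok hl hW (k1 := cT t1) (k2 := cT t2) (k3 := cT t3) hD h with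
      ⟨E, h3, h4⟩ | ⟨E, h3, h4⟩ | ⟨E, h3, h4⟩
    exacts [ih1 E h4 h3, ih2 E h4 h3, ih3 E h4 h3]

end Vale.Agent.P235
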