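import Vale.Agent.P235.Spec

namespace Vale.Agent.P235

open Finset

namespace IntM

def evB (a : Fin 3 → Bool) : Sl → Bool
  | some c => a c
  | none => maj (a 0) (a 1) (a 2)

theorem ev_eq {V : Type} (t : Fin 3 → V) (f : Sl) (ω : V → Bool) :
    ev t f ω = evB (fun c => ω (t c)) f := by
  cases f <;> rfl

theorem evB_upd : ∀ (a : Fin 3 → Bool) (j : Fin 3) (f ξ : Sl),
    evB (Function.update a j (evB a ξ)) f = evB a (sub j f ξ) := by
  decide

theorem evB_false (f : Sl) : evB (fun _ => false) f = false := by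
  cases f <;> rfl

variable {V : Type} [DecidableEq V] {B : Build V} {d : V → V → ℝ} {C : ℝ}

omit [DecidableEq V] in
theorem rk_par (B : Build V) (i : ℕ) : rk (B.par i) ≤ i := by
  rcases h : B.par i with _ | ⟨k, c⟩
  · simp [rk]
  · have := B.lt i k c h
    simp only [rk]; omega

theorem wt_nonneg (w : Fin 3 → ℝ) (h : (∀ c, 0 ≤ w c) ∧ w 0 + w 1 + w 2 ≤ 1) (ξ : Sl) :
    0 ≤ wt w ξ := by
  cases ξ with
  | none => simp only [wt]; linarith [h.2]
  | some c => exact h.1 c

theorem sum_wt (w : Fin 3 → ℝ) : ∑ ξ : Sl, wt w ξ = 1 := by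
  simp only [Fintype.sum_option, Fin.sum_univ_three, wt]; ring

omit [DecidableEq V] in
theorem G_nonneg (S : Strat B d C) (N : Nd) (hN : rk N ≤ B.n) (c : Fin 3) : 0 ≤ S.G N c :=
  (S.hκ N hN c).1.trans (S.hκ N hN c).2

theorem mono (S : Strat B d C) : ∀ m, m ≤ B.n → ∀ F F' : (V → Bool) → ℝ, (∀ ω, F ω ≤ F' ω) →
    S.I m F ≤ S.I m F' := by
  intro m
  induction m with
  | zero =>
    intro _ F F' h
    simp only [Strat.I]
    exact sum_le_sum fun c _ =>
      mul_le_mul_of_nonneg_left (h _) (G_nonneg S none (by simp [rk]) c)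
  | succ m ih =>
    intro hm F F' h
    simp only [Strat.I]
    refine add_le_add (sum_le_sum fun ξ _ => ?_) ?_
    · exact mul_le_mul_of_nonneg_left (ih (by omega) _ _ fun ω => h _)
        (wt_nonneg _ (S.hw m (by omega)) ξ)
    · exact mul_le_mul_of_nonneg_left (h _) (S.hl m (by omega))

theorem lin (S : Strat B d C) : ∀ m (F F' : (V → Bool) → ℝ) (a b : ℝ),
    S.I m (fun ω => a * F ω + b * F' ω) = a * S.I m F + b * S.I m F' := by
  intro m
  induction m with
  | zero =>
    intro F F' a b
    simp only [Strat.I, Fin.sum_univ_three]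
    ring
  | succ m ih =>
    intro F F' a b
    simp only [Strat.I]
    have : ∀ ξ : Sl, S.I m (fun ω =>
        a * F (Function.update ω (B.x m) (ev (B.tri (B.par m)) ξ ω)) +
        b * F' (Function.update ω (B.x m) (ev (B.tri (B.par m)) ξ ω))) =
        a * S.I m (fun ω => F (Function.update ω (B.x m) (ev (B.tri (B.par m)) ξ ω))) +
        b * S.I m (fun ω => F' (Function.update ω (B.x m) (ev (B.tri (B.par m)) ξ ω))) :=
      fun ξ => ih _ _ a b
    simp only [this, Fintype.sum_option, Fin.sum_univ_three]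
    ring

theorem I_zero (S : Strat B d C) (m : ℕ) : S.I m (fun _ => 0) = 0 := by
  have := lin S m (fun _ => 0) (fun _ => 0) 0 0
  simpa using this

theorem pm (S : Strat B d C) (m : ℕ) (hm : m ≤ B.n) : PM (S.D m) := by
  refine ⟨fun F => ?_, fun F F' => ?_, fun F F' => ?_, fun F F' F'' => ?_⟩
  · simp only [Strat.D, if_true]; exact I_zero S m
  · simp only [Strat.D, eq_comm]
  · rw [← I_zero S m]
    refine mono S m hm _ _ fun ω => ?_
    split_ifs <;> norm_num
  · have := lin S m (fun ω => if F ω = F' ω then 0 else 1)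
      (fun ω => if F' ω = F'' ω then 0 else 1) 1 1
    simp only [Strat.D]
    rw [one_mul, one_mul] at this
    rw [← this]
    refine mono S m hm _ _ fun ω => ?_
    cases F ω <;> cases F' ω <;> cases F'' ω <;> norm_num

omit [DecidableEq V] in
theorem fresh (B : Build V) : ∀ r N, rk N = r → rk N ≤ B.n → ∀ i, rk N ≤ i → i < B.n → ∀ c,
    B.tri N c ≠ B.x i := by
  intro r
  induction r using Nat.strong_induction_on with
  | _ r ih =>
    intro N hr hN i hi hn c
    rcases N with _ | ⟨k, j⟩
    · exact (B.fresh i hn c).symm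
    · simp only [rk] at hr hN hi
      classical
      rw [B.eq k (by omega) j]
      by_cases hc : c = j
      · subst hc
        rw [Function.update_self]
        intro h
        have := B.inj k (by omega) i hn h
        omega
      · rw [Function.update_of_ne hc]
        have h1 := rk_par B k
        exact ih (rk (B.par k)) (by omega) _ rfl (by omega) i (by omega) hn c

theorem ev_upd (t : Fin 3 → V) (x : V) (h : ∀ c, t c ≠ x) (f : Sl) (ω : V → Bool) (b : Bool) :
    ev t f (Function.update ω x b) = ev t f ω := by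
  rw [ev_eq, ev_eq]
  congr 1
  funext c
  exact Function.update_of_ne (h c) _ _

theorem ev_ind (t : Fin 3 → V) (x : V) (h : ∀ c, t c ≠ x) (f : Sl) :
    ev t f (ind x) = false := by
  rw [ev_eq, ← evB_false f]
  congr 1
  funext c
  simp [ind, h c]

theorem stab (S : Strat B d C) (N N' : Nd) (f g : Sl) (m : ℕ) (h1 : rk N ≤ m) (h2 : rk N' ≤ m) :
    ∀ k, m ≤ k → k ≤ B.n →
    S.D k (ev (B.tri N) f) (ev (B.tri N') g) = S.D m (ev (B.tri N) f) (ev (B.tri N') g) := by
  intro k hk
  induction k, hk using Nat.le_induction with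
  | base => intro _; rfl
  | succ k hk ih =>
    intro hn
    have a1 : ∀ c, B.tri N c ≠ B.x k := fresh B _ N rfl (by omega) k (by omega) (by omega)
    have a2 : ∀ c, B.tri N' c ≠ B.x k := fresh B _ N' rfl (by omega) k (by omega) (by omega)
    rw [← ih (by omega)]
    simp only [Strat.D, Strat.I, ev_upd _ _ a1, ev_upd _ _ a2, ev_ind _ _ a1, ev_ind _ _ a2,
      if_true, mul_zero, add_zero]
    rw [← sum_mul, sum_wt, one_mul]

theorem step (B : Build V) (i : ℕ) (hi : i < B.n) (j : Fin 3) (f ξ : Sl) (ω : V → Bool) :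
    ev (B.tri (some (i, j))) f (Function.update ω (B.x i) (ev (B.tri (B.par i)) ξ ω)) =
      ev (B.tri (B.par i)) (sub j f ξ) ω := by
  have h1 := rk_par B i
  have a : ∀ c, B.tri (B.par i) c ≠ B.x i := fresh B _ _ rfl (by omega) i h1 hi
  rw [B.eq i hi j, ev_eq, ev_eq, ev_eq, ← evB_upd]
  congr 1
  funext c
  by_cases hc : c = j
  · subst hc
    simp only [Function.update_self]
  · simp only [Function.update_of_ne hc, Function.update_of_ne (a c)]

end IntM

theorem intS : StmtInt := by
  intro V _ B d C S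
  refine ⟨IntM.mono S, IntM.lin S, IntM.pm S, fun N => IntM.fresh B _ N rfl, ?_, IntM.step B⟩
  intro N N' f g m h1 h2 hm
  exact IntM.stab S N N' f g m h1 h2 B.n hm le_rfl

end Vale.Agent.P235
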