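import Vale.Agent.P235.Spec

namespace Vale.Agent.P235

open Finset

namespace LBM

theorem quad_le {T σ : Type} [Fintype σ] (ρ : T → T → ℝ) (hρ : PM ρ) (a b : σ → T)
    (α β : σ → ℝ) (hα : Prob α) (hβ : Prob β) :
    ∑ f, ∑ f', α f * α f' * ρ (a f) (a f') ≤ 2 * ∑ f, ∑ g, α f * β g * ρ (a f) (b g) := by
  have h1 : ∀ g, ∑ f, ∑ f', α f * α f' * ρ (a f) (a f') ≤ 2 * ∑ f, α f * ρ (a f) (b g) := by
    intro g
    have h2 : ∑ f, ∑ f', α f * α f' * ρ (a f) (a f') ≤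
        ∑ f, ∑ f', α f * α f' * (ρ (a f) (b g) + ρ (a f') (b g)) := by
      refine sum_le_sum fun f _ => sum_le_sum fun f' _ => ?_
      refine mul_le_mul_of_nonneg_left ?_ (mul_nonneg (hα.1 f) (hα.1 f'))
      have := hρ.2.2.2 (a f) (b g) (a f')
      rw [hρ.2.1 (b g) (a f')] at this
      exact this
    have h3 : ∑ f, ∑ f', α f * α f' * ρ (a f) (b g) = ∑ f, α f * ρ (a f) (b g) := by
      refine sum_congr rfl fun f _ => ?_
      have : ∑ f', α f * α f' * ρ (a f) (b g) = α f * ρ (a f) (b g) * ∑ f', α f' := by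
        rw [mul_sum]
        exact sum_congr rfl fun f' _ => by ring
      rw [this, hα.2, mul_one]
    have h4 : ∑ f, ∑ f', α f * α f' * ρ (a f') (b g) = ∑ f, α f * ρ (a f) (b g) := by
      rw [sum_comm]
      refine sum_congr rfl fun f _ => ?_
      have : ∑ f', α f' * α f * ρ (a f) (b g) = α f * ρ (a f) (b g) * ∑ f', α f' := by
        rw [mul_sum]
        exact sum_congr rfl fun f' _ => by ring
      rw [this, hα.2, mul_one]
    have h5 : ∑ f, ∑ f', α f * α f' * (ρ (a f) (b g) + ρ (a f') (b g)) =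
        ∑ f, ∑ f', α f * α f' * ρ (a f) (b g) + ∑ f, ∑ f', α f * α f' * ρ (a f') (b g) := by
      rw [← sum_add_distrib]
      refine sum_congr rfl fun f _ => ?_
      rw [← sum_add_distrib]
      exact sum_congr rfl fun f' _ => by ring
    linarith
  have h6 : ∑ g, β g * (∑ f, ∑ f', α f * α f' * ρ (a f) (a f')) ≤
      ∑ g, β g * (2 * ∑ f, α f * ρ (a f) (b g)) :=
    sum_le_sum fun g _ => mul_le_mul_of_nonneg_left (h1 g) (hβ.1 g)
  rw [← sum_mul, hβ.2, one_mul] at h6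
  have h7 : ∑ g, β g * (2 * ∑ f, α f * ρ (a f) (b g)) =
      2 * ∑ f, ∑ g, α f * β g * ρ (a f) (b g) := by
    rw [sum_comm, mul_sum]
    refine sum_congr rfl fun g _ => ?_
    rw [mul_sum, mul_sum, mul_sum]
    exact sum_congr rfl fun f _ => by ring
  linarith

theorem exists_big (α : Sl → ℝ) (hα : Prob α) : ∃ f, 1 / 4 ≤ α f := by
  by_contra hcon
  push Not at hcon
  have h := hα.2
  rw [Fintype.sum_option, Fin.sum_univ_three] at h
  have h0 := hcon none
  have h1 := hcon (some 0)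
  have h2 := hcon (some 1)
  have h3 := hcon (some 2)
  linarith

theorem single_le {σ : Type} [Fintype σ] (α β : σ → ℝ) (D : σ → σ → ℝ) (hα : ∀ f, 0 ≤ α f)
    (hβ : ∀ f, 0 ≤ β f) (hD : ∀ f g, 0 ≤ D f g) (f0 g0 : σ) :
    α f0 * β g0 * D f0 g0 ≤ ∑ f, ∑ g, α f * β g * D f g := by
  have h1 : α f0 * β g0 * D f0 g0 ≤ ∑ g, α f0 * β g * D f0 g :=
    single_le_sum (f := fun g => α f0 * β g * D f0 g)
      (fun g _ => mul_nonneg (mul_nonneg (hα f0) (hβ g)) (hD f0 g)) (mem_univ g0)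
  have h2 : ∑ g, α f0 * β g * D f0 g ≤ ∑ f, ∑ g, α f * β g * D f g :=
    single_le_sum (f := fun f => ∑ g, α f * β g * D f g)
      (fun f _ => sum_nonneg fun g _ => mul_nonneg (mul_nonneg (hα f) (hβ g)) (hD f g))
      (mem_univ f0)
  exact h1.trans h2

end LBM

theorem lbS (hI : StmtInt) (hD : StmtDis) (hP : StmtPair) (hC : StmtChain) (hY : StmtPot) :
    StmtLB := by
  obtain ⟨C₁, hC₁, hCh⟩ := hC
  refine ⟨4 * C₁ + 16, by linarith, ?_⟩
  intro V _ B d C S hd s t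
  have hL : Lip d (d s) := by
    intro u v
    have h1 := hd.2.2.2 s u v
    have h2 := hd.2.2.2 s v u
    have h3 := hd.2.1 u v
    rw [abs_le]
    constructor <;> linarith
  obtain ⟨y, hy⟩ := hY V B d C S (d s) hd hL
  obtain ⟨N, N', L, L', α, β, hN, hN', hsib, hs, ht, heq⟩ := hP V B d C S s t
  obtain ⟨hL0, hα, -, hb⟩ := hCh V B d C S (d s) y hd hL hy s N L α hs
  obtain ⟨hL0', hβ, -, hb'⟩ := hCh V B d C S (d s) y hd hL hy t N' L' β ht
  have hPM : PM (S.D B.n) := (hI V B d C S).2.2.1 B.n le_rfl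
  obtain ⟨hD1, -, hD3⟩ := hD V B d C S hd
  obtain ⟨f0, hf0⟩ := LBM.exists_big α hα
  obtain ⟨g0, hg0⟩ := LBM.exists_big β hβ
  set X := ∑ f, ∑ g, α f * β g * S.D B.n (ev (B.tri N) f) (ev (B.tri N') g) with hX
  have hQ : Qf (S.G N) α ≤ 2 * X := by
    have := LBM.quad_le (S.D B.n) hPM (ev (B.tri N)) (ev (B.tri N')) α β hα hβ
    simp only [hD1 N hN] at this
    exact this
  have hQ' : Qf (S.G N') β ≤ 2 * X := by
    have := LBM.quad_le (S.D B.n) hPM (ev (B.tri N')) (ev (B.tri N)) β α hβ hα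
    simp only [hD1 N' hN'] at this
    have h2 : ∑ f, ∑ g, β f * α g * S.D B.n (ev (B.tri N') f) (ev (B.tri N) g) = X := by
      rw [hX, sum_comm]
      refine sum_congr rfl fun f _ => sum_congr rfl fun g _ => ?_
      rw [hPM.2.1 (ev (B.tri N') g) (ev (B.tri N) f)]
      ring
    rw [h2] at this
    exact this
  have hsingle := LBM.single_le α β
    (fun f g => S.D B.n (ev (B.tri N) f) (ev (B.tri N') g)) hα.1 hβ.1
    (fun f g => hPM.2.2.1 _ _) f0 g0
  have hD0 : 0 ≤ S.D B.n (ev (B.tri N) f0) (ev (B.tri N') g0) := hPM.2.2.1 _ _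
  have hab : 1 / 16 ≤ α f0 * β g0 := by nlinarith
  have hX16 : S.D B.n (ev (B.tri N) f0) (ev (B.tri N') g0) ≤ 16 * X := by
    have h1 := mul_le_mul_of_nonneg_right hab hD0
    linarith
  have hX0 : 0 ≤ X := by linarith
  have k1 := hb f0 hf0
  have k2 := hb' g0 hg0
  have k3 := hD3 (d s) y hL hy N N' hN hsib f0 g0
  have k4 : C₁ * (Qf (S.G N) α + 2 * L) ≤ C₁ * (2 * X + 2 * L) :=
    mul_le_mul_of_nonneg_left (by linarith) hC₁
  have k5 : C₁ * (Qf (S.G N') β + 2 * L') ≤ C₁ * (2 * X + 2 * L') :=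
    mul_le_mul_of_nonneg_left (by linarith) hC₁
  have k6 := hd.1 s
  rw [heq]
  rw [abs_le] at k1 k2 k3
  have k7 := mul_nonneg hC₁ hL0
  have k8 := mul_nonneg hC₁ hL0'
  nlinarith [k1.1, k1.2, k2.1, k2.2, k3.1, k3.2]

end Vale.Agent.P235
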