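import Vale.Agent.P235.Spec

namespace Vale.Agent.P235

open Finset

namespace LowM

variable {σ : Type} [Fintype σ] [DecidableEq σ]

/-- the seven hypotheses -/
def Hyp (K : ℕ → σ → σ → ℝ) (h : ℕ → σ → ℝ) (Q e : ℕ → (σ → ℝ) → ℝ) : Prop :=
  (∀ l f, Prob (K l f)) ∧
  (∀ l α, Prob α → ∑ f, ∑ g, α f * α g * |h l f - h l g| ≤ Q l α) ∧
  (∀ l α, Prob α → Q (l + 1) (fun g => ∑ f, α f * K l f g) ≤ Q l α + e l α) ∧
  (∀ l α, (∀ f, 0 ≤ α f) → 0 ≤ e l α) ∧
  (∀ l (α β : σ → ℝ) (c : ℝ), 0 ≤ c → (∀ f, 0 ≤ α f) → (∀ f, c * α f ≤ β f) →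
    c ^ 2 * e l α ≤ e l β) ∧
  (∀ l f, ∑ g, K l f g * |h l f - h (l + 1) g| ≤ e l (fun g => if g = f then 1 else 0)) ∧
  (∀ l f, Q l (fun g => if g = f then 1 else 0) ≤ 0)

/-- trajectories from time `i` on -/
def Tr (K : ℕ → σ → σ → ℝ) (a : ℕ → σ → ℝ) (i : ℕ) : Prop :=
  Prob (a i) ∧ ∀ r, i ≤ r → a (r + 1) = fun g => ∑ f, a r f * K r f g

omit [DecidableEq σ] in
theorem prob_step (α : σ → ℝ) (K : σ → σ → ℝ) (hα : Prob α) (hK : ∀ f, Prob (K f)) :
    Prob (fun g => ∑ f, α f * K f g) := by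
  refine ⟨fun g => sum_nonneg fun f _ => mul_nonneg (hα.1 f) ((hK f).1 g), ?_⟩
  rw [sum_comm, ← hα.2]
  refine sum_congr rfl fun f _ => ?_
  rw [← mul_sum, (hK f).2, mul_one]

theorem prob_delta (b : σ) : Prob (fun g => if g = b then (1 : ℝ) else 0) := by
  refine ⟨fun g => ?_, by simp⟩
  dsimp only
  split_ifs <;> norm_num

variable {K : ℕ → σ → σ → ℝ} {h : ℕ → σ → ℝ} {Q e : ℕ → (σ → ℝ) → ℝ}

theorem tr_prob (H : Hyp K h Q e) {a : ℕ → σ → ℝ} {i : ℕ} (ha : Tr K a i) :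
    ∀ r, i ≤ r → Prob (a r) := by
  intro r hr
  induction r, hr using Nat.le_induction with
  | base => exact ha.1
  | succ r hr ih =>
    rw [ha.2 r hr]
    exact prob_step _ _ ih (H.1 r)

theorem Q_le (H : Hyp K h Q e) {a : ℕ → σ → ℝ} {i : ℕ} (ha : Tr K a i) :
    ∀ r, i ≤ r → Q r (a r) ≤ Q i (a i) + ∑ q ∈ Ico i r, e q (a q) := by
  intro r hr
  induction r, hr using Nat.le_induction with
  | base => simp
  | succ r hr ih =>
    rw [sum_Ico_succ_top hr, ha.2 r hr]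
    have := H.2.2.1 r (a r) (tr_prob H ha r hr)
    linarith

theorem E_nonneg (H : Hyp K h Q e) {a : ℕ → σ → ℝ} {i : ℕ} (ha : Tr K a i) (r s : ℕ)
    (hr : i ≤ r) : 0 ≤ ∑ q ∈ Ico r s, e q (a q) :=
  sum_nonneg fun q hq => H.2.2.2.1 q _ (tr_prob H ha q (hr.trans (mem_Ico.1 hq).1)).1

theorem Q_nonneg (H : Hyp K h Q e) (l : ℕ) (α : σ → ℝ) (hα : Prob α) : 0 ≤ Q l α :=
  le_trans (sum_nonneg fun f _ => sum_nonneg fun g _ =>
    mul_nonneg (mul_nonneg (hα.1 f) (hα.1 g)) (abs_nonneg _)) (H.2.1 l α hα)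

theorem jump (H : Hyp K h Q e) (l : ℕ) (α : σ → ℝ) (hα : Prob α) (u v : σ) (θ₁ θ₂ : ℝ)
    (h1 : 0 < θ₁) (h2 : 0 < θ₂) (hu : θ₁ ≤ α u) (hv : θ₂ ≤ α v) :
    |h l u - h l v| ≤ (θ₁ * θ₂)⁻¹ * Q l α := by
  have k1 : α u * α v * |h l u - h l v| ≤ ∑ g, α u * α g * |h l u - h l g| :=
    single_le_sum (f := fun g => α u * α g * |h l u - h l g|)
      (fun g _ => mul_nonneg (mul_nonneg (hα.1 u) (hα.1 g)) (abs_nonneg _)) (mem_univ v)
  have k2 : ∑ g, α u * α g * |h l u - h l g| ≤ ∑ f, ∑ g, α f * α g * |h l f - h l g| :=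
    single_le_sum (f := fun f => ∑ g, α f * α g * |h l f - h l g|)
      (fun f _ => sum_nonneg fun g _ =>
        mul_nonneg (mul_nonneg (hα.1 f) (hα.1 g)) (abs_nonneg _)) (mem_univ u)
  have k3 := H.2.1 l α hα
  have k4 : θ₁ * θ₂ ≤ α u * α v := mul_le_mul hu hv h2.le (hα.1 u)
  have k5 := mul_le_mul_of_nonneg_right k4 (abs_nonneg (h l u - h l v))
  rw [le_inv_mul_iff₀ (mul_pos h1 h2)]
  linarith

theorem mono (H : Hyp K h Q e) {a ν : ℕ → σ → ℝ} {i j : ℕ} (ha : Tr K a i) (hν : Tr K ν j)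
    (hij : i ≤ j) (c : ℝ) (h0 : ∀ f, c * ν j f ≤ a j f) :
    ∀ r, j ≤ r → ∀ f, c * ν r f ≤ a r f := by
  intro r hr
  induction r, hr using Nat.le_induction with
  | base => exact h0
  | succ r hr ih =>
    intro g
    rw [ha.2 r (hij.trans hr), hν.2 r hr]
    dsimp only
    rw [mul_sum]
    refine sum_le_sum fun f _ => ?_
    rw [← mul_assoc]
    exact mul_le_mul_of_nonneg_right (ih f) ((H.1 r f).1 g)

theorem exists_tr (K : ℕ → σ → σ → ℝ) (i : ℕ) (b : σ) :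
    ∃ ν : ℕ → σ → ℝ, Tr K ν i ∧ ν i = fun g => if g = b then 1 else 0 := by
  refine ⟨fun r => evol K i (fun g => if g = b then 1 else 0) (r - i), ⟨?_, ?_⟩, ?_⟩
  · simp only [Nat.sub_self, evol]
    exact prob_delta b
  · intro r hr
    have h1 : r + 1 - i = (r - i) + 1 := by omega
    have h2 : i + (r - i) = r := by omega
    simp only [h1, evol, h2]
  · simp only [Nat.sub_self, evol]

omit [DecidableEq σ] in
theorem heavy_on (α : σ → ℝ) (A : Finset σ) (η : ℝ) (hη : 0 ≤ η)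
    (hA : (Fintype.card σ : ℝ) * η < ∑ f ∈ A, α f) : ∃ f ∈ A, η ≤ α f := by
  by_contra hcon
  push Not at hcon
  have h1 : ∑ f ∈ A, α f ≤ A.card • η := sum_le_card_nsmul A α η fun f hf => (hcon f hf).le
  rw [nsmul_eq_mul] at h1
  have h2 : (A.card : ℝ) ≤ Fintype.card σ := by exact_mod_cast card_le_univ A
  have h3 := mul_le_mul_of_nonneg_right h2 hη
  linarith

/-- the inductive statement -/
def PP (σ : Type) [Fintype σ] [DecidableEq σ] (k : ℕ) (γ : ℝ) : Prop :=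
  ∀ θ : ℝ, 0 < θ → ∃ C : ℝ, 0 ≤ C ∧
    ∀ (K : ℕ → σ → σ → ℝ) (h : ℕ → σ → ℝ) (Q e : ℕ → (σ → ℝ) → ℝ), Hyp K h Q e →
    ∀ (a : ℕ → σ → ℝ) (i t : ℕ) (A : ℕ → Finset σ), Tr K a i → i ≤ t →
    (∀ r, i < r → r < t → (A r).card ≤ k ∧ 1 - γ ≤ ∑ f ∈ A r, a r f) →
    ∀ u v, θ ≤ a i u → θ ≤ a t v →
      |h i u - h t v| ≤ C * (Q i (a i) + ∑ q ∈ Ico i t, e q (a q))

theorem base (η : ℝ) (hη : 0 < η) (hn : (Fintype.card σ : ℝ) * η < 1 / 2) : PP σ 0 (1 / 2) := by
  intro θ hθ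
  have p1 : 0 ≤ (θ * θ)⁻¹ := by positivity
  have p2 : 0 ≤ (η * θ ^ 2)⁻¹ := by positivity
  have p3 : 0 ≤ (θ * η * θ)⁻¹ := by positivity
  refine ⟨(θ * θ)⁻¹ + (η * θ ^ 2)⁻¹ + (θ * η * θ)⁻¹, by positivity, ?_⟩
  intro K h Q e H a i t A ha hit hA u v hu hv
  have hQ0 := Q_nonneg H i _ ha.1
  rcases Nat.lt_or_ge (i + 1) t with hlt | hge
  · exfalso
    obtain ⟨h1, h2⟩ := hA (i + 1) (by omega) hlt
    have h3 : A (i + 1) = ∅ := card_eq_zero.1 (by omega)
    rw [h3, sum_empty] at h2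
    norm_num at h2
  · rcases Nat.eq_or_lt_of_le hit with heq | hlt
    · subst heq
      have h1 := jump H i _ ha.1 u v θ θ hθ hθ hu hv
      simp only [Ico_self, sum_empty, add_zero]
      have h2 := mul_nonneg p2 hQ0
      have h3 := mul_nonneg p3 hQ0
      linarith
    · have ht : t = i + 1 := by omega
      subst ht
      obtain ⟨w, -, hw⟩ := heavy_on (K i u) univ η hη.le (by
        rw [(H.1 i u).2]
        linarith)
      have hE : ∑ q ∈ Ico i (i + 1), e q (a q) = e i (a i) := by simp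
      have he0 : 0 ≤ e i (a i) := H.2.2.2.1 i _ ha.1.1
      have k1 : K i u w * |h i u - h (i + 1) w| ≤ ∑ g, K i u g * |h i u - h (i + 1) g| :=
        single_le_sum (f := fun g => K i u g * |h i u - h (i + 1) g|)
          (fun g _ => mul_nonneg ((H.1 i u).1 g) (abs_nonneg _)) (mem_univ w)
      have k2 := H.2.2.2.2.2.1 i u
      have k3 := H.2.2.2.2.1 i (fun g => if g = u then 1 else 0) (a i) θ hθ.le
        (prob_delta u).1 (by
          intro f
          split_ifs with hf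
          · subst hf
            linarith
          · simpa using ha.1.1 f)
      have k4 := mul_le_mul_of_nonneg_right hw (abs_nonneg (h i u - h (i + 1) w))
      have k5 : |h i u - h (i + 1) w| ≤ (η * θ ^ 2)⁻¹ * e i (a i) := by
        rw [le_inv_mul_iff₀ (by positivity)]
        have k6 : η * |h i u - h (i + 1) w| ≤ e i (fun g => if g = u then 1 else 0) := by
          linarith
        have k7 := mul_le_mul_of_nonneg_left k6 (sq_nonneg θ)
        linarith
      have k8 : θ * η ≤ a (i + 1) w := by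
        rw [ha.2 i le_rfl]
        have k9 : a i u * K i u w ≤ ∑ f, a i f * K i f w :=
          single_le_sum (f := fun f => a i f * K i f w)
            (fun f _ => mul_nonneg (ha.1.1 f) ((H.1 i f).1 w)) (mem_univ u)
        have k10 : θ * η ≤ a i u * K i u w := mul_le_mul hu hw hη.le (ha.1.1 u)
        exact k10.trans k9
      have k11 := jump H (i + 1) _ (tr_prob H ha (i + 1) (by omega)) w v (θ * η) θ
        (by positivity) hθ k8 hv
      have k12 := Q_le H ha (i + 1) (by omega)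
      rw [hE] at k12 ⊢
      have k13 := mul_le_mul_of_nonneg_left k12 p3
      have k14 := abs_sub_le (h i u) (h (i + 1) w) (h (i + 1) v)
      have k15 := mul_nonneg p1 hQ0
      have k16 := mul_nonneg p1 he0
      have k17 := mul_nonneg p2 hQ0
      linarith

theorem step (η : ℝ) (hη : 0 < η) (hη1 : η ≤ 1) (hn : (Fintype.card σ : ℝ) * η < 1 / 2)
    (k : ℕ) (γ : ℝ) (hγ : 0 < γ) (hγ1 : γ ≤ 1 / 2) (hP : PP σ k γ) :
    PP σ (k + 1) (η * γ / 2) := by
  intro θ hθ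
  have hθ' : 0 < min (γ / 2) η := lt_min (by linarith) hη
  obtain ⟨C, hC, hPk⟩ := hP (min (γ / 2) η) hθ'
  have p1 : 0 ≤ (θ * η)⁻¹ := by positivity
  have p2 : 0 ≤ C * (η ^ 2)⁻¹ := by positivity
  have p3 : 0 ≤ (η * η * η)⁻¹ := by positivity
  refine ⟨2 * (θ * η)⁻¹ + C * (η ^ 2)⁻¹ + (η * η * η)⁻¹, by positivity, ?_⟩
  intro K h Q e H a i t A ha hit hA u v hu hv
  have hQ0 := Q_nonneg H i _ ha.1
  have hE0 := E_nonneg H ha i t le_rfl
  have hQt := Q_le H ha t hit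
  have hb : ∀ r, ∃ b, i ≤ r → η ≤ a r b ∧ (i < r → r < t → b ∈ A r) := by
    intro r
    by_cases hr : i ≤ r
    · by_cases hr' : i < r ∧ r < t
      · obtain ⟨b, hb1, hb2⟩ := heavy_on (a r) (A r) η hη.le (by
          have h1 := (hA r hr'.1 hr'.2).2
          have h2 : η * γ ≤ 1 * (1 / 2) := mul_le_mul hη1 hγ1 hγ.le zero_le_one
          linarith)
        exact ⟨b, fun _ => ⟨hb2, fun _ _ => hb1⟩⟩
      · obtain ⟨b, -, hb2⟩ := heavy_on (a r) univ η hη.le (by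
          rw [(tr_prob H ha r hr).2]
          linarith)
        exact ⟨b, fun _ => ⟨hb2, fun h1 h2 => absurd ⟨h1, h2⟩ hr'⟩⟩
    · exact ⟨u, fun h1 => absurd h1 hr⟩
  choose b hb using hb
  have hdom : ∀ r0, i ≤ r0 → ∀ ν : ℕ → σ → ℝ, Tr K ν r0 →
      (ν r0 = fun g => if g = b r0 then 1 else 0) → ∀ r, r0 ≤ r → ∀ f, η * ν r f ≤ a r f := by
    intro r0 hr0 ν hν hν0
    refine mono H ha hν hr0 η ?_
    intro f
    rw [hν0]
    dsimp only
    split_ifs with hf
    · rw [hf, mul_one]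
      exact (hb r0 hr0).1
    · simpa using (tr_prob H ha r0 hr0).1 f
  have seg : ∀ r0 s, i ≤ r0 → r0 ≤ s → s ≤ t → ∀ ν : ℕ → σ → ℝ, Tr K ν r0 →
      (ν r0 = fun g => if g = b r0 then 1 else 0) →
      (∀ r, r0 < r → r < s → ν r (b r) < γ / 2) → ∀ w, min (γ / 2) η ≤ ν s w →
      |h r0 (b r0) - h s w| ≤ C * (η ^ 2)⁻¹ * ∑ q ∈ Ico r0 s, e q (a q) := by
    intro r0 s hr0 hs hst ν hν hν0 hsm w hw
    have hd := hdom r0 hr0 ν hν hν0
    have h1 := hPk K h Q e H ν r0 s (fun r => (A r).erase (b r)) hν hs (by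
      intro r hr1 hr2
      have hir : i < r := by omega
      have hrt : r < t := by omega
      have hbA := (hb r hir.le).2 hir hrt
      obtain ⟨c1, c2⟩ := hA r hir hrt
      refine ⟨?_, ?_⟩
      · rw [card_erase_of_mem hbA]
        omega
      · have c3 := add_sum_erase (A r) (ν r) hbA
        have c4 := sum_add_sum_compl (A r) (ν r)
        have c5 := sum_add_sum_compl (A r) (a r)
        rw [(tr_prob H hν r hr1.le).2] at c4
        rw [(tr_prob H ha r hir.le).2] at c5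
        have c6 : η * ∑ f ∈ (A r)ᶜ, ν r f ≤ ∑ f ∈ (A r)ᶜ, a r f := by
          rw [mul_sum]
          exact sum_le_sum fun f _ => hd r hr1.le f
        have c7 : η * ∑ f ∈ (A r)ᶜ, ν r f ≤ η * (γ / 2) := by linarith
        have c8 := le_of_mul_le_mul_left c7 hη
        have c9 := hsm r hr1 hr2
        linarith) (b r0) w (by
      rw [hν0]
      have := min_le_right (γ / 2) η
      simp only [if_true]
      linarith) hw
    have h2 : Q r0 (ν r0) ≤ 0 := by
      rw [hν0]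
      exact H.2.2.2.2.2.2 r0 (b r0)
    have h3 : ∑ q ∈ Ico r0 s, e q (ν q) ≤ (η ^ 2)⁻¹ * ∑ q ∈ Ico r0 s, e q (a q) := by
      rw [le_inv_mul_iff₀ (by positivity), mul_sum]
      refine sum_le_sum fun q hq => ?_
      have hq1 := (mem_Ico.1 hq).1
      exact H.2.2.2.2.1 q (ν q) (a q) η hη.le (tr_prob H hν q hq1).1 (hd q hq1)
    have h4 : C * (Q r0 (ν r0) + ∑ q ∈ Ico r0 s, e q (ν q)) ≤
        C * ((η ^ 2)⁻¹ * ∑ q ∈ Ico r0 s, e q (a q)) :=
      mul_le_mul_of_nonneg_left (by linarith) hC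
    rw [mul_assoc]
    exact h1.trans h4
  have claim : ∀ m r0, i ≤ r0 → r0 ≤ t → t - r0 ≤ m →
      |h r0 (b r0) - h t (b t)| ≤ C * (η ^ 2)⁻¹ * ∑ q ∈ Ico r0 t, e q (a q) +
        (η * η * η)⁻¹ * Q t (a t) := by
    intro m
    induction m with
    | zero =>
      intro r0 h1 h2 h3
      have h4 : r0 = t := by omega
      subst h4
      have := mul_nonneg p3 (Q_nonneg H r0 _ (tr_prob H ha r0 h1))
      simpa using this
    | succ m ih =>
      intro r0 h1 h2 h3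
      obtain ⟨ν, hν, hν0⟩ := exists_tr K r0 (b r0)
      by_cases hex : ∃ s, r0 < s ∧ s ≤ t ∧ γ / 2 ≤ ν s (b s)
      · classical
        obtain ⟨c1, c2, c3⟩ := Nat.find_spec hex
        have c4 := seg r0 (Nat.find hex) h1 c1.le c2 ν hν hν0 (by
          intro r hr1 hr2
          by_contra hcon
          exact Nat.find_min hex hr2 ⟨hr1, by omega, not_lt.1 hcon⟩) (b (Nat.find hex))
          ((min_le_left _ _).trans c3)
        have c5 := ih (Nat.find hex) (by omega) c2 (by omega)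
        have c6 := sum_Ico_consecutive (fun q => e q (a q)) c1.le c2
        have c7 := abs_sub_le (h r0 (b r0)) (h (Nat.find hex) (b (Nat.find hex))) (h t (b t))
        rw [← c6, mul_add]
        linarith
      · obtain ⟨w, -, hw⟩ := heavy_on (ν t) univ η hη.le (by
          rw [(tr_prob H hν t h2).2]
          linarith)
        have c4 := seg r0 t h1 h2 le_rfl ν hν hν0 (by
          intro r hr1 hr2
          by_contra hcon
          exact hex ⟨r, hr1, hr2.le, not_lt.1 hcon⟩) w ((min_le_right _ _).trans hw)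
        have c5 : η * η ≤ a t w :=
          (mul_le_mul_of_nonneg_left hw hη.le).trans (hdom r0 h1 ν hν hν0 t h2 w)
        have c6 := jump H t _ (tr_prob H ha t hit) w (b t) (η * η) η (by positivity) hη c5
          (hb t hit).1
        have c7 := abs_sub_le (h r0 (b r0)) (h t w) (h t (b t))
        linarith
  have d1 := claim (t - i) i le_rfl hit le_rfl
  have d2 := jump H i _ ha.1 u (b i) θ η hθ hη hu (hb i le_rfl).1
  have d3 := jump H t _ (tr_prob H ha t hit) v (b t) θ η hθ hη hv (hb t hit).1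
  rw [abs_sub_comm] at d3
  have d4 := abs_sub_le (h i u) (h i (b i)) (h t v)
  have d5 := abs_sub_le (h i (b i)) (h t (b t)) (h t v)
  have d6 := mul_le_mul_of_nonneg_left hQt p1
  have d7 := mul_le_mul_of_nonneg_left hQt p3
  have d8 := mul_nonneg p1 hE0
  have d9 := mul_nonneg p2 hQ0
  linarith

theorem all (η : ℝ) (hη : 0 < η) (hη1 : η ≤ 1) (hn : (Fintype.card σ : ℝ) * η < 1 / 2)
    (k : ℕ) : ∃ γ : ℝ, 0 < γ ∧ γ ≤ 1 / 2 ∧ PP σ k γ := by
  induction k with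
  | zero => exact ⟨1 / 2, by norm_num, le_rfl, base η hη hn⟩
  | succ k ih =>
    obtain ⟨γ, h1, h2, h3⟩ := ih
    refine ⟨η * γ / 2, by positivity, ?_, step η hη hη1 hn k γ h1 h2 h3⟩
    have h4 : η * γ ≤ 1 * (1 / 2) := mul_le_mul hη1 h2 h1.le zero_le_one
    linarith

end LowM

theorem lowS : StmtLow := by
  intro σ _ _ θ hθ
  have hc : (0 : ℝ) ≤ Fintype.card σ := Nat.cast_nonneg _
  have hpos : (0 : ℝ) < 2 * Fintype.card σ + 1 := by linarith
  obtain ⟨γ, hγ, -, hP⟩ := LowM.all (σ := σ) (1 / (2 * Fintype.card σ + 1)) (by positivity)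
    (by
      rw [div_le_one hpos]
      linarith)
    (by
      rw [mul_one_div, div_lt_iff₀ hpos]
      linarith) (Fintype.card σ)
  obtain ⟨C, hC, hmain⟩ := hP θ hθ
  refine ⟨C, hC, ?_⟩
  intro K h Q e H1 H2 H3 H4 H5 H6 H7 α t u v hα hu hv
  have H : LowM.Hyp K h Q e := ⟨H1, H2, H3, H4, H5, H6, H7⟩
  have hT : LowM.Tr K (evol K 0 α) 0 := ⟨hα, fun r _ => by simp only [evol, zero_add]⟩
  have := hmain K h Q e H (evol K 0 α) 0 t (fun _ => univ) hT (Nat.zero_le t) (by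
    intro r _ _
    refine ⟨card_le_univ _, ?_⟩
    rw [(LowM.tr_prob H hT r (Nat.zero_le r)).2]
    linarith) u v hu hv
  rw [range_eq_Ico]
  exact this

end Vale.Agent.P235
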