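import Vale.Agent.P235.Spec

namespace Vale.Agent.P235

theorem mainS (hG : StmtGame) (hT : StmtTD) (hM : StmtMet) (hR : StmtRec) (hI : StmtInt)
    (hD : StmtDis) (hL : StmtLB) (hE : StmtEmb) : StmtMain := by
  classical
  obtain ⟨C, hC, hg⟩ := hG
  obtain ⟨C₂, hC₂, hl⟩ := hL
  refine ⟨C₂ * C, fun V _ G hc htw ℓ hℓ => ?_⟩
  have : Nonempty V := hc.nonempty
  obtain ⟨B, hB⟩ := hT V G htw
  obtain ⟨hpm, hup⟩ := hM V G ℓ hc hℓ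
  obtain ⟨S⟩ := hR V B _ C hpm hg
  have hP := (hI V B _ C S).2.2.1 B.n le_rfl
  have hD2 := (hD V B _ C S hpm).2.1
  have hPM : PM fun u v : V => S.D B.n (fun ω => ω u) (fun ω => ω v) :=
    ⟨fun _ => hP.1 _, fun _ _ => hP.2.1 _ _, fun _ _ => hP.2.2.1 _ _, fun _ _ _ => hP.2.2.2 _ _ _⟩
  have hle := hup _ C hC hPM fun u v huv => hD2 u v (hB u v huv)
  obtain ⟨Ω, m, μ, f, hf⟩ := hE V B _ C S C₂ hC₂.le
  refine ⟨Ω, m, μ, f, fun x y => ?_⟩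
  rw [hf]
  refine ⟨hl V B _ C S hpm x y, ?_⟩
  rw [mul_assoc]
  exact mul_le_mul_of_nonneg_left (hle x y) hC₂.le

end Vale.Agent.P235
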