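import Vale.Agent.P235.Spec

namespace Vale.Agent.P235

theorem metS : StmtMet := by
  intro V _ G ℓ hG hl
  have nn : ∀ {u v} (p : G.Walk u v), 0 ≤ (p.edges.map ℓ).sum := fun p =>
    List.sum_nonneg fun x hx => by
      obtain ⟨e, he, rfl⟩ := List.mem_map.1 hx
      exact (hl e (p.edges_subset_edgeSet he)).le
  have le : ∀ {u v} (p : G.Walk u v), gdist G ℓ u v ≤ (p.edges.map ℓ).sum := fun p =>
    ciInf_le ⟨0, by rintro _ ⟨q, rfl⟩; exact nn q⟩ p
  have ne : ∀ u v, Nonempty (G.Walk u v) := fun u v => hG u v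
  have g0 : ∀ u v, 0 ≤ gdist G ℓ u v := fun u v => le_ciInf nn
  have sy : ∀ u v, gdist G ℓ u v ≤ gdist G ℓ v u := fun u v => le_ciInf fun p => by
    simpa using le p.reverse
  refine ⟨⟨fun u => le_antisymm (by simpa using le (.nil : G.Walk u u)) (g0 u u),
    fun u v => le_antisymm (sy u v) (sy v u), g0, fun u v z => ?_⟩, fun D C hC hD h u v => ?_⟩
  · exact le_ciInf_add_ciInf fun p q => by simpa using le (p.append q)
  · rw [gdist, Real.mul_iInf_of_nonneg hC]
    refine le_ciInf fun p => ?_
    induction p with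
    | nil => simp [hD.1]
    | @cons a b c hab p ih =>
      have := mul_le_mul_of_nonneg_left (le (.cons hab .nil)) hC
      have := h a b hab
      have := hD.2.2.2 a b c
      simp only [SimpleGraph.Walk.edges_cons, SimpleGraph.Walk.edges_nil, List.map_cons,
        List.sum_cons, List.map_nil, List.sum_nil, mul_add, mul_zero] at *
      linarith

end Vale.Agent.P235
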