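import Vale.Agent.P235.Spec

namespace Vale.Agent.P235

open Finset

namespace PairM

variable {V : Type} [DecidableEq V] {B : Build V} {d : V → V → ℝ} {C : ℝ}

lemma rk_par (B : Build V) (i : ℕ) : rk (B.par i) ≤ i := by
  rcases h : B.par i with _ | ⟨j, c⟩
  · simp [rk]
  · have := B.lt i j c h
    simp only [rk]; omega

lemma D_symm (S : Strat B d C) (m : ℕ) (F F' : (V → Bool) → Bool) :
    S.D m F F' = S.D m F' F := by
  unfold Strat.D
  congr 1
  funext ω
  by_cases h : F ω = F' ω
  · rw [if_pos h, if_pos h.symm]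
  · rw [if_neg h, if_neg (fun h' => h h'.symm)]

lemma prob (hA : StmtAlg) (S : Strat B d C) (s : V) {N : Nd} {L : ℝ} {α : Sl → ℝ}
    (h : St S s N L α) : Prob α := by
  induction h with
  | base N c _ _ =>
    refine ⟨fun f => ?_, ?_⟩
    · dsimp only
      split_ifs <;> norm_num
    · simp
  | up i j L α hi _ ih =>
    exact (hA (fun _ => 0) (S.w i) 0 j).2.1 (S.hw i hi).1 (S.hw i hi).2 α ih

lemma ev_update (t : Fin 3 → V) (v : V) (ht : ∀ c, t c ≠ v) (g : Sl) (ω : V → Bool) (b : Bool) :
    ev t g (Function.update ω v b) = ev t g ω := by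
  rcases g with _ | c
  · simp only [ev, Function.update_of_ne (ht 0), Function.update_of_ne (ht 1),
      Function.update_of_ne (ht 2)]
  · simp only [ev, Function.update_of_ne (ht c)]

lemma ev_ind (t : Fin 3 → V) (v : V) (ht : ∀ c, t c ≠ v) (g : Sl) :
    ev t g (ind v) = false := by
  rcases g with _ | c
  · simp [ev, ind, maj, ht 0, ht 1, ht 2]
  · simp [ev, ind, ht c]

lemma ev_ind_child (t : Fin 3 → V) (v : V) (ht : ∀ c, t c ≠ v) (j : Fin 3) (f : Sl) :
    ev (Function.update t j v) f (ind v) = decide (f = some j) := by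
  rcases f with _ | c
  · have h0 := ht 0
    have h1 := ht 1
    have h2 := ht 2
    fin_cases j <;> simp [ev, ind, maj, Function.update, h0, h1, h2]
  · by_cases hc : c = j
    · subst hc; simp [ev, ind]
    · simp [ev, ind, Function.update_of_ne hc, ht c, hc]

lemma step (hI : StmtInt) (S : Strat B d C) (i : ℕ) (hi : i < B.n) (j : Fin 3) (N' : Nd)
    (hN' : rk N' ≤ i) (f g : Sl) :
    S.D B.n (ev (B.tri (some (i, j))) f) (ev (B.tri N') g) =
      ∑ ξ : Sl, wt (S.w i) ξ * S.D B.n (ev (B.tri (B.par i)) (sub j f ξ)) (ev (B.tri N') g) +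
        S.l i * (if f = some j then 1 else 0) := by
  obtain ⟨-, -, -, h4, h5, h6⟩ := hI V B d C S
  have hp := rk_par B i
  have hN : ∀ c, B.tri N' c ≠ B.x i := h4 N' (by omega) i hN' hi
  have hP : ∀ c, B.tri (B.par i) c ≠ B.x i := h4 (B.par i) (by omega) i hp hi
  rw [h5 (some (i, j)) N' f g (i + 1) (by simp [rk]) (by omega) (by omega)]
  have e1 : ∀ ξ : Sl, S.D B.n (ev (B.tri (B.par i)) (sub j f ξ)) (ev (B.tri N') g) =
      S.D i (ev (B.tri (B.par i)) (sub j f ξ)) (ev (B.tri N') g) :=
    fun ξ => h5 (B.par i) N' (sub j f ξ) g i hp hN' hi.le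
  simp only [e1]
  unfold Strat.D
  rw [Strat.I]
  congr 1
  · refine Finset.sum_congr rfl fun ξ _ => ?_
    congr 2
    funext ω
    rw [h6 i hi j f ξ ω, ev_update _ _ hN]
  · congr 1
    rw [ev_ind _ _ hN, B.eq i hi j, ev_ind_child _ _ hP]
    by_cases hf : f = some j <;> simp [hf]

lemma push_sum (w : Fin 3 → ℝ) (j : Fin 3) (α X : Sl → ℝ) :
    ∑ f', push w j α f' * X f' = ∑ f, α f * ∑ ξ, wt w ξ * X (sub j f ξ) := by
  unfold push
  simp only [Finset.sum_mul, Finset.mul_sum]
  rw [Finset.sum_comm]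
  refine Finset.sum_congr rfl fun f _ => ?_
  rw [Finset.sum_comm]
  refine Finset.sum_congr rfl fun ξ _ => ?_
  rw [Finset.sum_eq_single (sub j f ξ)]
  · simp [mul_assoc]
  · intro b _ hb
    simp [Ne.symm hb]
  · simp

def Inv (S : Strat B d C) (s t : V) (N N' : Nd) (L L' : ℝ) (α β : Sl → ℝ) : Prop :=
  rk N ≤ B.n ∧ rk N' ≤ B.n ∧ St S s N L α ∧ St S t N' L' β ∧
    S.D B.n (fun ω => ω s) (fun ω => ω t) =
      L + L' + ∑ f, ∑ g, α f * β g * S.D B.n (ev (B.tri N) f) (ev (B.tri N') g)

lemma Inv.symm {S : Strat B d C} {s t : V} {N N' : Nd} {L L' : ℝ} {α β : Sl → ℝ}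
    (h : Inv S s t N N' L L' α β) : Inv S t s N' N L' L β α := by
  obtain ⟨h1, h2, h3, h4, h5⟩ := h
  refine ⟨h2, h1, h4, h3, ?_⟩
  rw [D_symm, h5, Finset.sum_comm, add_comm L L']
  congr 1
  refine Finset.sum_congr rfl fun g _ => Finset.sum_congr rfl fun f _ => ?_
  rw [D_symm, mul_comm (α f)]

lemma Inv.up (hI : StmtInt) (hA : StmtAlg) {S : Strat B d C} {s t : V} {i : ℕ} {j : Fin 3}
    {N' : Nd} {L L' : ℝ} {α β : Sl → ℝ} (h : Inv S s t (some (i, j)) N' L L' α β)
    (hN' : rk N' ≤ i) :
    Inv S s t (B.par i) N' (L + α (some j) * S.l i) L' (push (S.w i) j α) β := by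
  obtain ⟨h1, h2, h3, h4, h5⟩ := h
  have hi : i < B.n := by simp only [rk] at h1; omega
  have hp := rk_par B i
  have hβ := (prob hA S t h4).2
  refine ⟨by omega, h2, St.up i j L α hi h3, h4, ?_⟩
  rw [h5]
  have e1 : ∑ f, ∑ g, push (S.w i) j α f * β g *
      S.D B.n (ev (B.tri (B.par i)) f) (ev (B.tri N') g) =
      ∑ f, push (S.w i) j α f * ∑ g, β g *
        S.D B.n (ev (B.tri (B.par i)) f) (ev (B.tri N') g) := by
    refine Finset.sum_congr rfl fun f _ => ?_
    rw [Finset.mul_sum]
    refine Finset.sum_congr rfl fun g _ => ?_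
    ring
  rw [e1, push_sum]
  have e2 : ∀ f, ∑ g, α f * β g * S.D B.n (ev (B.tri (some (i, j))) f) (ev (B.tri N') g) =
      α f * ∑ ξ, wt (S.w i) ξ * ∑ g, β g *
        S.D B.n (ev (B.tri (B.par i)) (sub j f ξ)) (ev (B.tri N') g) +
      α f * (S.l i * (if f = some j then 1 else 0)) := by
    intro f
    simp only [step hI S i hi j N' hN']
    have e3 : ∑ ξ, wt (S.w i) ξ * ∑ g, β g *
        S.D B.n (ev (B.tri (B.par i)) (sub j f ξ)) (ev (B.tri N') g) =
        ∑ g, β g * ∑ ξ, wt (S.w i) ξ *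
          S.D B.n (ev (B.tri (B.par i)) (sub j f ξ)) (ev (B.tri N') g) := by
      simp only [Finset.mul_sum]
      rw [Finset.sum_comm]
      refine Finset.sum_congr rfl fun g _ => Finset.sum_congr rfl fun ξ _ => ?_
      ring
    rw [e3]
    have e4 : α f * (S.l i * (if f = some j then 1 else 0)) =
        ∑ g, α f * β g * (S.l i * (if f = some j then 1 else 0)) := by
      rw [← Finset.sum_mul, ← Finset.mul_sum, hβ, mul_one]
    rw [e4, Finset.mul_sum, ← Finset.sum_add_distrib]
    refine Finset.sum_congr rfl fun g _ => ?_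
    ring
  simp only [e2]
  rw [Finset.sum_add_distrib]
  have e5 : ∑ f, α f * (S.l i * (if f = some j then 1 else 0)) = α (some j) * S.l i := by
    rw [Finset.sum_eq_single (some j)]
    · simp
    · intro b _ hb
      simp [hb]
    · simp
  rw [e5]
  ring

lemma start (B : Build V) (s : V) : ∃ N c, rk N ≤ B.n ∧ B.tri N c = s := by
  rcases B.cover s with ⟨c, hc⟩ | ⟨i, hi, hx⟩
  · exact ⟨none, c, by simp [rk], hc⟩
  · refine ⟨some (i, 0), 0, by simp only [rk]; omega, ?_⟩
    rw [B.eq i hi 0, Function.update_self, hx]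

lemma main (hI : StmtInt) (hA : StmtAlg) (S : Strat B d C) (s t : V) (k : ℕ) :
    ∀ N N' L L' α β, rk N + rk N' ≤ k → Inv S s t N N' L L' α β →
      ∃ N N' L L' α β, Sib B N N' ∧ Inv S s t N N' L L' α β := by
  induction k with
  | zero =>
    intro N N' L L' α β hk h
    refine ⟨N, N', L, L', α, β, Or.inl ?_, h⟩
    rcases N with _ | ⟨i, j⟩
    · rcases N' with _ | ⟨i', j'⟩
      · rfl
      · simp [rk] at hk
    · simp [rk] at hk
  | succ k ih =>
    intro N N' L L' α β hk h
    have left : ∀ i j, N = some (i, j) → rk N' ≤ i →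
        ∃ N N' L L' α β, Sib B N N' ∧ Inv S s t N N' L L' α β := by
      intro i j hN hN'
      subst hN
      have hp := rk_par B i
      refine ih _ _ _ _ _ _ ?_ (h.up hI hA hN')
      have : rk (some (i, j)) = i + 1 := rfl
      omega
    have right : ∀ i j, N' = some (i, j) → rk N ≤ i →
        ∃ N N' L L' α β, Sib B N N' ∧ Inv S s t N N' L L' α β := by
      intro i j hN hN'
      subst hN
      have hp := rk_par B i
      refine ih _ _ _ _ _ _ ?_ (h.symm.up hI hA hN').symm
      have : rk (some (i, j)) = i + 1 := rfl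
      omega
    rcases N with _ | ⟨i, j⟩
    · rcases N' with _ | ⟨i', j'⟩
      · exact ⟨_, _, L, L', α, β, Or.inl rfl, h⟩
      · exact right i' j' rfl (by simp [rk])
    · rcases N' with _ | ⟨i', j'⟩
      · exact left i j rfl (by simp [rk])
      · rcases lt_trichotomy i i' with hlt | heq | hgt
        · exact right i' j' rfl (by simp only [rk]; omega)
        · subst heq
          by_cases hj : j = j'
          · subst hj
            exact ⟨_, _, L, L', α, β, Or.inl rfl, h⟩
          · have hi : i < B.n := by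
              have := h.1
              simp only [rk] at this; omega
            exact ⟨_, _, L, L', α, β, Or.inr ⟨i, j, j', hi, hj, rfl, rfl⟩, h⟩
        · exact left i j rfl (by simp only [rk]; omega)

end PairM

theorem pairS (hI : StmtInt) (hA : StmtAlg) : StmtPair := by
  intro V _ B d C S s t
  obtain ⟨N, c, hN, hc⟩ := PairM.start B s
  obtain ⟨N', c', hN', hc'⟩ := PairM.start B t
  have h0 : PairM.Inv S s t N N' 0 0 (fun f => if f = some c then 1 else 0)
      (fun f => if f = some c' then 1 else 0) := by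
    refine ⟨hN, hN', St.base N c hN hc, St.base N' c' hN' hc', ?_⟩
    rw [Finset.sum_eq_single (some c)]
    · rw [Finset.sum_eq_single (some c')]
      · have e1 : ev (B.tri N) (some c) = fun ω => ω s := by
          funext ω; simp only [ev, hc]
        have e2 : ev (B.tri N') (some c') = fun ω => ω t := by
          funext ω; simp only [ev, hc']
        rw [e1, e2]; simp
      · intro b _ hb
        simp [hb]
      · simp
    · intro b _ hb
      simp [hb]
    · simp
  obtain ⟨M, M', L, L', α, β, hs, h1, h2, h3, h4, h5⟩ :=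
    PairM.main hI hA S s t _ N N' 0 0 _ _ le_rfl h0
  exact ⟨M, M', L, L', α, β, h1, h2, hs, h3, h4, h5⟩

end Vale.Agent.P235
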