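import Vale.Agent.P235.Spec

namespace Vale.Agent.P235

namespace PotM

/-- a finite system of difference constraints is solvable -/
theorem solve (e : Fin 3 → Fin 3 → ℝ) (m r : Fin 3 → Option (Fin 3) → ℝ)
    (h0 : ∀ j, e j j = 0) (hs : ∀ j j', e j j' = e j' j)
    (ht : ∀ a b c, e a c ≤ e a b + e b c)
    (hc : ∀ j s j' s', m j s - r j s ≤ m j' s' + r j' s' + e j j') :
    ∃ z : Fin 3 → ℝ, (∀ j s, |z j - m j s| ≤ r j s) ∧ ∀ j j', |z j - z j'| ≤ e j j' := by
  have hne : (Finset.univ : Finset (Fin 3 × Option (Fin 3))).Nonempty := Finset.univ_nonempty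
  have hup : ∀ j (q : Fin 3 × Option (Fin 3)),
      Finset.univ.inf' hne (fun q : Fin 3 × Option (Fin 3) => m q.1 q.2 + r q.1 q.2 + e j q.1) ≤
        m q.1 q.2 + r q.1 q.2 + e j q.1 := fun j q =>
    Finset.inf'_le (fun q : Fin 3 × Option (Fin 3) => m q.1 q.2 + r q.1 q.2 + e j q.1)
      (Finset.mem_univ q)
  have hdiff : ∀ j j', Finset.univ.inf' hne
      (fun q : Fin 3 × Option (Fin 3) => m q.1 q.2 + r q.1 q.2 + e j q.1) - e j j' ≤
      Finset.univ.inf' hne
      (fun q : Fin 3 × Option (Fin 3) => m q.1 q.2 + r q.1 q.2 + e j' q.1) := by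
    intro j j'
    refine Finset.le_inf' hne _ fun q _ => ?_
    have h1 := hup j q
    have h2 := ht j j' q.1
    linarith
  refine ⟨fun j => Finset.univ.inf' hne
    (fun q : Fin 3 × Option (Fin 3) => m q.1 q.2 + r q.1 q.2 + e j q.1), ?_, ?_⟩
  · intro j s
    have h1 := hup j (j, s)
    have h2 : m j s - r j s ≤ Finset.univ.inf' hne
        (fun q : Fin 3 × Option (Fin 3) => m q.1 q.2 + r q.1 q.2 + e j q.1) :=
      Finset.le_inf' hne _ fun q _ => hc j s q.1 q.2
    have h3 := h0 j
    simp only at h1
    rw [abs_le]
    constructor <;> linarith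
  · intro j j'
    have h1 := hdiff j j'
    have h2 := hdiff j' j
    have h3 := hs j j'
    rw [abs_le]
    constructor <;> linarith

theorem noise_eq (G w : Fin 3 → ℝ) (j : Fin 3) :
    noise G w j = w 0 * G 0 + w 1 * G 1 + w 2 * G 2 - w j * G j := by
  fin_cases j <;> simp [noise] <;> ring

theorem rk_par {V : Type} (B : Build V) (i : ℕ) : rk (B.par i) ≤ i := by
  cases hp : B.par i with
  | none => simp [rk]
  | some q =>
    obtain ⟨j, c⟩ := q
    have := B.lt i j c hp
    simp only [rk]
    omega

/-- the index of a child node -/
def idx : Nd → Fin 3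
  | none => 0
  | some (_, j) => j

theorem step {V : Type} {B : Build V} {d : V → V → ℝ} {C : ℝ} (S : Strat B d C) (h : V → ℝ)
    (hL : Lip d h) (i : ℕ) (hi : i < B.n) (y0 : ℝ)
    (hy : ∀ c, |y0 - h (B.tri (B.par i) c)| ≤ S.κ (B.par i) c) :
    ∃ z : Fin 3 → ℝ, (∀ j c, |z j - h (B.tri (some (i, j)) c)| ≤ S.κ (some (i, j)) c) ∧
      (∀ j, |z j - y0| ≤ noise (S.G (B.par i)) (S.w i) j) ∧
      ∀ j j', j ≠ j' → |z j - z j'| ≤
        S.w i j * S.G (B.par i) j + S.w i j' * S.G (B.par i) j' := by
  have hpar : rk (B.par i) ≤ B.n := (rk_par B i).trans hi.le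
  have hch : ∀ j, rk (some (i, j)) ≤ B.n := fun j => by
    simp only [rk]
    omega
  have hp : ∀ c, 0 ≤ S.w i c * S.G (B.par i) c := fun c =>
    mul_nonneg ((S.hw i hi).1 c) (((S.hκ _ hpar c).1).trans (S.hκ _ hpar c).2)
  have hN0 : ∀ j, 0 ≤ noise (S.G (B.par i)) (S.w i) j := fun j =>
    add_nonneg (hp _) (hp _)
  set e : Fin 3 → Fin 3 → ℝ := fun j j' =>
    if j = j' then 0 else S.w i j * S.G (B.par i) j + S.w i j' * S.G (B.par i) j' with he
  have he0 : ∀ j j', 0 ≤ e j j' := by
    intro j j'
    simp only [he]
    split_ifs
    · exact le_rfl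
    · exact add_nonneg (hp _) (hp _)
  have hNe : ∀ j j', noise (S.G (B.par i)) (S.w i) j ≤
      noise (S.G (B.par i)) (S.w i) j' + e j j' := by
    intro j j'
    simp only [he]
    split_ifs with hjj
    · subst hjj
      simp
    · rw [noise_eq, noise_eq]
      have := hp j
      linarith
  have hes : ∀ j j', e j j' = e j' j := by
    intro j j'
    simp only [he]
    by_cases hjj : j = j'
    · simp [hjj]
    · rw [if_neg hjj, if_neg (Ne.symm hjj)]
      ring
  have hA : ∀ j c, |h (B.tri (some (i, j)) c) - y0| ≤
      S.κ (some (i, j)) c + noise (S.G (B.par i)) (S.w i) j := by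
    intro j c
    rw [B.eq i hi j]
    by_cases hcj : c = j
    · subst hcj
      obtain ⟨v, hv⟩ := S.a2 i hi c
      have h1 := hy v
      have h2 := hL (B.x i) (B.tri (B.par i) v)
      rw [Function.update_self]
      rw [abs_le] at h1 h2 ⊢
      constructor <;> linarith [h1.1, h1.2, h2.1, h2.2]
    · rw [Function.update_of_ne hcj]
      have h1 := hy c
      have h2 := S.a1 i hi j c hcj
      rw [abs_le] at h1 ⊢
      constructor <;> linarith [h1.1, h1.2]
  obtain ⟨z, hz1, hz2⟩ := solve e
    (fun j s => Option.elim s y0 (fun c => h (B.tri (some (i, j)) c)))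
    (fun j s => Option.elim s (noise (S.G (B.par i)) (S.w i) j) (fun c => S.κ (some (i, j)) c))
    (fun j => by simp [he]) hes
    (by
      intro a b c
      by_cases hab : a = b
      · subst hab
        simp [he]
      · by_cases hbc : b = c
        · subst hbc
          simp [he]
        · by_cases hac : a = c
          · subst hac
            have h1 := he0 a b
            have h2 := he0 b a
            have h3 : e a a = 0 := by simp [he]
            linarith
          · simp only [he, if_neg hab, if_neg hbc, if_neg hac]
            have := hp b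
            linarith)
    (by
      intro j s j' s'
      cases s with
      | none =>
        cases s' with
        | none =>
          simp only [Option.elim]
          have h1 := hN0 j
          have h2 := hN0 j'
          have h3 := he0 j j'
          linarith
        | some c' =>
          simp only [Option.elim]
          have h1 := hA j' c'
          have h2 := hNe j' j
          have h3 := hes j j'
          rw [abs_le] at h1
          linarith [h1.1]
      | some c =>
        cases s' with
        | none =>
          simp only [Option.elim]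
          have h1 := hA j c
          have h2 := hNe j j'
          rw [abs_le] at h1
          linarith [h1.2]
        | some c' =>
          simp only [Option.elim]
          have h1 := hL (B.tri (some (i, j)) c) (B.tri (some (i, j')) c')
          rw [abs_le] at h1
          by_cases hjj : j = j'
          · subst hjj
            have h3 : e j j = 0 := by simp [he]
            by_cases hcc : c = c'
            · subst hcc
              have := (S.hκ _ (hch j) c).1
              linarith
            · have := S.kat _ (hch j) c c' hcc
              linarith [h1.2]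
          · have h2 := S.cr i hi j j' hjj c c'
            simp only [he, if_neg hjj]
            linarith [h1.2])
  refine ⟨z, fun j c => hz1 j (some c), fun j => hz1 j none, fun j j' hjj => ?_⟩
  have := hz2 j j'
  simpa only [he, if_neg hjj] using this

theorem root {V : Type} {B : Build V} {d : V → V → ℝ} {C : ℝ} (S : Strat B d C) (h : V → ℝ)
    (hL : Lip d h) : ∃ y0 : ℝ, ∀ c, |y0 - h (B.tri none c)| ≤ S.κ none c := by
  have hne : (Finset.univ : Finset (Fin 3)).Nonempty := Finset.univ_nonempty
  have h0 : rk none ≤ B.n := by simp [rk]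
  refine ⟨Finset.univ.inf' hne (fun c => h (B.tri none c) + S.κ none c), fun c => ?_⟩
  have h1 : Finset.univ.inf' hne (fun c => h (B.tri none c) + S.κ none c) ≤
      h (B.tri none c) + S.κ none c :=
    Finset.inf'_le (fun c => h (B.tri none c) + S.κ none c) (Finset.mem_univ c)
  have h2 : h (B.tri none c) - S.κ none c ≤
      Finset.univ.inf' hne (fun c => h (B.tri none c) + S.κ none c) := by
    refine Finset.le_inf' hne _ fun c' _ => ?_
    by_cases hcc : c = c'
    · subst hcc
      have := (S.hκ _ h0 c).1
      linarith
    · have h3 := S.kat _ h0 c c' hcc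
      have h4 := hL (B.tri none c) (B.tri none c')
      rw [abs_le] at h4
      linarith [h4.2]
  rw [abs_le]
  constructor <;> linarith

theorem main {V : Type} {B : Build V} {d : V → V → ℝ} {C : ℝ} (S : Strat B d C) (h : V → ℝ)
    (hL : Lip d h) : ∀ m, m ≤ B.n → ∃ y : Nd → ℝ,
      (∀ N, rk N ≤ m → ∀ c, |y N - h (B.tri N c)| ≤ S.κ N c) ∧
      (∀ i, i < m → ∀ j, |y (some (i, j)) - y (B.par i)| ≤ noise (S.G (B.par i)) (S.w i) j) ∧
      ∀ i, i < m → ∀ j j', j ≠ j' → |y (some (i, j)) - y (some (i, j'))| ≤
        S.w i j * S.G (B.par i) j + S.w i j' * S.G (B.par i) j' := by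
  intro m
  induction m with
  | zero =>
    intro _
    obtain ⟨y0, hy0⟩ := root S h hL
    refine ⟨fun _ => y0, ?_, fun i hi => absurd hi (Nat.not_lt_zero i),
      fun i hi => absurd hi (Nat.not_lt_zero i)⟩
    intro N hN c
    cases N with
    | none => exact hy0 c
    | some q =>
      obtain ⟨a, b⟩ := q
      simp [rk] at hN
  | succ m ih =>
    intro hm
    obtain ⟨y, h1, h2, h3⟩ := ih (by omega)
    obtain ⟨z, k1, k2, k3⟩ := step S h hL m (by omega) (y (B.par m))
      (h1 _ (rk_par B m))
    have hold : ∀ N, rk N ≤ m → (if rk N = m + 1 then z (idx N) else y N) = y N := by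
      intro N hN
      rw [if_neg (by omega)]
    have hnew : ∀ j, (if rk (some (m, j)) = m + 1 then z (idx (some (m, j)))
        else y (some (m, j))) = z j := by
      intro j
      rw [if_pos (by simp [rk])]
      rfl
    have hrk : ∀ i j, i < m → rk (some (i, j)) ≤ m := by
      intro i j hi
      simp only [rk]
      omega
    refine ⟨fun N => if rk N = m + 1 then z (idx N) else y N, ?_, ?_, ?_⟩
    · intro N hN c
      by_cases hr : rk N ≤ m
      · simp only [hold N hr]
        exact h1 N hr c
      · cases N with
        | none => simp [rk] at hr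
        | some q =>
          obtain ⟨a, b⟩ := q
          have hab : a = m := by
            simp only [rk] at hN hr
            omega
          subst hab
          simp only [hnew b]
          exact k1 b c
    · intro i hi j
      have hp : rk (B.par i) ≤ m := (rk_par B i).trans (by omega)
      by_cases him : i < m
      · simp only [hold _ hp, hold _ (hrk i j him)]
        exact h2 i him j
      · have hab : i = m := by omega
        subst hab
        simp only [hold _ hp, hnew j]
        exact k2 j
    · intro i hi j j' hjj
      by_cases him : i < m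
      · simp only [hold _ (hrk i j him), hold _ (hrk i j' him)]
        exact h3 i him j j' hjj
      · have hab : i = m := by omega
        subst hab
        simp only [hnew j, hnew j']
        exact k3 j j' hjj

end PotM

theorem potS : StmtPot := by
  intro V _ B d C S h _ hL
  obtain ⟨y, hy⟩ := PotM.main S h hL B.n le_rfl
  exact ⟨y, hy⟩

end Vale.Agent.P235
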