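import Vale.Agent.P235.Spec

namespace Vale.Agent.P235

namespace RecM

variable {V : Type}

/-- legs of the tripod spanned by a triangle -/
noncomputable def gg (d : V → V → ℝ) (T : Fin 3 → V) (c : Fin 3) : ℝ :=
  (d (T c) (T (c + 1)) + d (T c) (T (c + 2)) - d (T (c + 1)) (T (c + 2))) / 2

theorem gg_add {d : V → V → ℝ} (hd : PM d) (T : Fin 3 → V) {c c' : Fin 3} (h : c ≠ c') :
    gg d T c + gg d T c' = d (T c) (T c') := by
  obtain ⟨-, hs, -, -⟩ := hd
  have h10 := hs (T 1) (T 0)
  have h20 := hs (T 2) (T 0)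
  have h21 := hs (T 2) (T 1)
  fin_cases c <;> fin_cases c' <;> first | exact absurd rfl h | (simp [gg]; linarith)

theorem gg_nonneg {d : V → V → ℝ} (hd : PM d) (T : Fin 3 → V) (c : Fin 3) : 0 ≤ gg d T c := by
  obtain ⟨-, hs, -, ht⟩ := hd
  have h1 := ht (T (c + 1)) (T c) (T (c + 2))
  have h2 := hs (T (c + 1)) (T c)
  unfold gg
  linarith

theorem kat {d : V → V → ℝ} (hd : PM d) (T : Fin 3 → V) (x : V) :
    Kat (gg d T) (fun c => d x (T c)) := by
  refine ⟨fun i => hd.2.2.1 _ _, fun i j hij => ?_⟩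
  rw [gg_add hd T hij]
  obtain ⟨-, hs, -, ht⟩ := hd
  have h1 := ht (T i) x (T j)
  have h2 := hs (T i) x
  have h3 := ht x (T j) (T i)
  have h4 := hs (T j) (T i)
  constructor
  · show d (T i) (T j) ≤ d x (T i) + d x (T j)
    linarith
  · show d x (T i) ≤ d x (T j) + d (T i) (T j)
    linarith

theorem newg_eq {d : V → V → ℝ} (hd : PM d) (T : Fin 3 → V) (x : V) (j : Fin 3) :
    newg (gg d T) (fun c => d x (T c)) j = gg d (Function.update T j x) := by
  obtain ⟨-, hs, -, -⟩ := hd
  have h10 := hs (T 1) (T 0)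
  have h20 := hs (T 2) (T 0)
  have h21 := hs (T 2) (T 1)
  have h0 := hs (T 0) x
  have h1 := hs (T 1) x
  have h2 := hs (T 2) x
  have t01 : third 0 1 = 2 := by decide
  have t02 : third 0 2 = 1 := by decide
  have t10 : third 1 0 = 2 := by decide
  have t12 : third 1 2 = 0 := by decide
  have t20 : third 2 0 = 1 := by decide
  have t21 : third 2 1 = 0 := by decide
  funext i
  fin_cases j <;> fin_cases i <;>
    simp [newg, gg, t01, t02, t10, t12, t20, t21, Function.update] <;> linarith

theorem dB_eq {d : V → V → ℝ} (hd : PM d) (T : Fin 3 → V) (x : V) (j c j' c' : Fin 3) :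
    dB (gg d T) (fun c => d x (T c)) j c j' c' =
      d (Function.update T j x c) (Function.update T j' x c') := by
  unfold dB
  by_cases h1 : c = j
  · subst h1
    by_cases h2 : c' = j'
    · subst h2
      simp [hd.1]
    · simp [h2]
  · by_cases h2 : c' = j'
    · subst h2
      simp [h1, hd.2.1 (T c) x]
    · by_cases h3 : c = c'
      · subst h3
        simp [h1, h2, hd.1]
      · simp [h1, h2, h3, gg_add hd T h3]

theorem rk_par (B : Build V) (i : ℕ) : rk (B.par i) ≤ i := by
  cases h : B.par i with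
  | none => simp [rk]
  | some p =>
    obtain ⟨j, c⟩ := p
    have := B.lt i j c h
    simp only [rk]
    omega

/-- extend a node function at the children of step `m` -/
def ext {α : Type} (F : Nd → α) (m : ℕ) (A : Fin 3 → α) : Nd → α
  | none => F none
  | some (i, j) => if i = m then A j else F (some (i, j))

theorem ext_old {α : Type} (F : Nd → α) (m : ℕ) (A : Fin 3 → α) (N : Nd) (h : rk N ≤ m) :
    ext F m A N = F N := by
  cases N with
  | none => rfl
  | some p =>
    obtain ⟨i, j⟩ := p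
    have : i ≠ m := by
      simp only [rk] at h
      omega
    simp [ext, this]

theorem ext_new {α : Type} (F : Nd → α) (m : ℕ) (A : Fin 3 → α) (j : Fin 3) :
    ext F m A (some (m, j)) = A j := by
  simp [ext]

theorem exists_state (B : Build V) (d : V → V → ℝ) (hd : PM d)
    (Inv : (Fin 3 → ℝ) → (Fin 3 → ℝ) → (Fin 3 → ℝ) → Prop)
    (h0 : ∀ g : Fin 3 → ℝ, (∀ i, 0 ≤ g i) → ∃ G κ, Inv g G κ)
    (h2 : ∀ g G κ k, (∀ i, 0 ≤ g i) → Inv g G κ → Kat g k → ∃ w l κ', Step Inv g G κ k w l κ')
    (m : ℕ) (hm : m ≤ B.n) :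
    ∃ (G κ : Nd → Fin 3 → ℝ) (w : ℕ → Fin 3 → ℝ) (l : ℕ → ℝ),
      (∀ N, rk N ≤ m → Inv (gg d (B.tri N)) (G N) (κ N)) ∧
      ∀ i, i < m → Step Inv (gg d (B.tri (B.par i))) (G (B.par i)) (κ (B.par i))
          (fun c => d (B.x i) (B.tri (B.par i) c)) (w i) (l i) (fun j => κ (some (i, j))) ∧
        ∀ j, G (some (i, j)) = newG (G (B.par i)) (w i) (l i) j := by
  induction m with
  | zero =>
    obtain ⟨G, κ, h⟩ := h0 (gg d (B.tri none)) (gg_nonneg hd _)
    refine ⟨fun _ => G, fun _ => κ, fun _ _ => 0, fun _ => 0, fun N hN => ?_,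
      fun i hi => absurd hi (Nat.not_lt_zero i)⟩
    cases N with
    | none => exact h
    | some p =>
      obtain ⟨i, j⟩ := p
      simp [rk] at hN
  | succ m ih =>
    obtain ⟨G, κ, w, l, hI, hS⟩ := ih (by omega)
    obtain ⟨w0, l0, κ0, hst⟩ := h2 _ _ _ _ (gg_nonneg hd _) (hI (B.par m) (rk_par B m))
      (kat hd (B.tri (B.par m)) (B.x m))
    refine ⟨ext G m (fun j => newG (G (B.par m)) w0 l0 j), ext κ m κ0, Function.update w m w0,
      Function.update l m l0, fun N hN => ?_, fun i hi => ?_⟩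
    · by_cases hN' : rk N ≤ m
      · rw [ext_old _ _ _ _ hN', ext_old _ _ _ _ hN']
        exact hI N hN'
      · cases N with
        | none => simp [rk] at hN'
        | some p =>
          obtain ⟨i, j⟩ := p
          have hi : i = m := by
            simp only [rk] at hN hN'
            omega
          subst hi
          rw [ext_new, ext_new, B.eq i (by omega) j, ← newg_eq hd]
          exact hst.2.2.2.1 j
    · have hp : rk (B.par i) ≤ m := (rk_par B i).trans (by omega)
      rw [ext_old _ _ _ _ hp, ext_old _ _ _ _ hp]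
      by_cases him : i = m
      · subst him
        simp only [Function.update_self, ext_new]
        exact ⟨hst, fun _ => trivial⟩
      · have hlt : i < m := by omega
        have hc : ∀ j : Fin 3, rk (some (i, j)) ≤ m := fun j => by
          simp only [rk]
          omega
        simp only [Function.update_of_ne him, ext_old _ _ _ _ (hc _)]
        exact hS i hlt

end RecM

open RecM in
theorem recS : StmtRec := by
  intro V B d C hd hG
  obtain ⟨Inv, h0, h1, h2⟩ := hG
  obtain ⟨G, κ, w, l, hI, hS⟩ := exists_state B d hd Inv h0 h2 B.n le_rfl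
  refine ⟨⟨G, κ, w, l, fun N hN c => (h1 _ _ _ (hI N hN)).1 c, fun N hN c c' hc => ?_,
    fun N hN c c' hc => ?_, fun i hi => ⟨(hS i hi).1.1, (hS i hi).1.2.1⟩,
    fun i hi => (hS i hi).1.2.2.1, fun i hi => (hS i hi).2,
    fun i hi j c hc => (hS i hi).1.2.2.2.2.1 j c hc,
    fun i hi j => (hS i hi).1.2.2.2.2.2.1 j, fun i hi j j' hj c c' => ?_⟩⟩
  · rw [← gg_add hd _ hc]
    exact ((h1 _ _ _ (hI N hN)).2 c c' hc).1
  · rw [← gg_add hd _ hc]
    exact ((h1 _ _ _ (hI N hN)).2 c c' hc).2
  · rw [B.eq i hi j, B.eq i hi j', ← dB_eq hd]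
    exact (hS i hi).1.2.2.2.2.2.2 j j' hj c c'

end Vale.Agent.P235
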