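import Vale.Agent.P235.GSpec

namespace Vale.Agent.P235

namespace RedM

def Anc (g0 g1 g2 G0 G1 G2 c0 c1 c2 : ℝ) : Prop :=
  c1 = G1 ∧ c2 = G2 ∧ c0 ≤ G0 ∧ 2 * c0 + G0 / 2 ≤ g0 + g1 + g2 - G0 - G1 - G2 ∧
    (c0 = G0 ∨ 2 * c0 + G0 / 2 = g0 + g1 + g2 - G0 - G1 - G2)

def InvR (g0 g1 g2 G0 G1 G2 c0 c1 c2 : ℝ) : Prop :=
  (0 ≤ c0 ∧ 0 ≤ c1 ∧ 0 ≤ c2) ∧ (G0 + G1 ≤ g0 + g1 ∧ G1 + G2 ≤ g1 + g2 ∧ G2 + G0 ≤ g2 + g0) ∧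
  ((g0 + g1) / 32 ≤ c0 + c1 ∧ (g1 + g2) / 32 ≤ c1 + c2 ∧ (g2 + g0) / 32 ≤ c2 + c0) ∧
  (Wp g0 g1 g2 G0 G1 G2 ∧ Wp g1 g2 g0 G1 G2 G0 ∧ Wp g2 g0 g1 G2 G0 G1) ∧
  (Anc g0 g1 g2 G0 G1 G2 c0 c1 c2 ∨ Anc g1 g2 g0 G1 G2 G0 c1 c2 c0 ∨ Anc g2 g0 g1 G2 G0 G1 c2 c0 c1)

lemma wp_swp {gb ga gc Gb Ga Gc : ℝ} (h : Wp gb ga gc Gb Ga Gc) : Wp gb gc ga Gb Gc Ga := by
  rcases h with h | h | h
  · exact Or.inr (Or.inl h)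
  · exact Or.inl h
  · exact Or.inr (Or.inr (by linarith))

lemma anc_swp {g0 g1 g2 G0 G1 G2 c0 c1 c2 : ℝ} (h : Anc g0 g1 g2 G0 G1 G2 c0 c1 c2) :
    Anc g0 g2 g1 G0 G2 G1 c0 c2 c1 := by
  obtain ⟨h1, h2, h3, h4, h5⟩ := h
  exact ⟨h2, h1, h3, by linarith, h5.imp id fun h => by linarith⟩

lemma inv_rot {g0 g1 g2 G0 G1 G2 c0 c1 c2 : ℝ} (h : InvR g0 g1 g2 G0 G1 G2 c0 c1 c2) :
    InvR g1 g2 g0 G1 G2 G0 c1 c2 c0 := by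
  obtain ⟨⟨a1, a2, a3⟩, ⟨b1, b2, b3⟩, ⟨d1, d2, d3⟩, ⟨e1, e2, e3⟩, f⟩ := h
  exact ⟨⟨a2, a3, a1⟩, ⟨b2, b3, b1⟩, ⟨d2, d3, d1⟩, ⟨e2, e3, e1⟩, by tauto⟩

lemma inv_swp {g0 g1 g2 G0 G1 G2 c0 c1 c2 : ℝ} (h : InvR g0 g1 g2 G0 G1 G2 c0 c1 c2) :
    InvR g0 g2 g1 G0 G2 G1 c0 c2 c1 := by
  obtain ⟨⟨a1, a2, a3⟩, ⟨b1, b2, b3⟩, ⟨d1, d2, d3⟩, ⟨e1, e2, e3⟩, f⟩ := h
  refine ⟨⟨a1, a3, a2⟩, ⟨by linarith, by linarith, by linarith⟩, ⟨by linarith, by linarith, by linarith⟩,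
    ⟨wp_swp e1, wp_swp e3, wp_swp e2⟩, ?_⟩
  rcases f with f | f | f
  · exact Or.inl (anc_swp f)
  · exact Or.inr (Or.inr (anc_swp f))
  · exact Or.inr (Or.inl (anc_swp f))

lemma inv_le {g0 g1 g2 G0 G1 G2 c0 c1 c2 : ℝ} (h : InvR g0 g1 g2 G0 G1 G2 c0 c1 c2) :
    c0 ≤ G0 ∧ c1 ≤ G1 ∧ c2 ≤ G2 := by
  obtain ⟨-, -, -, -, f⟩ := h
  rcases f with ⟨a, b, c, -⟩ | ⟨a, b, c, -⟩ | ⟨a, b, c, -⟩
  exacts [⟨c, a.le, b.le⟩, ⟨b.le, c, a.le⟩, ⟨a.le, b.le, c⟩]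

def ChR (gu gv Gu Gv cj cu cv kj ku kv pj pu pv l ρx ρu ρv : ℝ) : Prop := ∃ x y z : ℝ,
  InvR ((ku + kv - gu - gv) / 2) ((gu + gv + ku - kv) / 2) ((gu + gv + kv - ku) / 2)
    (l + pj) (Gu - pu + pv) (Gv - pv + pu) x y z ∧ cu ≤ y + 8 * (pu + pv) ∧ cv ≤ z + 8 * (pu + pv) ∧
  (cj + kj / 32 ≤ x + 8 * (pu + pv) ∨ cu + ku / 32 ≤ x + 8 * (pu + pv) ∨ cv + kv / 32 ≤ x + 8 * (pu + pv)) ∧
  ρx ≤ x + 8 * pj ∧ ρu ≤ y + 8 * pj ∧ ρv ≤ z + 8 * pj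

lemma ch_swp {gu gv Gu Gv cj cu cv kj ku kv pj pu pv l ρx ρu ρv : ℝ}
    (h : ChR gu gv Gu Gv cj cu cv kj ku kv pj pu pv l ρx ρu ρv) :
    ChR gv gu Gv Gu cj cv cu kj kv ku pj pv pu l ρx ρv ρu := by
  obtain ⟨x, y, z, h1, h2, h3, h4, h5, h6, h7⟩ := h
  refine ⟨x, z, y, ?_, by linarith, by linarith, ?_, h5, h7, h6⟩
  · convert inv_swp h1 using 1 <;> ring
  · rcases h4 with h | h | h
    · exact Or.inl (by linarith)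
    · exact Or.inr (Or.inr (by linarith))
    · exact Or.inr (Or.inl (by linarith))

def StepR (g0 g1 g2 G0 G1 G2 c0 c1 c2 k0 k1 k2 : ℝ) : Prop := ∃ p0 p1 p2 l ρ0 ρ1 ρ2 ρx : ℝ,
  Mono G0 G1 G2 p0 p1 p2 ∧ 0 ≤ l ∧ (0 ≤ ρ0 ∧ 0 ≤ ρ1 ∧ 0 ≤ ρ2 ∧ 0 ≤ ρx) ∧
  (k0 / 32 ≤ ρx + ρ0 ∧ k1 / 32 ≤ ρx + ρ1 ∧ k2 / 32 ≤ ρx + ρ2) ∧
  ((g0 + g1) / 32 ≤ ρ0 + ρ1 ∧ (g1 + g2) / 32 ≤ ρ1 + ρ2 ∧ (g2 + g0) / 32 ≤ ρ2 + ρ0) ∧
  ChR g1 g2 G1 G2 c0 c1 c2 k0 k1 k2 p0 p1 p2 l ρx ρ1 ρ2 ∧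
  ChR g2 g0 G2 G0 c1 c2 c0 k1 k2 k0 p1 p2 p0 l ρx ρ2 ρ0 ∧
  ChR g0 g1 G0 G1 c2 c0 c1 k2 k0 k1 p2 p0 p1 l ρx ρ0 ρ1

lemma st_rot {g0 g1 g2 G0 G1 G2 c0 c1 c2 k0 k1 k2 : ℝ} (h : StepR g0 g1 g2 G0 G1 G2 c0 c1 c2 k0 k1 k2) :
    StepR g1 g2 g0 G1 G2 G0 c1 c2 c0 k1 k2 k0 := by
  obtain ⟨p0, p1, p2, l, ρ0, ρ1, ρ2, ρx, ⟨w0, w1, w2, m1, m2, m3, m4, m5, m6, m7⟩, a, ⟨b1, b2, b3, b4⟩,
    ⟨d1, d2, d3⟩, ⟨e1, e2, e3⟩, f1, f2, f3⟩ := h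
  exact ⟨p1, p2, p0, l, ρ1, ρ2, ρ0, ρx, ⟨w1, w2, w0, m2, m3, m1, by linarith, m6, m7, m5⟩, a,
    ⟨b2, b3, b1, b4⟩, ⟨d2, d3, d1⟩, ⟨e2, e3, e1⟩, f2, f3, f1⟩

lemma st_swp {g0 g1 g2 G0 G1 G2 c0 c1 c2 k0 k1 k2 : ℝ} (h : StepR g0 g1 g2 G0 G1 G2 c0 c1 c2 k0 k1 k2) :
    StepR g0 g2 g1 G0 G2 G1 c0 c2 c1 k0 k2 k1 := by
  obtain ⟨p0, p1, p2, l, ρ0, ρ1, ρ2, ρx, ⟨w0, w1, w2, m1, m2, m3, m4, m5, m6, m7⟩, a, ⟨b1, b2, b3, b4⟩,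
    ⟨d1, d2, d3⟩, ⟨e1, e2, e3⟩, f1, f2, f3⟩ := h
  exact ⟨p0, p2, p1, l, ρ0, ρ2, ρ1, ρx, ⟨w0, w2, w1, m1, m3, m2, by linarith, m5, m7, m6⟩, a,
    ⟨b1, b3, b2, b4⟩, ⟨d1, d3, d2⟩, ⟨by linarith, by linarith, by linarith⟩, ch_swp f1, ch_swp f3, ch_swp f2⟩

/-- the child lemma -/
lemma child {A u v : ℕ} {gj gu gv Gu Gv κj κu κv kj ku kv pj pu pv l rj ru rv ρx ρu ρv : ℝ}
    (h : Ch A u v gj gu gv Gu Gv κj κu κv kj ku kv pj pu pv l rj ru rv)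
    (hl : 0 ≤ l) (hj : 0 ≤ pj) (hu : 0 ≤ pu) (hv : 0 ≤ pv) (hu' : pu ≤ Gu) (hv' : pv ≤ Gv)
    (cu : κu ≤ Gu) (cv : κv ≤ Gv) (up : Gu + Gv ≤ gu + gv) (kat : (gu + gv) / 32 ≤ Gu + Gv)
    (u1 : l + (Gu - pu + pj + pv) ≤ ku) (v1 : l + (Gv - pv + pj + pu) ≤ kv)
    (u2 : ku / 32 ≤ l + (Gu - pu + pj + pv)) (v2 : kv / 32 ≤ l + (Gv - pv + pj + pu))
    (u3 : Gu - pu + pv ≤ ru) (v3 : Gv - pv + pu ≤ rv)
    (u4 : ru ≤ Gu - pu + pv + 8 * pj) (v4 : rv ≤ Gv - pv + pu + 8 * pj)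
    (x5 : ρx ≤ l) (u5 : ρu ≤ ru) (v5 : ρv ≤ rv)
    (x6 : A = 3 → ∀ T, 0 ≤ T → kj / 32 - rj ≤ T → ku / 32 - ru ≤ T → kv / 32 - rv ≤ T → ρx ≤ T)
    (u6 : A = u → ∀ T, 0 ≤ T → (gu + gj) / 32 - rj ≤ T → (gu + gv) / 32 - rv ≤ T → ku / 32 - l ≤ T → ρu ≤ T)
    (v6 : A = v → ∀ T, 0 ≤ T → (gv + gj) / 32 - rj ≤ T → (gu + gv) / 32 - ru ≤ T → kv / 32 - l ≤ T → ρv ≤ T) :
    ChR gu gv Gu Gv κj κu κv kj ku kv pj pu pv l ρx ρu ρv := by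
  obtain ⟨h1, h2, w1, w2, w3⟩ := h
  have hx : ∀ q M, M = ((ku + kv + gu + gv) / 2 - (l + pj + Gu + Gv) - (l + pj) / 2) / 2 →
      An A 3 M (Gu - pu + pv) (Gv - pv + pu) ku kv (pu + pv) q pj rj kj l →
      (∀ x, q ≤ x → κj + kj / 32 ≤ x ∨ κu + ku / 32 ≤ x ∨ κv + kv / 32 ≤ x) →
      ChR gu gv Gu Gv κj κu κv kj ku kv pj pu pv l ρx ρu ρv := by
    rintro q M hM ⟨a1, a2, a3, a4, a5⟩ hq
    have a6 : ρx ≤ M + 8 * pj := by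
      rcases a5 with ⟨e, a5⟩ | a5
      · exact x6 e _ (by linarith) (by linarith) (by linarith) (by linarith)
      · linarith
    rcases le_total (l + pj) M with c | c
    · exact ⟨l + pj, Gu - pu + pv, Gv - pv + pu, ⟨⟨by linarith, by linarith, by linarith⟩,
        ⟨by linarith, by linarith, by linarith⟩, ⟨by linarith, by linarith, by linarith⟩, ⟨w1, w2, w3⟩,
        Or.inl ⟨rfl, rfl, le_rfl, by linarith, Or.inl rfl⟩⟩, by linarith, by linarith, h1,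
        by linarith, by linarith, by linarith⟩
    · exact ⟨M, Gu - pu + pv, Gv - pv + pu, ⟨⟨by linarith, by linarith, by linarith⟩,
        ⟨by linarith, by linarith, by linarith⟩, ⟨by linarith, by linarith, by linarith⟩, ⟨w1, w2, w3⟩,
        Or.inl ⟨rfl, rfl, c, by linarith, Or.inr (by linarith)⟩⟩, by linarith, by linarith, hq _ a4,
        a6, by linarith, by linarith⟩
  rcases h2 with h | h | h | h | h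
  · exact hx _ _ rfl h fun x hx => Or.inl hx
  · exact hx _ _ rfl h fun x hx => Or.inr (Or.inl hx)
  · exact hx _ _ rfl h fun x hx => Or.inr (Or.inr hx)
  · generalize hM : ((ku + kv + gu + gv) / 2 - (l + pj + Gu + Gv) - (Gu - pu + pv) / 2) / 2 = M at h
    obtain ⟨a1, a2, a3, a4, a5⟩ := h
    have a6 : ρu ≤ M + 8 * pj := by
      rcases a5 with ⟨e, a5⟩ | a5
      · exact u6 e _ (by linarith) (by linarith) (by linarith) (by linarith)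
      · linarith
    rcases le_total (Gu - pu + pv) M with c | c
    · exact ⟨l + pj, Gu - pu + pv, Gv - pv + pu, ⟨⟨by linarith, by linarith, by linarith⟩,
        ⟨by linarith, by linarith, by linarith⟩, ⟨by linarith, by linarith, by linarith⟩, ⟨w1, w2, w3⟩,
        Or.inr (Or.inl ⟨rfl, rfl, le_rfl, by linarith, Or.inl rfl⟩)⟩, by linarith, by linarith, h1,
        by linarith, by linarith, by linarith⟩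
    · exact ⟨l + pj, M, Gv - pv + pu, ⟨⟨by linarith, by linarith, by linarith⟩,
        ⟨by linarith, by linarith, by linarith⟩, ⟨by linarith, by linarith, by linarith⟩, ⟨w1, w2, w3⟩,
        Or.inr (Or.inl ⟨rfl, rfl, c, by linarith, Or.inr (by linarith)⟩)⟩, by linarith, by linarith, h1,
        by linarith, a6, by linarith⟩
  · generalize hM : ((ku + kv + gu + gv) / 2 - (l + pj + Gu + Gv) - (Gv - pv + pu) / 2) / 2 = M at h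
    obtain ⟨a1, a2, a3, a4, a5⟩ := h
    have a6 : ρv ≤ M + 8 * pj := by
      rcases a5 with ⟨e, a5⟩ | a5
      · exact v6 e _ (by linarith) (by linarith) (by linarith) (by linarith)
      · linarith
    rcases le_total (Gv - pv + pu) M with c | c
    · exact ⟨l + pj, Gu - pu + pv, Gv - pv + pu, ⟨⟨by linarith, by linarith, by linarith⟩,
        ⟨by linarith, by linarith, by linarith⟩, ⟨by linarith, by linarith, by linarith⟩, ⟨w1, w2, w3⟩,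
        Or.inr (Or.inr ⟨rfl, rfl, le_rfl, by linarith, Or.inl rfl⟩)⟩, by linarith, by linarith, h1,
        by linarith, by linarith, by linarith⟩
    · exact ⟨l + pj, Gu - pu + pv, M, ⟨⟨by linarith, by linarith, by linarith⟩,
        ⟨by linarith, by linarith, by linarith⟩, ⟨by linarith, by linarith, by linarith⟩, ⟨w1, w2, w3⟩,
        Or.inr (Or.inr ⟨rfl, rfl, c, by linarith, Or.inr (by linarith)⟩)⟩, by linarith, by linarith, h1,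
        by linarith, by linarith, a6⟩

/-- choice of the reference values -/
lemma rho (A : ℕ) {r0 r1 r2 l d01 d12 d20 k0 k1 k2 : ℝ} (h0 : 0 ≤ r0) (h1 : 0 ≤ r1) (h2 : 0 ≤ r2) (hl : 0 ≤ l)
    (a0 : k0 ≤ l + r0) (a1 : k1 ≤ l + r1) (a2 : k2 ≤ l + r2)
    (b0 : d01 ≤ r0 + r1) (b1 : d12 ≤ r1 + r2) (b2 : d20 ≤ r2 + r0) : ∃ ρ0 ρ1 ρ2 ρx : ℝ,
    (0 ≤ ρ0 ∧ 0 ≤ ρ1 ∧ 0 ≤ ρ2 ∧ 0 ≤ ρx) ∧ (k0 ≤ ρx + ρ0 ∧ k1 ≤ ρx + ρ1 ∧ k2 ≤ ρx + ρ2) ∧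
    (d01 ≤ ρ0 + ρ1 ∧ d12 ≤ ρ1 + ρ2 ∧ d20 ≤ ρ2 + ρ0) ∧ (ρ0 ≤ r0 ∧ ρ1 ≤ r1 ∧ ρ2 ≤ r2 ∧ ρx ≤ l) ∧
    (A = 0 → ∀ T, 0 ≤ T → d01 - r1 ≤ T → d20 - r2 ≤ T → k0 - l ≤ T → ρ0 ≤ T) ∧
    (A = 1 → ∀ T, 0 ≤ T → d12 - r2 ≤ T → d01 - r0 ≤ T → k1 - l ≤ T → ρ1 ≤ T) ∧
    (A = 2 → ∀ T, 0 ≤ T → d20 - r0 ≤ T → d12 - r1 ≤ T → k2 - l ≤ T → ρ2 ≤ T) ∧
    (A = 3 → ∀ T, 0 ≤ T → k0 - r0 ≤ T → k1 - r1 ≤ T → k2 - r2 ≤ T → ρx ≤ T) := by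
  have key : ∀ a b c : ℝ, ∃ m : ℝ, 0 ≤ m ∧ a ≤ m ∧ b ≤ m ∧ c ≤ m ∧
      ∀ T, 0 ≤ T → a ≤ T → b ≤ T → c ≤ T → m ≤ T := fun a b c =>
    ⟨max (max 0 a) (max b c), by simp, by simp, by simp, by simp,
      fun T t0 t1 t2 t3 => max_le (max_le t0 t1) (max_le t2 t3)⟩
  by_cases e0 : A = 0
  · obtain ⟨m, m0, m1, m2, m3, m4⟩ := key (d01 - r1) (d20 - r2) (k0 - l)
    exact ⟨m, r1, r2, l, ⟨m0, h1, h2, hl⟩, ⟨by linarith, a1, a2⟩, ⟨by linarith, b1, by linarith⟩,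
      ⟨m4 _ h0 (by linarith) (by linarith) (by linarith), le_rfl, le_rfl, le_rfl⟩, fun _ => m4,
      fun h => by omega, fun h => by omega, fun h => by omega⟩
  by_cases e1 : A = 1
  · obtain ⟨m, m0, m1, m2, m3, m4⟩ := key (d12 - r2) (d01 - r0) (k1 - l)
    exact ⟨r0, m, r2, l, ⟨h0, m0, h2, hl⟩, ⟨a0, by linarith, a2⟩, ⟨by linarith, by linarith, b2⟩,
      ⟨le_rfl, m4 _ h1 (by linarith) (by linarith) (by linarith), le_rfl, le_rfl⟩, fun h => by omega,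
      fun _ => m4, fun h => by omega, fun h => by omega⟩
  by_cases e2 : A = 2
  · obtain ⟨m, m0, m1, m2, m3, m4⟩ := key (d20 - r0) (d12 - r1) (k2 - l)
    exact ⟨r0, r1, m, l, ⟨h0, h1, m0, hl⟩, ⟨a0, a1, by linarith⟩, ⟨b0, by linarith, by linarith⟩,
      ⟨le_rfl, le_rfl, m4 _ h2 (by linarith) (by linarith) (by linarith), le_rfl⟩, fun h => by omega,
      fun h => by omega, fun _ => m4, fun h => by omega⟩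
  obtain ⟨m, m0, m1, m2, m3, m4⟩ := key (k0 - r0) (k1 - r1) (k2 - r2)
  exact ⟨r0, r1, r2, m, ⟨h0, h1, h2, m0⟩, ⟨by linarith, by linarith, by linarith⟩, ⟨b0, b1, b2⟩,
    ⟨le_rfl, le_rfl, le_rfl, m4 _ hl (by linarith) (by linarith) (by linarith)⟩, fun h => absurd h e0,
    fun h => absurd h e1, fun h => absurd h e2, fun _ => m4⟩

lemma resp {g0 g1 g2 G0 G1 G2 κ k0 k1 k2 : ℝ} (hB : Base g0 g1 g2 G0 G1 G2 κ k0 k1 k2)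
    (h : Resp g0 g1 g2 G0 G1 G2 κ k0 k1 k2) : StepR g0 g1 g2 G0 G1 G2 κ G1 G2 k0 k1 k2 := by
  obtain ⟨A, p0, p1, p2, l, e0, e1, e2, hM, hl, ⟨a1, a2, a3⟩, ⟨a4, a5, a6⟩, ⟨a7, a8, a9⟩,
    ⟨b1, b2, b3⟩, ⟨b4, b5, b6⟩, c0, c1, c2⟩ := h
  obtain ⟨-, ⟨q1, q2, q3, q4⟩, ⟨s1, s2, s3⟩, ⟨t1, t2, t3⟩, -⟩ := hB
  have q0 : 0 ≤ G0 := q1.trans q2
  have hp : (0 ≤ p0 ∧ 0 ≤ p1 ∧ 0 ≤ p2) ∧ p0 ≤ G0 ∧ p1 ≤ G1 ∧ p2 ≤ G2 := by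
    obtain ⟨w0, w1, w2, m1, m2, m3, m4, rfl, rfl, rfl⟩ := hM
    exact ⟨⟨by positivity, by positivity, by positivity⟩, mul_le_of_le_one_left q0 (by linarith),
      mul_le_of_le_one_left q3 (by linarith), mul_le_of_le_one_left q4 (by linarith)⟩
  obtain ⟨⟨n0, n1, n2⟩, o0, o1, o2⟩ := hp
  obtain ⟨ρ0, ρ1, ρ2, ρx, r1, r2, r3, ⟨r4, r5, r6, r7⟩, y0, y1, y2, y3⟩ := rho A
    (r0 := G0 - p0 + p1 + p2 + e0) (r1 := G1 - p1 + p0 + p2 + e1) (r2 := G2 - p2 + p0 + p1 + e2) (l := l)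
    (d01 := (g0 + g1) / 32) (d12 := (g1 + g2) / 32) (d20 := (g2 + g0) / 32)
    (k0 := k0 / 32) (k1 := k1 / 32) (k2 := k2 / 32) (by linarith) (by linarith) (by linarith) hl
    (by linarith) (by linarith) (by linarith) (by linarith) (by linarith) (by linarith)
  refine ⟨p0, p1, p2, l, ρ0, ρ1, ρ2, ρx, hM, hl, r1, r2, r3, ?_, ?_, ?_⟩
  · exact child c0 hl n0 n1 n2 o1 o2 le_rfl le_rfl s2 t2 (by linarith) (by linarith) (by linarith)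
      (by linarith) (by linarith) (by linarith) (by linarith) (by linarith) r7 r5 r6 y3
      (fun e T t0 t1 t2 t3 => y1 e T t0 t2 (by linarith) t3)
      (fun e T t0 t1 t2 t3 => y2 e T t0 t1 t2 t3)
  · exact child c1 hl n1 n2 n0 o2 o0 le_rfl q2 s3 (by linarith) (by linarith) (by linarith) (by linarith)
      (by linarith) (by linarith) (by linarith) (by linarith) (by linarith) r7 r6 r4
      (fun e T t0 t1 t2 t3 => y3 e T t0 t3 t1 t2)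
      (fun e T t0 t1 t2 t3 => y2 e T t0 t2 (by linarith) t3)
      (fun e T t0 t1 t2 t3 => y0 e T t0 t1 t2 t3)
  · exact child c2 hl n2 n0 n1 o0 o1 q2 le_rfl s1 (by linarith) (by linarith) (by linarith) (by linarith)
      (by linarith) (by linarith) (by linarith) (by linarith) (by linarith) r7 r4 r5
      (fun e T t0 t1 t2 t3 => y3 e T t0 t2 t3 t1)
      (fun e T t0 t1 t2 t3 => y0 e T t0 t2 (by linarith) t3)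
      (fun e T t0 t1 t2 t3 => y1 e T t0 t1 t2 t3)

/-- the move hypotheses -/
def KR (g0 g1 g2 k0 k1 k2 : ℝ) : Prop := (0 ≤ g0 ∧ 0 ≤ g1 ∧ 0 ≤ g2) ∧
  (g0 + g1 ≤ k0 + k1 ∧ k0 ≤ k1 + g0 + g1 ∧ k1 ≤ k0 + g0 + g1) ∧
  (g1 + g2 ≤ k1 + k2 ∧ k1 ≤ k2 + g1 + g2 ∧ k2 ≤ k1 + g1 + g2) ∧
  (g2 + g0 ≤ k2 + k0 ∧ k2 ≤ k0 + g2 + g0 ∧ k0 ≤ k2 + g2 + g0) ∧ (0 ≤ k0 ∧ 0 ≤ k1 ∧ 0 ≤ k2)

lemma kr_rot {g0 g1 g2 k0 k1 k2 : ℝ} (h : KR g0 g1 g2 k0 k1 k2) : KR g1 g2 g0 k1 k2 k0 := by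
  obtain ⟨⟨a1, a2, a3⟩, b, c, d, ⟨e1, e2, e3⟩⟩ := h
  exact ⟨⟨a2, a3, a1⟩, c, d, b, ⟨e2, e3, e1⟩⟩

lemma kr_swp {g0 g1 g2 k0 k1 k2 : ℝ} (h : KR g0 g1 g2 k0 k1 k2) : KR g0 g2 g1 k0 k2 k1 := by
  obtain ⟨⟨a1, a2, a3⟩, ⟨b1, b2, b3⟩, ⟨c1, c2, c3⟩, ⟨d1, d2, d3⟩, ⟨e1, e2, e3⟩⟩ := h
  exact ⟨⟨a1, a3, a2⟩, ⟨by linarith, by linarith, by linarith⟩, ⟨by linarith, by linarith, by linarith⟩,
    ⟨by linarith, by linarith, by linarith⟩, ⟨e1, e3, e2⟩⟩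

variable {Sy : ℝ → ℝ → ℝ → ℝ → Prop}

lemma st0 (hC : Core Sy) {g0 g1 g2 G0 G1 G2 c0 c1 c2 k0 k1 k2 : ℝ} (hI : InvR g0 g1 g2 G0 G1 G2 c0 c1 c2)
    (hA : Anc g0 g1 g2 G0 G1 G2 c0 c1 c2) (hK : KR g0 g1 g2 k0 k1 k2) (hS : Sy G1 k1 G2 k2) :
    StepR g0 g1 g2 G0 G1 G2 c0 c1 c2 k0 k1 k2 := by
  obtain ⟨rfl, rfl, a3, a4, a5⟩ := hA
  obtain ⟨⟨n0, n1, n2⟩, b, d, ⟨w1, w2, w3⟩, -⟩ := hI
  obtain ⟨k1, k2, k3, k4, k5⟩ := hK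
  have hB : Base g0 g1 g2 G0 c1 c2 c0 _ _ _ := ⟨k1, ⟨n0, a3, n1, n2⟩, b, d, a4, k2, k3, k4, k5⟩
  exact resp hB (hC _ _ _ _ _ _ _ _ _ _ hB a5 w1 w2 w3 hS)

lemma st1 (hT : ∀ a b c d, Sy a b c d ∨ Sy c d a b) (hC : Core Sy) {g0 g1 g2 G0 G1 G2 c0 c1 c2 k0 k1 k2 : ℝ}
    (hI : InvR g0 g1 g2 G0 G1 G2 c0 c1 c2) (hA : Anc g0 g1 g2 G0 G1 G2 c0 c1 c2)
    (hK : KR g0 g1 g2 k0 k1 k2) : StepR g0 g1 g2 G0 G1 G2 c0 c1 c2 k0 k1 k2 := by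
  rcases hT G1 k1 G2 k2 with h | h
  · exact st0 hC hI hA hK h
  · exact st_swp (st0 hC (inv_swp hI) (anc_swp hA) (kr_swp hK) h)

lemma st2 (hT : ∀ a b c d, Sy a b c d ∨ Sy c d a b) (hC : Core Sy) {g0 g1 g2 G0 G1 G2 c0 c1 c2 k0 k1 k2 : ℝ}
    (hI : InvR g0 g1 g2 G0 G1 G2 c0 c1 c2) (hK : KR g0 g1 g2 k0 k1 k2) :
    StepR g0 g1 g2 G0 G1 G2 c0 c1 c2 k0 k1 k2 := by
  rcases hI.2.2.2.2 with h | h | h
  · exact st1 hT hC hI h hK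
  · exact st_rot (st_rot (st1 hT hC (inv_rot hI) h (kr_rot hK)))
  · exact st_rot (st1 hT hC (inv_rot (inv_rot hI)) h (kr_rot (kr_rot hK)))

def Inv (g G κ : Fin 3 → ℝ) : Prop :=
  InvR (g 0) (g 1) (g 2) (G 0 / 256) (G 1 / 256) (G 2 / 256) (κ 0 / 32) (κ 1 / 32) (κ 2 / 32)

lemma step {g G κ k : Fin 3 → ℝ} (h : StepR (g 0) (g 1) (g 2) (G 0 / 256) (G 1 / 256) (G 2 / 256)
    (κ 0 / 32) (κ 1 / 32) (κ 2 / 32) (k 0) (k 1) (k 2)) : ∃ w l κ', Step Inv g G κ k w l κ' := by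
  obtain ⟨p0, p1, p2, l, ρ0, ρ1, ρ2, ρx, ⟨w0, w1, w2, m1, m2, m3, m4, m5, m6, m7⟩, hl, ⟨b1, b2, b3, b4⟩,
    ⟨d1, d2, d3⟩, ⟨e1, e2, e3⟩, ⟨x0, y0, z0, f0, f1, f2, f3, f4, f5, f6⟩,
    ⟨x1, y1, z1, g0, g1, g2, g3, g4, g5, g6⟩, ⟨x2, y2, z2, h0, h1, h2, h3, h4, h5, h6⟩⟩ := h
  have n0 : w0 * G 0 = 256 * p0 := by rw [m5]; ring
  have n1 : w1 * G 1 = 256 * p1 := by rw [m6]; ring
  have n2 : w2 * G 2 = 256 * p2 := by rw [m7]; ring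
  have q1 : (-1 : Fin 3) = 2 := rfl
  have q2 : (-2 : Fin 3) = 1 := rfl
  refine ⟨![w0, w1, w2], 256 * l,
    ![![32 * x0, 32 * y0, 32 * z0], ![32 * z1, 32 * x1, 32 * y1], ![32 * y2, 32 * z2, 32 * x2]],
    ?_, by simpa using m4, by linarith, ?_, ?_, ?_, ?_⟩
  · intro i
    fin_cases i <;> simpa
  · intro j
    fin_cases j
    · unfold Inv
      convert f0 using 1 <;> simp [newg, newG, third, n0, n1, n2, q1, q2] <;> ring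
    · unfold Inv
      convert inv_rot (inv_rot g0) using 1 <;> simp [newg, newG, third, n0, n1, n2, q1, q2] <;> ring
    · unfold Inv
      convert inv_rot h0 using 1 <;> simp [newg, newG, third, n0, n1, n2, q1, q2] <;> ring
  · intro j i hij
    fin_cases j <;> fin_cases i <;> simp [noise, n0, n1, n2] at hij ⊢ <;> linarith
  · intro j
    fin_cases j
    · rcases f3 with h | h | h
      exacts [⟨0, by simp [noise, n0, n1, n2]; linarith⟩, ⟨1, by simp [noise, n0, n1, n2]; linarith⟩,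
        ⟨2, by simp [noise, n0, n1, n2]; linarith⟩]
    · rcases g3 with h | h | h
      exacts [⟨1, by simp [noise, n0, n1, n2]; linarith⟩, ⟨2, by simp [noise, n0, n1, n2]; linarith⟩,
        ⟨0, by simp [noise, n0, n1, n2]; linarith⟩]
    · rcases h3 with h | h | h
      exacts [⟨2, by simp [noise, n0, n1, n2]; linarith⟩, ⟨0, by simp [noise, n0, n1, n2]; linarith⟩,
        ⟨1, by simp [noise, n0, n1, n2]; linarith⟩]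
  · intro j j' hj i i'
    fin_cases j <;> fin_cases j' <;> simp at hj <;> fin_cases i <;> fin_cases i' <;>
      simp [dB, n0, n1, n2] <;> linarith

end RedM

open RedM in
theorem redS : StmtRed := by
  intro Sy hT hC
  refine ⟨256, by norm_num, Inv, fun g hg => ⟨fun i => 32 * g i, fun i => 4 * g i, ?_⟩,
    fun g G κ h => ?_, fun g G κ k hg hI hK => step (st2 hT hC hI ?_)⟩
  · have h0 := hg 0
    have h1 := hg 1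
    have h2 := hg 2
    exact ⟨⟨by linarith, by linarith, by linarith⟩, ⟨by linarith, by linarith, by linarith⟩,
      ⟨by linarith, by linarith, by linarith⟩,
      ⟨Or.inr (Or.inr (by linarith)), Or.inr (Or.inr (by linarith)), Or.inr (Or.inr (by linarith))⟩,
      Or.inl ⟨by ring, by ring, by linarith, by linarith, Or.inl (by ring)⟩⟩
  · obtain ⟨l0, l1, l2⟩ := inv_le h
    obtain ⟨⟨a1, a2, a3⟩, ⟨b1, b2, b3⟩, ⟨d1, d2, d3⟩, -⟩ := h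
    refine ⟨fun i => ?_, fun i j hij => ?_⟩
    · fin_cases i <;> simp <;> constructor <;> linarith
    · fin_cases i <;> fin_cases j <;> simp at hij ⊢ <;> constructor <;> linarith
  · obtain ⟨k0, hk⟩ := hK
    have a1 := hk 0 1 (by decide)
    have a2 := hk 1 0 (by decide)
    have a3 := hk 1 2 (by decide)
    have a4 := hk 2 1 (by decide)
    have a5 := hk 2 0 (by decide)
    have a6 := hk 0 2 (by decide)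
    exact ⟨⟨hg 0, hg 1, hg 2⟩, ⟨a1.1, by linarith [a1.2], by linarith [a2.2]⟩,
      ⟨a3.1, by linarith [a3.2], by linarith [a4.2]⟩, ⟨a5.1, by linarith [a5.2], by linarith [a6.2]⟩,
      k0 0, k0 1, k0 2⟩

end Vale.Agent.P235
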