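import Vale.Agent.P235.GSpec

namespace Vale.Agent.P235

namespace RedB

theorem Wp.swap {gb ga gc Gb Ga Gc : ℝ} (h : Wp gb ga gc Gb Ga Gc) : Wp gb gc ga Gb Gc Ga := by
  rcases h with h | h | h
  · exact Or.inr (Or.inl h)
  · exact Or.inl h
  · exact Or.inr (Or.inr (by linarith))

def SW (A i : ℕ) (y r d1 r1 d2 r2 d3 r3 : ℝ) : Prop :=
  r ≤ y ∨ (A = i ∧ d1 ≤ y + r1 ∧ d2 ≤ y + r2 ∧ d3 ≤ y + r3)

theorem rho (A i : ℕ) {r d1 r1 d2 r2 d3 r3 : ℝ} (h1 : d1 ≤ r + r1) (h2 : d2 ≤ r + r2)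
    (h3 : d3 ≤ r + r3) : ∃ ρ, (A ≠ i → ρ = r) ∧ d1 ≤ ρ + r1 ∧ d2 ≤ ρ + r2 ∧ d3 ≤ ρ + r3 ∧
      ∀ y, SW A i y r d1 r1 d2 r2 d3 r3 → ρ ≤ y := by
  by_cases h : A = i
  · refine ⟨max (d1 - r1) (max (d2 - r2) (d3 - r3)), fun h' => absurd h h', ?_, ?_, ?_, ?_⟩
    · linarith [le_max_left (d1 - r1) (max (d2 - r2) (d3 - r3))]
    · linarith [le_max_right (d1 - r1) (max (d2 - r2) (d3 - r3)), le_max_left (d2 - r2) (d3 - r3)]
    · linarith [le_max_right (d1 - r1) (max (d2 - r2) (d3 - r3)), le_max_right (d2 - r2) (d3 - r3)]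
    · rintro y (hy | ⟨_, a, b, c⟩) <;>
        exact max_le (by linarith) (max_le (by linarith) (by linarith))
  · refine ⟨r, fun _ => rfl, h1, h2, h3, ?_⟩
    rintro y (hy | ⟨a, _⟩)
    · exact hy
    · exact absurd a h

theorem SW.p23 {A i : ℕ} {y r d1 r1 d2 r2 d3 r3 : ℝ} (h : SW A i y r d1 r1 d2 r2 d3 r3) :
    SW A i y r d1 r1 d3 r3 d2 r2 := h.imp id fun h => ⟨h.1, h.2.1, h.2.2.2, h.2.2.1⟩
theorem SW.p12 {A i : ℕ} {y r d1 r1 d2 r2 d3 r3 : ℝ} (h : SW A i y r d1 r1 d2 r2 d3 r3) :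
    SW A i y r d2 r2 d1 r1 d3 r3 := h.imp id fun h => ⟨h.1, h.2.2.1, h.2.1, h.2.2.2⟩

theorem anc {A a : ℕ} {M Gs Gt ds dt N q pj rj dj ra Ga rs rt : ℝ}
    (h : An A a M Gs Gt ds dt N q pj rj dj ra) (h0 : 0 ≤ Ga) (h1 : ds / 32 ≤ Ga + Gs)
    (h2 : dt / 32 ≤ Ga + Gt) (h3 : ra ≤ Ga + 8 * pj) (h4 : Gs ≤ 8 * pj + rs) (h5 : Gt ≤ 8 * pj + rt) :
    0 ≤ min Ga M ∧ ds / 32 ≤ min Ga M + Gs ∧ dt / 32 ≤ min Ga M + Gt ∧
      (min Ga M = Ga ∨ q ≤ min Ga M + 8 * N) ∧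
      SW A a (min Ga M + 8 * pj) ra (dj / 32) rj (ds / 32) rs (dt / 32) rt := by
  obtain ⟨a1, a2, a3, a4, a5⟩ := h
  rcases le_total Ga M with c | c
  · rw [min_eq_left c]
    exact ⟨h0, h1, h2, Or.inl rfl, Or.inl h3⟩
  · rw [min_eq_right c]
    refine ⟨a1, a2, a3, Or.inr a4, ?_⟩
    rcases a5 with ⟨e, a5⟩ | a5
    · exact Or.inr ⟨e, a5, by linarith, by linarith⟩
    · exact Or.inl a5

theorem child {A u v : ℕ} {gj gu gv Gu Gv κj κu κv kj ku kv pj pu pv l rj ru rv : ℝ}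
    (h : Ch A u v gj gu gv Gu Gv κj κu κv kj ku kv pj pu pv l rj ru rv) (hl : 0 ≤ l) (qj : 0 ≤ pj)
    (qu : 0 ≤ pu) (qv : 0 ≤ pv) (bu : pu ≤ Gu) (bv : pv ≤ Gv) (cu : κu ≤ Gu) (cv : κv ≤ Gv)
    (u1 : Gu - pu + pv ≤ ru) (u2 : ru ≤ Gu - pu + pv + 8 * pj) (v1 : Gv - pv + pu ≤ rv)
    (v2 : rv ≤ Gv - pv + pu + 8 * pj) (eu : ku / 32 ≤ l + pj + (Gu - pu + pv))
    (ev : kv / 32 ≤ l + pj + (Gv - pv + pu)) (ee : (gu + gv) / 32 ≤ Gu + Gv) :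
    ∃ yx yu yv : ℝ, ((0 ≤ yx ∧ yx ≤ l + pj) ∧ (0 ≤ yu ∧ yu ≤ Gu - pu + pv) ∧
      (0 ≤ yv ∧ yv ≤ Gv - pv + pu) ∧
      (ku / 32 ≤ yx + yu ∧ kv / 32 ≤ yx + yv ∧ (gu + gv) / 32 ≤ yu + yv) ∧
      ((yx = min (l + pj) (((ku + kv + gu + gv) / 2 - (l + pj + Gu + Gv) - (l + pj) / 2) / 2) ∧
          yu = Gu - pu + pv ∧ yv = Gv - pv + pu) ∨
        (yu = min (Gu - pu + pv)
          (((ku + kv + gu + gv) / 2 - (l + pj + Gu + Gv) - (Gu - pu + pv) / 2) / 2) ∧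
          yv = Gv - pv + pu ∧ yx = l + pj) ∨
        (yv = min (Gv - pv + pu)
          (((ku + kv + gu + gv) / 2 - (l + pj + Gu + Gv) - (Gv - pv + pu) / 2) / 2) ∧
          yx = l + pj ∧ yu = Gu - pu + pv))) ∧
      (κu ≤ yu + 8 * (pu + pv) ∧ κv ≤ yv + 8 * (pu + pv)) ∧
      (κj + kj / 32 ≤ yx + 8 * (pu + pv) ∨ κu + ku / 32 ≤ yx + 8 * (pu + pv) ∨
        κv + kv / 32 ≤ yx + 8 * (pu + pv)) ∧
      SW A 3 (yx + 8 * pj) l (kj / 32) rj (ku / 32) ru (kv / 32) rv ∧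
      SW A u (yu + 8 * pj) ru ((gu + gj) / 32) rj ((gu + gv) / 32) rv (ku / 32) l ∧
      SW A v (yv + 8 * pj) rv ((gv + gj) / 32) rj (kv / 32) l ((gu + gv) / 32) ru := by
  obtain ⟨h1, h2, -⟩ := h
  have X : ∀ q, An A 3 (((ku + kv + gu + gv) / 2 - (l + pj + Gu + Gv) - (l + pj) / 2) / 2)
      (Gu - pu + pv) (Gv - pv + pu) ku kv (pu + pv) q pj rj kj l → _ := fun q h =>
    anc (Ga := l + pj) (rs := ru) (rt := rv) h (by linarith) eu ev (by linarith) (by linarith)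
      (by linarith)
  rcases h2 with h | h | h | h | h
  · obtain ⟨a1, a2, a3, a4, a5⟩ := X _ h
    refine ⟨_, _, _, ⟨⟨a1, min_le_left _ _⟩, ⟨by linarith, le_rfl⟩, ⟨by linarith, le_rfl⟩,
      ⟨a2, a3, by linarith⟩, Or.inl ⟨rfl, rfl, rfl⟩⟩, ⟨by linarith, by linarith⟩, ?_, a5,
      Or.inl u2, Or.inl v2⟩
    rcases a4 with a4 | a4
    · rwa [a4]
    · exact Or.inl a4
  · obtain ⟨a1, a2, a3, a4, a5⟩ := X _ h
    refine ⟨_, _, _, ⟨⟨a1, min_le_left _ _⟩, ⟨by linarith, le_rfl⟩, ⟨by linarith, le_rfl⟩,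
      ⟨a2, a3, by linarith⟩, Or.inl ⟨rfl, rfl, rfl⟩⟩, ⟨by linarith, by linarith⟩, ?_, a5,
      Or.inl u2, Or.inl v2⟩
    rcases a4 with a4 | a4
    · rwa [a4]
    · exact Or.inr (Or.inl a4)
  · obtain ⟨a1, a2, a3, a4, a5⟩ := X _ h
    refine ⟨_, _, _, ⟨⟨a1, min_le_left _ _⟩, ⟨by linarith, le_rfl⟩, ⟨by linarith, le_rfl⟩,
      ⟨a2, a3, by linarith⟩, Or.inl ⟨rfl, rfl, rfl⟩⟩, ⟨by linarith, by linarith⟩, ?_, a5,
      Or.inl u2, Or.inl v2⟩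
    rcases a4 with a4 | a4
    · rwa [a4]
    · exact Or.inr (Or.inr a4)
  · obtain ⟨a1, a2, a3, a4, a5⟩ := anc (Ga := Gu - pu + pv) (rs := rv) (rt := l) h (by linarith)
      (by linarith) (by linarith) u2 (by linarith) (by linarith)
    refine ⟨l + pj, _, Gv - pv + pu, ⟨⟨by linarith, le_rfl⟩, ⟨a1, min_le_left _ _⟩,
      ⟨by linarith, le_rfl⟩, ⟨by linarith, ev, a2⟩, Or.inr (Or.inl ⟨rfl, rfl, rfl⟩)⟩,
      ⟨?_, by linarith⟩, h1, Or.inl (by linarith), a5, Or.inl v2⟩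
    rcases a4 with a4 | a4 <;> linarith
  · obtain ⟨a1, a2, a3, a4, a5⟩ := anc (Ga := Gv - pv + pu) (rs := l) (rt := ru) h (by linarith)
      (by linarith) (by linarith) v2 (by linarith) (by linarith)
    refine ⟨l + pj, Gu - pu + pv, _, ⟨⟨by linarith, le_rfl⟩, ⟨by linarith, le_rfl⟩,
      ⟨a1, min_le_left _ _⟩, ⟨eu, by linarith, by linarith⟩, Or.inr (Or.inr ⟨rfl, rfl, rfl⟩)⟩,
      ⟨by linarith, ?_⟩, h1, Or.inl (by linarith), Or.inl u2, a5⟩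
    rcases a4 with a4 | a4 <;> linarith

def Di (a b c : Fin 3) : Prop := a ≠ b ∧ a ≠ c ∧ b ≠ c

theorem Di.cov : ∀ {a b c : Fin 3}, Di a b c → ∀ i, i = a ∨ i = b ∨ i = c := by
  unfold Di; decide
theorem Di.third : ∀ {a b c : Fin 3}, Di a b c → third b a = c := by
  unfold Di Vale.Agent.P235.third; decide
theorem Di.succ : ∀ {a b c : Fin 3}, Di a b c → (a + 1 = b ∧ a + 2 = c) ∨ (a + 1 = c ∧ a + 2 = b) := by
  unfold Di; decide
theorem Di.ex : ∀ a : Fin 3, ∃ b c, Di a b c := by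
  unfold Di; decide
theorem Di.rot {a b c : Fin 3} (h : Di a b c) : Di b c a := ⟨h.2.2, h.1.symm, h.2.1.symm⟩
theorem Di.sw {a b c : Fin 3} (h : Di a b c) : Di a c b := ⟨h.2.1, h.1, h.2.2.symm⟩

def InvN (g G κ : Fin 3 → ℝ) : Prop :=
  (∀ i, 0 ≤ κ i ∧ κ i ≤ G i) ∧
  (∀ i j, i ≠ j → G i + G j ≤ g i + g j ∧ (g i + g j) / 32 ≤ κ i + κ j) ∧
  (∀ b a c, Di b a c → Wp (g b) (g a) (g c) (G b) (G a) (G c)) ∧
  ∃ a b c, Di a b c ∧ κ a = min (G a) ((g a + g b + g c - G a - G b - G c - G a / 2) / 2) ∧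
    κ b = G b ∧ κ c = G c

def Inv (g G κ : Fin 3 → ℝ) : Prop := InvN g (fun i => G i / 256) fun i => κ i / 32

theorem mk {g G κ : Fin 3 → ℝ} {j u v : Fin 3} (D : Di j u v) {ku kv e s X U V yx yu yv : ℝ}
    (g1 : g j = (ku + kv - e) / 2) (g2 : g u = (e + ku - kv) / 2) (g3 : g v = (e + kv - ku) / 2)
    (G1 : G j = X) (G2 : G u = U) (G3 : G v = V) (k1 : κ j = yx) (k2 : κ u = yu) (k3 : κ v = yv)
    (hs : s = (ku + kv + e) / 2 - (X + U + V))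
    (t1 : X + U ≤ ku) (t2 : X + V ≤ kv) (t3 : U + V ≤ e)
    (w1 : Wp (g j) (g u) (g v) X U V) (w2 : Wp (g u) (g v) (g j) U V X)
    (w3 : Wp (g v) (g j) (g u) V X U)
    (h : (0 ≤ yx ∧ yx ≤ X) ∧ (0 ≤ yu ∧ yu ≤ U) ∧ (0 ≤ yv ∧ yv ≤ V) ∧
      (ku / 32 ≤ yx + yu ∧ kv / 32 ≤ yx + yv ∧ e / 32 ≤ yu + yv) ∧
      ((yx = min X ((s - X / 2) / 2) ∧ yu = U ∧ yv = V) ∨
        (yu = min U ((s - U / 2) / 2) ∧ yv = V ∧ yx = X) ∨
        (yv = min V ((s - V / 2) / 2) ∧ yx = X ∧ yu = U))) : InvN g G κ := by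
  obtain ⟨h1, h2, h3, ⟨h4, h5, h6⟩, h7⟩ := h
  subst G1 G2 G3 k1 k2 k3
  refine ⟨fun i => ?_, fun i i' n => ?_, fun b a c E => ?_, ?_⟩
  · rcases D.cov i with rfl | rfl | rfl <;> assumption
  · rcases D.cov i with rfl | rfl | rfl <;> rcases D.cov i' with rfl | rfl | rfl <;>
      first | exact absurd rfl n | exact ⟨by linarith, by linarith⟩
  · obtain ⟨e1, e2, e3⟩ := E
    rcases D.cov b with rfl | rfl | rfl <;> rcases D.cov a with rfl | rfl | rfl <;>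
      rcases D.cov c with rfl | rfl | rfl <;>
      first | exact absurd rfl e1 | exact absurd rfl e2 | exact absurd rfl e3 | assumption
            | exact Wp.swap (by assumption)
  · rcases h7 with ⟨a, b, c⟩ | ⟨a, b, c⟩ | ⟨a, b, c⟩
    · exact ⟨j, u, v, D, by rw [a]; congr 2; linarith, b, c⟩
    · exact ⟨u, v, j, D.rot, by rw [a]; congr 2; linarith, b, c⟩
    · exact ⟨v, j, u, D.rot.rot, by rw [a]; congr 2; linarith, b, c⟩

def T3 {α : Type} (a b : Fin 3) (x y z : α) (i : Fin 3) : α := if i = a then x else if i = b then y else z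

theorem T3a {α : Type} (a b : Fin 3) (x y z : α) : T3 a b x y z a = x := if_pos rfl
theorem T3b {α : Type} {a b c : Fin 3} (D : Di a b c) (x y z : α) : T3 a b x y z b = y := by
  simp [T3, D.1.symm]
theorem T3c {α : Type} {a b c : Fin 3} (D : Di a b c) (x y z : α) : T3 a b x y z c = z := by
  simp [T3, D.2.1.symm, D.2.2.symm]

section
variable {j u v : Fin 3} (D : Di j u v) (g k G w : Fin 3 → ℝ) (l : ℝ)
include D

theorem ng1 : newg g k j j = (k u + k v - g u - g v) / 2 := by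
  rw [newg, if_pos rfl]
  rcases D.succ with ⟨a, b⟩ | ⟨a, b⟩ <;> rw [a, b]
  ring
theorem ng2 : newg g k j u = (g u + g v + k u - k v) / 2 := by
  rw [newg, if_neg D.1.symm, D.third]
theorem nG2 : newG G w l j u = G u - w u * G u + w v * G v := by
  rw [newG, if_neg D.1.symm, D.third]
theorem noi : noise G w j = w u * G u + w v * G v := by
  rw [noise]
  rcases D.succ with ⟨a, b⟩ | ⟨a, b⟩ <;> rw [a, b]
  ring
end

theorem kid {j u v : Fin 3} (D : Di j u v) {g k G w κ' : Fin 3 → ℝ} {l pj pu pv yx yu yv : ℝ}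
    (ej : w j * G j = 256 * pj) (eu : w u * G u = 256 * pu) (ev : w v * G v = 256 * pv)
    (k1 : κ' j = 32 * yx) (k2 : κ' u = 32 * yu) (k3 : κ' v = 32 * yv)
    (t1 : l + pj + (G u / 256 - pu + pv) ≤ k u) (t2 : l + pj + (G v / 256 - pv + pu) ≤ k v)
    (t3 : G u / 256 + G v / 256 ≤ g u + g v)
    (w1 : Wp ((k u + k v - g u - g v) / 2) ((g u + g v + k u - k v) / 2) ((g u + g v + k v - k u) / 2)
      (l + pj) (G u / 256 - pu + pv) (G v / 256 - pv + pu))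
    (w2 : Wp ((g u + g v + k u - k v) / 2) ((g u + g v + k v - k u) / 2) ((k u + k v - g u - g v) / 2)
      (G u / 256 - pu + pv) (G v / 256 - pv + pu) (l + pj))
    (w3 : Wp ((g u + g v + k v - k u) / 2) ((k u + k v - g u - g v) / 2) ((g u + g v + k u - k v) / 2)
      (G v / 256 - pv + pu) (l + pj) (G u / 256 - pu + pv))
    (h : (0 ≤ yx ∧ yx ≤ l + pj) ∧ (0 ≤ yu ∧ yu ≤ G u / 256 - pu + pv) ∧
      (0 ≤ yv ∧ yv ≤ G v / 256 - pv + pu) ∧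
      (k u / 32 ≤ yx + yu ∧ k v / 32 ≤ yx + yv ∧ (g u + g v) / 32 ≤ yu + yv) ∧
      ((yx = min (l + pj) (((k u + k v + g u + g v) / 2 - (l + pj + G u / 256 + G v / 256) -
          (l + pj) / 2) / 2) ∧ yu = G u / 256 - pu + pv ∧ yv = G v / 256 - pv + pu) ∨
        (yu = min (G u / 256 - pu + pv) (((k u + k v + g u + g v) / 2 -
          (l + pj + G u / 256 + G v / 256) - (G u / 256 - pu + pv) / 2) / 2) ∧
          yv = G v / 256 - pv + pu ∧ yx = l + pj) ∨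
        (yv = min (G v / 256 - pv + pu) (((k u + k v + g u + g v) / 2 -
          (l + pj + G u / 256 + G v / 256) - (G v / 256 - pv + pu) / 2) / 2) ∧
          yx = l + pj ∧ yu = G u / 256 - pu + pv))) :
    Inv (newg g k j) (newG G w (256 * l) j) κ' := by
  have a1 := ng1 D g k
  have a2 := ng2 D g k
  have a3 : newg g k j v = (g u + g v + k v - k u) / 2 := by rw [ng2 D.sw]; ring
  refine mk D (ku := k u) (kv := k v) (e := g u + g v) (by rw [a1]; ring) a2 a3 ?_ ?_ ?_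
    (by rw [k1]; ring) (by rw [k2]; ring) (by rw [k3]; ring) (by ring) t1 t2 (by linarith)
    (by rwa [a1, a2, a3]) (by rwa [a1, a2, a3]) (by rwa [a1, a2, a3]) h
  · rw [newG, if_pos rfl, ej]; ring
  · rw [nG2 D, eu, ev]; ring
  · rw [nG2 D.sw, eu, ev]; ring

theorem cross {A : ℕ} {ga gb gc ka kb kc l r0 r1 r2 x0 y0 s0 x1 y1 s1 x2 y2 s2 : ℝ}
    (d01 : (ga + gb) / 32 ≤ r0 + r1) (d02 : (ga + gc) / 32 ≤ r0 + r2)
    (d12 : (gb + gc) / 32 ≤ r1 + r2) (d0 : ka / 32 ≤ l + r0) (d1 : kb / 32 ≤ l + r1)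
    (d2 : kc / 32 ≤ l + r2)
    (S0x : SW A 3 x0 l (ka / 32) r0 (kb / 32) r1 (kc / 32) r2)
    (S0u : SW A 1 y0 r1 ((gb + ga) / 32) r0 ((gb + gc) / 32) r2 (kb / 32) l)
    (S0v : SW A 2 s0 r2 ((gc + ga) / 32) r0 (kc / 32) l ((gb + gc) / 32) r1)
    (S1x : SW A 3 x1 l (kb / 32) r1 (kc / 32) r2 (ka / 32) r0)
    (S1u : SW A 2 y1 r2 ((gc + gb) / 32) r1 ((gc + ga) / 32) r0 (kc / 32) l)
    (S1v : SW A 0 s1 r0 ((ga + gb) / 32) r1 (ka / 32) l ((gc + ga) / 32) r2)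
    (S2x : SW A 3 x2 l (kc / 32) r2 (ka / 32) r0 (kb / 32) r1)
    (S2u : SW A 0 y2 r0 ((ga + gc) / 32) r2 ((ga + gb) / 32) r1 (ka / 32) l)
    (S2v : SW A 1 s2 r1 ((gb + gc) / 32) r2 (kb / 32) l ((ga + gb) / 32) r0) :
    ∃ ρ3 ρ0 ρ1 ρ2 : ℝ, ((ka / 32 ≤ ρ3 + ρ0 ∧ kb / 32 ≤ ρ3 + ρ1 ∧ kc / 32 ≤ ρ3 + ρ2) ∧
      (ga + gb) / 32 ≤ ρ0 + ρ1 ∧ (ga + gc) / 32 ≤ ρ0 + ρ2 ∧ (gb + gc) / 32 ≤ ρ1 + ρ2) ∧
      (ρ3 ≤ x0 ∧ ρ1 ≤ y0 ∧ ρ2 ≤ s0) ∧ (ρ3 ≤ x1 ∧ ρ2 ≤ y1 ∧ ρ0 ≤ s1) ∧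
      (ρ3 ≤ x2 ∧ ρ0 ≤ y2 ∧ ρ1 ≤ s2) := by
  obtain ⟨ρ3, x31, x32, x33, x34, x35⟩ := rho A 3 d0 d1 d2
  obtain ⟨ρ0, x01, x02, x03, x04, x05⟩ := rho A 0 (d3 := ka / 32) (r3 := l) d02 d01 (by linarith)
  obtain ⟨ρ1, x11, x12, x13, x14, x15⟩ := rho A 1 (r := r1) (d1 := (gb + ga) / 32) (r1 := r0)
    (d3 := kb / 32) (r3 := l) (by linarith) d12 (by linarith)
  obtain ⟨ρ2, x21, x22, x23, x24, x25⟩ := rho A 2 (r := r2) (d1 := (gc + gb) / 32) (r1 := r1)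
    (d2 := (gc + ga) / 32) (r2 := r0) (d3 := kc / 32) (r3 := l) (by linarith) (by linarith)
    (by linarith)
  refine ⟨ρ3, ρ0, ρ1, ρ2, ?_, ⟨x35 _ S0x, x15 _ S0u,
    x25 _ (by rw [add_comm gc gb]; exact S0v.p23.p12)⟩, ⟨x35 _ S1x.p23.p12, x25 _ S1u,
    x05 _ (by rw [add_comm ga gc]; exact S1v.p23.p12)⟩, x35 _ S2x.p12.p23, x05 _ S2u,
    x15 _ (by rw [add_comm gb ga]; exact S2v.p23.p12)⟩
  by_cases c3 : A = 3
  · rw [x01 (by omega), x11 (by omega), x21 (by omega)]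
    exact ⟨⟨x32, x33, x34⟩, d01, d02, d12⟩
  rw [x31 c3]
  refine ⟨⟨by linarith only [x04], by linarith only [x14], by linarith only [x24]⟩, ?_⟩
  by_cases c0 : A = 0
  · rw [x11 (by omega), x21 (by omega)]
    exact ⟨x03, x02, d12⟩
  rw [x01 c0]
  refine ⟨by linarith only [x12], by linarith only [x23], ?_⟩
  by_cases c1 : A = 1
  · rw [x21 (by omega)]
    exact x13
  rw [x11 c1]
  linarith only [x22]

theorem crF {a b c : Fin 3} (D : Di a b c) {g k P : Fin 3 → ℝ}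
    {p0 p1 p2 x0 y0 s0 x1 y1 s1 x2 y2 s2 ρ3 ρ0 ρ1 ρ2 : ℝ} (ta : P a = 256 * p0) (tb : P b = 256 * p1)
    (tc : P c = 256 * p2) (n0 : 0 ≤ p0) (n1 : 0 ≤ p1) (n2 : 0 ≤ p2) (g1 : 0 ≤ x0) (g2 : 0 ≤ y0)
    (g3 : 0 ≤ s0) (g4 : 0 ≤ x1) (g5 : 0 ≤ y1) (g6 : 0 ≤ s1) (g7 : 0 ≤ x2) (g8 : 0 ≤ y2) (g9 : 0 ≤ s2)
    (h : ((k a / 32 ≤ ρ3 + ρ0 ∧ k b / 32 ≤ ρ3 + ρ1 ∧ k c / 32 ≤ ρ3 + ρ2) ∧
      (g a + g b) / 32 ≤ ρ0 + ρ1 ∧ (g a + g c) / 32 ≤ ρ0 + ρ2 ∧ (g b + g c) / 32 ≤ ρ1 + ρ2) ∧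
      (ρ3 ≤ x0 + 8 * p0 ∧ ρ1 ≤ y0 + 8 * p0 ∧ ρ2 ≤ s0 + 8 * p0) ∧
      (ρ3 ≤ x1 + 8 * p1 ∧ ρ2 ≤ y1 + 8 * p1 ∧ ρ0 ≤ s1 + 8 * p1) ∧
      (ρ3 ≤ x2 + 8 * p2 ∧ ρ0 ≤ y2 + 8 * p2 ∧ ρ1 ≤ s2 + 8 * p2)) (j j' : Fin 3) (n : j ≠ j')
    (i i' : Fin 3) : dB g k j i j' i' ≤ T3 a b (T3 a b (32 * x0) (32 * y0) (32 * s0))
      (T3 a b (32 * s1) (32 * x1) (32 * y1)) (T3 a b (32 * y2) (32 * s2) (32 * x2)) j i +
      T3 a b (T3 a b (32 * x0) (32 * y0) (32 * s0))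
      (T3 a b (32 * s1) (32 * x1) (32 * y1)) (T3 a b (32 * y2) (32 * s2) (32 * x2)) j' i' +
      P j + P j' := by
  obtain ⟨⟨⟨P1, P2, P3⟩, P4, P5, P6⟩, ⟨o1, o2, o3⟩, ⟨o4, o5, o6⟩, o7, o8, o9⟩ := h
  have d1 := D.1
  have d2 := D.2.1
  have d3 := D.2.2
  rcases D.cov j with rfl | rfl | rfl <;> rcases D.cov j' with rfl | rfl | rfl <;>
    first | exact absurd rfl n |
      (rcases D.cov i with rfl | rfl | rfl <;> rcases D.cov i' with rfl | rfl | rfl <;>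
        simp only [dB, T3a, T3b D, T3c D, d1, d2, d3, d1.symm, d2.symm, d3.symm, if_true,
          if_false, ta, tb, tc] <;> linarith)

theorem sum3 {a b c : Fin 3} (D : Di a b c) (f : Fin 3 → ℝ) : f 0 + f 1 + f 2 = f a + f b + f c := by
  obtain ⟨d1, d2, d3⟩ := D
  fin_cases a <;> fin_cases b <;> fin_cases c <;> simp at d1 d2 d3 ⊢ <;> ring

theorem step {a b c : Fin 3} (D : Di a b c) {g G κ k : Fin 3 → ℝ} (I : Inv g G κ)
    (hb : κ b / 32 = G b / 256) (hc : κ c / 32 = G c / 256)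
    (R : Resp (g a) (g b) (g c) (G a / 256) (G b / 256) (G c / 256) (κ a / 32) (k a) (k b) (k c)) :
    ∃ w l κ', Step Inv g G κ k w l κ' := by
  obtain ⟨A, p0, p1, p2, l, e0, e1, e2, ⟨w0, w1, w2, z0, z1, z2, zs, q0, q1, q2⟩, hl, ⟨f1, f2, f3⟩,
    ⟨f4, f5, f6⟩, ⟨f7, f8, f9⟩, ⟨u0, u1, u2⟩, ⟨v0, v1, v2⟩, C0, C1, C2⟩ := R
  obtain ⟨I1, I2, -, -⟩ := I
  obtain ⟨ia1, ia⟩ : 0 ≤ κ a / 32 ∧ κ a / 32 ≤ G a / 256 := I1 a
  obtain ⟨ib1, ib⟩ : 0 ≤ κ b / 32 ∧ κ b / 32 ≤ G b / 256 := I1 b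
  obtain ⟨ic1, ic⟩ : 0 ≤ κ c / 32 ∧ κ c / 32 ≤ G c / 256 := I1 c
  obtain ⟨jab1, jab⟩ : G a / 256 + G b / 256 ≤ g a + g b ∧ (g a + g b) / 32 ≤ κ a / 32 + κ b / 32 :=
    I2 a b D.1
  obtain ⟨jac1, jac⟩ : G a / 256 + G c / 256 ≤ g a + g c ∧ (g a + g c) / 32 ≤ κ a / 32 + κ c / 32 :=
    I2 a c D.2.1
  obtain ⟨jbc1, jbc⟩ : G b / 256 + G c / 256 ≤ g b + g c ∧ (g b + g c) / 32 ≤ κ b / 32 + κ c / 32 :=
    I2 b c D.2.2
  have Ga : 0 ≤ G a / 256 := ia1.trans ia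
  have Gb : 0 ≤ G b / 256 := ib1.trans ib
  have Gc : 0 ≤ G c / 256 := ic1.trans ic
  have n0 : 0 ≤ p0 := q0 ▸ mul_nonneg z0 Ga
  have n1 : 0 ≤ p1 := q1 ▸ mul_nonneg z1 Gb
  have n2 : 0 ≤ p2 := q2 ▸ mul_nonneg z2 Gc
  have m0 : p0 ≤ G a / 256 := q0 ▸ mul_le_of_le_one_left Ga (by linarith only [zs, z1, z2])
  have m1 : p1 ≤ G b / 256 := q1 ▸ mul_le_of_le_one_left Gb (by linarith only [zs, z0, z2])
  have m2 : p2 ≤ G c / 256 := q2 ▸ mul_le_of_le_one_left Gc (by linarith only [zs, z1, z0])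
  obtain ⟨x0, y0, s0, K0, ⟨a01, a02⟩, b0, S0x, S0u, S0v⟩ := child C0 hl n0 n1 n2 m1 m2 le_rfl le_rfl
    (by linarith only [n0, f4]) (by linarith only [f5]) (by linarith only [n0, f7])
    (by linarith only [f8]) (by linarith only [v1]) (by linarith only [v2])
    (by linarith only [jbc, ib, ic])
  obtain ⟨x1, y1, s1, K1, ⟨a11, a12⟩, b1, S1x, S1u, S1v⟩ := child C1 hl n1 n2 n0 m2 m0 le_rfl ia
    (by linarith only [n1, f7]) (by linarith only [f9]) (by linarith only [n1, f1])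
    (by linarith only [f2]) (by linarith only [v2]) (by linarith only [v0])
    (by linarith only [jac, ia, ic])
  obtain ⟨x2, y2, s2, K2, ⟨a21, a22⟩, b2, S2x, S2u, S2v⟩ := child C2 hl n2 n0 n1 m0 m1 ia le_rfl
    (by linarith only [n2, f1]) (by linarith only [f3]) (by linarith only [n2, f4])
    (by linarith only [f6]) (by linarith only [v0]) (by linarith only [v1])
    (by linarith only [jab, ia, ib])
  obtain ⟨ρ3, ρ0, ρ1, ρ2, hρ⟩ := cross (by linarith only [jab, ia, ib, n2, f1, f4])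
    (by linarith only [jac, ia, ic, n1, f1, f7]) (by linarith only [jbc, ib, ic, n0, f4, f7])
    (by linarith only [v0, f1]) (by linarith only [v1, f4]) (by linarith only [v2, f7])
    S0x S0u S0v S1x S1u S1v S2x S2u S2v
  have ta : T3 a b w0 w1 w2 a * G a = 256 * p0 := by rw [T3a, q0]; ring
  have tb : T3 a b w0 w1 w2 b * G b = 256 * p1 := by rw [T3b D, q1]; ring
  have tc : T3 a b w0 w1 w2 c * G c = 256 * p2 := by rw [T3c D, q2]; ring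
  have Na := noi D G (T3 a b w0 w1 w2)
  have Nb := noi D.rot G (T3 a b w0 w1 w2)
  have Nc := noi D.rot.rot G (T3 a b w0 w1 w2)
  rw [tb, tc] at Na
  rw [tc, ta] at Nb
  rw [ta, tb] at Nc
  refine ⟨T3 a b w0 w1 w2, 256 * l, T3 a b (T3 a b (32 * x0) (32 * y0) (32 * s0))
    (T3 a b (32 * s1) (32 * x1) (32 * y1)) (T3 a b (32 * y2) (32 * s2) (32 * x2)),
    fun i => ?_, ?_, by linarith only [hl], fun j => ?_, fun j i n => ?_, fun j => ?_,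
    crF D (P := fun j => T3 a b w0 w1 w2 j * G j) ta tb tc n0 n1 n2 K0.1.1 K0.2.1.1 K0.2.2.1.1
      K1.1.1 K1.2.1.1 K1.2.2.1.1 K2.1.1 K2.2.1.1 K2.2.2.1.1 hρ⟩
  · rcases D.cov i with rfl | rfl | rfl <;> simp only [T3a, T3b D, T3c D] <;> assumption
  · rw [sum3 D, T3a, T3b D, T3c D]
    exact zs
  · rcases D.cov j with rfl | rfl | rfl
    · rw [T3a]
      exact kid D ta tb tc (T3a ..) (T3b D ..) (T3c D ..) (by linarith only [u1])
        (by linarith only [u2]) jbc1 C0.2.2.1 C0.2.2.2.1 C0.2.2.2.2 K0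
    · rw [T3b D]
      exact kid D.rot tb tc ta (T3b D ..) (T3c D ..) (T3a ..) (by linarith only [u2])
        (by linarith only [u0]) (by linarith only [jac1]) C1.2.2.1 C1.2.2.2.1 C1.2.2.2.2 K1
    · rw [T3c D]
      exact kid D.rot.rot tc ta tb (T3c D ..) (T3a ..) (T3b D ..) (by linarith only [u0])
        (by linarith only [u1]) jab1 C2.2.2.1 C2.2.2.2.1 C2.2.2.2.2 K2
  · rcases D.cov j with rfl | rfl | rfl <;> rcases D.cov i with rfl | rfl | rfl <;>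
      first | exact absurd rfl n | (simp only [T3a, T3b D, T3c D, Na, Nb, Nc]
                                    linarith only [a01, a02, a11, a12, a21, a22, hb, hc])
  · rcases D.cov j with rfl | rfl | rfl <;> simp only [T3a, T3b D, T3c D, Na, Nb, Nc]
    · rcases b0 with h | h | h
      exacts [⟨j, by linarith only [h]⟩, ⟨b, by linarith only [h, hb]⟩, ⟨c, by linarith only [h, hc]⟩]
    · rcases b1 with h | h | h
      exacts [⟨j, by linarith only [h, hb]⟩, ⟨c, by linarith only [h, hc]⟩, ⟨a, by linarith only [h]⟩]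
    · rcases b2 with h | h | h
      exacts [⟨j, by linarith only [h, hc]⟩, ⟨a, by linarith only [h]⟩, ⟨b, by linarith only [h, hb]⟩]

end RedB

open RedB in
theorem redB : StmtRed := by
  intro Sy hS hC
  refine ⟨256, by norm_num, Inv, fun g hg => ?_, fun g G κ I => ?_, fun g G κ k hg I K => ?_⟩
  · obtain ⟨a, ha⟩ := Finite.exists_min g
    obtain ⟨b, c, D⟩ := Di.ex a
    refine ⟨fun i => 32 * g i, fun i => 4 * g i, fun i => ⟨by linarith [hg i], by linarith⟩,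
      fun i j _ => ⟨by linarith [hg i, hg j], by linarith [hg i, hg j]⟩,
      fun b a c _ => Or.inr (Or.inr (by linarith [hg a, hg c])), a, b, c, D, ?_, by ring, by ring⟩
    rw [min_eq_left (by linarith [hg a, ha b, ha c])]
    ring
  · obtain ⟨I1, I2, -, -⟩ := I
    refine ⟨fun i => ?_, fun i j n => ?_⟩
    · have := I1 i
      simp only at this
      exact ⟨by linarith [this.1], by linarith [this.1, this.2]⟩
    · have := I2 i j n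
      simp only at this
      exact ⟨by linarith [this.2], by linarith [this.1]⟩
  · have key : ∀ a b c, Di a b c → κ a / 32 = min (G a / 256)
        ((g a + g b + g c - G a / 256 - G b / 256 - G c / 256 - G a / 256 / 2) / 2) →
        κ b / 32 = G b / 256 → κ c / 32 = G c / 256 → Sy (G b / 256) (k b) (G c / 256) (k c) →
        ∃ w l κ', Step Inv g G κ k w l κ' := by
      intro a b c D ha hb hc hs
      refine step D I hb hc (hC _ _ _ _ _ _ _ _ _ _ ?_ ?_ (I.2.2.1 _ _ _ D) (I.2.2.1 _ _ _ D.rot)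
        (I.2.2.1 _ _ _ D.rot.rot) hs)
      · obtain ⟨I1, I2, -, -⟩ := I
        have ia := I1 a
        have ib := I1 b
        have ic := I1 c
        have jab := I2 a b D.1
        have jca := I2 c a D.2.1.symm
        have jbc := I2 b c D.2.2
        simp only at ia ib ic jab jca jbc
        have m := min_le_right (G a / 256)
          ((g a + g b + g c - G a / 256 - G b / 256 - G c / 256 - G a / 256 / 2) / 2)
        have k1 := K.2 a b D.1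
        have k2 := K.2 b a D.1.symm
        have k3 := K.2 b c D.2.2
        have k4 := K.2 c b D.2.2.symm
        have k5 := K.2 c a D.2.1.symm
        have k6 := K.2 a c D.2.1
        exact ⟨⟨hg a, hg b, hg c⟩, ⟨ia.1, ia.2, ib.1.trans ib.2, ic.1.trans ic.2⟩,
          ⟨jab.1, jbc.1, jca.1⟩, ⟨by linarith [jab.2], by linarith [jbc.2], by linarith [jca.2]⟩,
          by linarith, ⟨k1.1, by linarith [k1.2], by linarith [k2.2]⟩,
          ⟨k3.1, by linarith [k3.2], by linarith [k4.2]⟩,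
          ⟨k5.1, by linarith [k5.2], by linarith [k6.2]⟩, K.1 a, K.1 b, K.1 c⟩
      · rcases min_choice (G a / 256)
          ((g a + g b + g c - G a / 256 - G b / 256 - G c / 256 - G a / 256 / 2) / 2) with h | h
        · exact Or.inl (ha.trans h)
        · exact Or.inr (by linarith [ha.trans h])
    obtain ⟨a, b, c, D, ha, hb, hc⟩ := I.2.2.2
    rcases hS (G b / 256) (k b) (G c / 256) (k c) with h | h
    · exact key a b c D ha hb hc h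
    · refine key a c b D.sw (ha.trans ?_) hc hb h
      congr 2
      ring

end Vale.Agent.P235
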