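import Vale.Agent.P235.Defs

namespace Vale.Agent.P235

open Finset

/-! ## The finite game -/

/-- the index different from `i` and `j` (for `i ≠ j`) -/
def third (i j : Fin 3) : Fin 3 := -(i + j)

noncomputable def newg (g k : Fin 3 → ℝ) (j i : Fin 3) : ℝ :=
  if i = j then (k (j + 1) + k (j + 2) - g (j + 1) - g (j + 2)) / 2
  else (g i + g (third i j) + k i - k (third i j)) / 2

def newG (G w : Fin 3 → ℝ) (l : ℝ) (j i : Fin 3) : ℝ :=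
  if i = j then l + w j * G j else G i - w i * G i + w (third i j) * G (third i j)

def noise (G w : Fin 3 → ℝ) (j : Fin 3) : ℝ := w (j + 1) * G (j + 1) + w (j + 2) * G (j + 2)

def dB (g k : Fin 3 → ℝ) (j i j' i' : Fin 3) : ℝ :=
  if i = j then (if i' = j' then 0 else k i')
  else (if i' = j' then k i else if i = i' then 0 else g i + g i')

def Kat (g k : Fin 3 → ℝ) : Prop :=
  (∀ i, 0 ≤ k i) ∧ ∀ i j, i ≠ j → g i + g j ≤ k i + k j ∧ k i ≤ k j + (g i + g j)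

def Step (Inv : (Fin 3 → ℝ) → (Fin 3 → ℝ) → (Fin 3 → ℝ) → Prop) (g G κ k w : Fin 3 → ℝ) (l : ℝ)
    (κ' : Fin 3 → Fin 3 → ℝ) : Prop :=
  (∀ i, 0 ≤ w i) ∧ w 0 + w 1 + w 2 ≤ 1 ∧ 0 ≤ l ∧
  (∀ j, Inv (newg g k j) (newG G w l j) (κ' j)) ∧
  (∀ j i, i ≠ j → κ i ≤ κ' j i + noise G w j) ∧
  (∀ j, ∃ v, κ v + k v ≤ κ' j j + noise G w j) ∧
  ∀ j j', j ≠ j' → ∀ i i', dB g k j i j' i' ≤ κ' j i + κ' j' i' + w j * G j + w j' * G j'

def Game (C : ℝ) : Prop :=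
  ∃ Inv : (Fin 3 → ℝ) → (Fin 3 → ℝ) → (Fin 3 → ℝ) → Prop,
    (∀ g : Fin 3 → ℝ, (∀ i, 0 ≤ g i) → ∃ G κ, Inv g G κ) ∧
    (∀ g G κ, Inv g G κ → (∀ i, 0 ≤ κ i ∧ κ i ≤ G i) ∧
      ∀ i j, i ≠ j → g i + g j ≤ κ i + κ j ∧ G i + G j ≤ C * (g i + g j)) ∧
    ∀ g G κ k, (∀ i, 0 ≤ g i) → Inv g G κ → Kat g k → ∃ w l κ', Step Inv g G κ k w l κ'

/-! ## Three-trees -/

abbrev Nd := Option (ℕ × Fin 3)

/-- Vertices `x 0, .., x (n-1)` are added one by one; `x i` is attached to the triangle `par i`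
and creates the three triangles `some (i, c)`. -/
structure Build (V : Type) where
  n : ℕ
  x : ℕ → V
  par : ℕ → Nd
  tri : Nd → Fin 3 → V
  lt : ∀ i j c, par i = some (j, c) → j < i
  eq : ∀ i, i < n → ∀ c, tri (some (i, c)) = Function.update (tri (par i)) c (x i)
  fresh : ∀ i, i < n → ∀ c, x i ≠ tri none c
  inj : ∀ i, i < n → ∀ j, j < n → x i = x j → i = j
  cover : ∀ v, (∃ c, tri none c = v) ∨ ∃ i, i < n ∧ x i = v

variable {V : Type}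

def Build.InBag (B : Build V) (u v : V) : Prop :=
  (∃ c c', B.tri none c = u ∧ B.tri none c' = v) ∨
    ∃ i, i < B.n ∧ (u = B.x i ∨ ∃ c, B.tri (B.par i) c = u) ∧ (v = B.x i ∨ ∃ c, B.tri (B.par i) c = v)

/-- rank of a node: it exists at time `m` iff `rk N ≤ m` -/
def rk : Nd → ℕ
  | none => 0
  | some (i, _) => i + 1

def PM (d : V → V → ℝ) : Prop :=
  (∀ u, d u u = 0) ∧ (∀ u v, d u v = d v u) ∧ (∀ u v, 0 ≤ d u v) ∧ ∀ u v z, d u z ≤ d u v + d v z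

structure Strat (B : Build V) (d : V → V → ℝ) (C : ℝ) where
  G : Nd → Fin 3 → ℝ
  κ : Nd → Fin 3 → ℝ
  w : ℕ → Fin 3 → ℝ
  l : ℕ → ℝ
  hκ : ∀ N, rk N ≤ B.n → ∀ c, 0 ≤ κ N c ∧ κ N c ≤ G N c
  kat : ∀ N, rk N ≤ B.n → ∀ c c', c ≠ c' → d (B.tri N c) (B.tri N c') ≤ κ N c + κ N c'
  up : ∀ N, rk N ≤ B.n → ∀ c c', c ≠ c' → G N c + G N c' ≤ C * d (B.tri N c) (B.tri N c')
  hw : ∀ i, i < B.n → (∀ c, 0 ≤ w i c) ∧ w i 0 + w i 1 + w i 2 ≤ 1
  hl : ∀ i, i < B.n → 0 ≤ l i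
  hG : ∀ i, i < B.n → ∀ j, G (some (i, j)) = newG (G (B.par i)) (w i) (l i) j
  a1 : ∀ i, i < B.n → ∀ j c, c ≠ j →
    κ (B.par i) c ≤ κ (some (i, j)) c + noise (G (B.par i)) (w i) j
  a2 : ∀ i, i < B.n → ∀ j, ∃ v, κ (B.par i) v + d (B.x i) (B.tri (B.par i) v) ≤
    κ (some (i, j)) j + noise (G (B.par i)) (w i) j
  cr : ∀ i, i < B.n → ∀ j j', j ≠ j' → ∀ c c',
    d (B.tri (some (i, j)) c) (B.tri (some (i, j')) c') ≤ κ (some (i, j)) c + κ (some (i, j')) c' +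
      w i j * G (B.par i) j + w i j' * G (B.par i) j'

/-! ## The cut process -/

/-- slots of a triangle: the three vertices and (`none`) their majority -/
abbrev Sl := Option (Fin 3)

def maj (a b c : Bool) : Bool := (a && b) || (a && c) || (b && c)

def ev (t : Fin 3 → V) : Sl → (V → Bool) → Bool
  | some c, ω => ω (t c)
  | none, ω => maj (ω (t 0)) (ω (t 1)) (ω (t 2))

/-- probability that the new vertex copies a slot -/
def wt (w : Fin 3 → ℝ) : Sl → ℝ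
  | some c => w c
  | none => 1 - (w 0 + w 1 + w 2)

/-- slot `f` of the child triangle `j` when the new vertex copies `ξ` -/
def sub (j : Fin 3) (f ξ : Sl) : Sl :=
  match f, ξ with
  | some c, ξ => if c = j then ξ else some c
  | none, some c => if c = j then none else some c
  | none, none => none

variable [DecidableEq V] {B : Build V} {d : V → V → ℝ} {C : ℝ}

def ind (v : V) : V → Bool := fun u => decide (u = v)

/-- integral against the cut measure at time `m` -/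
noncomputable def Strat.I (S : Strat B d C) : ℕ → ((V → Bool) → ℝ) → ℝ
  | 0, F => ∑ c, S.G none c * F (ind (B.tri none c))
  | m + 1, F => ∑ ξ : Sl, wt (S.w m) ξ *
      S.I m (fun ω => F (Function.update ω (B.x m) (ev (B.tri (B.par m)) ξ ω))) +
      S.l m * F (ind (B.x m))

noncomputable def Strat.D (S : Strat B d C) (m : ℕ) (F F' : (V → Bool) → Bool) : ℝ :=
  S.I m (fun ω => if F ω = F' ω then 0 else 1)

/-- distance of two slots of a triangle with legs `G` -/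
def sd (G : Fin 3 → ℝ) : Sl → Sl → ℝ
  | some c, some c' => if c = c' then 0 else G c + G c'
  | some c, none => G c
  | none, some c => G c
  | none, none => 0

def Qf (G : Fin 3 → ℝ) (α : Sl → ℝ) : ℝ := ∑ f, ∑ g, α f * α g * sd G f g

def push (w : Fin 3 → ℝ) (j : Fin 3) (α : Sl → ℝ) : Sl → ℝ :=
  fun g => ∑ f, α f * ∑ ξ, if sub j f ξ = g then wt w ξ else 0

def lab (B : Build V) (h : V → ℝ) (y : Nd → ℝ) (N : Nd) : Sl → ℝ
  | some c => h (B.tri N c)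
  | none => y N

/-- state of the vertex `s` seen from the triangle `N` -/
inductive St (S : Strat B d C) (s : V) : Nd → ℝ → (Sl → ℝ) → Prop
  | base (N : Nd) (c : Fin 3) : rk N ≤ B.n → B.tri N c = s →
      St S s N 0 (fun f => if f = some c then 1 else 0)
  | up (i : ℕ) (j : Fin 3) (L : ℝ) (α : Sl → ℝ) : i < B.n → St S s (some (i, j)) L α →
      St S s (B.par i) (L + α (some j) * S.l i) (push (S.w i) j α)

/-- extension of a Lipschitz function to the medians -/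
def Pot (S : Strat B d C) (h : V → ℝ) (y : Nd → ℝ) : Prop :=
  (∀ N, rk N ≤ B.n → ∀ c, |y N - h (B.tri N c)| ≤ S.κ N c) ∧
  (∀ i, i < B.n → ∀ j, |y (some (i, j)) - y (B.par i)| ≤ noise (S.G (B.par i)) (S.w i) j) ∧
  ∀ i, i < B.n → ∀ j j', j ≠ j' → |y (some (i, j)) - y (some (i, j'))| ≤
    S.w i j * S.G (B.par i) j + S.w i j' * S.G (B.par i) j'

def Lip (d : V → V → ℝ) (h : V → ℝ) : Prop := ∀ u v, |h u - h v| ≤ d u v

def Sib (B : Build V) (N N' : Nd) : Prop :=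
  N = N' ∨ ∃ i j j', i < B.n ∧ j ≠ j' ∧ N = some (i, j) ∧ N' = some (i, j')

/-- evolution of a mass vector under the kernels `K` from time `i` on -/
def evol {σ : Type} [Fintype σ] (K : ℕ → σ → σ → ℝ) (i : ℕ) (α : σ → ℝ) : ℕ → σ → ℝ
  | 0 => α
  | t + 1 => fun g => ∑ f, evol K i α t f * K (i + t) f g

def Prob {σ : Type} [Fintype σ] (α : σ → ℝ) : Prop := (∀ f, 0 ≤ α f) ∧ ∑ f, α f = 1

/-! ## Statements -/

def StmtGame : Prop := ∃ C : ℝ, 0 ≤ C ∧ Game C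

def StmtTD : Prop := ∀ (V : Type) [Fintype V] [DecidableEq V] [Nonempty V] (G : SimpleGraph V),
  TwLe G 3 → ∃ B : Build V, ∀ u v, G.Adj u v → B.InBag u v

def StmtMet : Prop := ∀ (V : Type) [Fintype V] (G : SimpleGraph V) (ℓ : Sym2 V → ℝ),
  G.Connected → (∀ e ∈ G.edgeSet, 0 < ℓ e) → PM (gdist G ℓ) ∧
  ∀ (D : V → V → ℝ) (C : ℝ), 0 ≤ C → PM D → (∀ u v, G.Adj u v → D u v ≤ C * gdist G ℓ u v) →
    ∀ u v, D u v ≤ C * gdist G ℓ u v

def StmtRec : Prop := ∀ (V : Type) (B : Build V) (d : V → V → ℝ) (C : ℝ), PM d → Game C →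
  Nonempty (Strat B d C)

def StmtPot : Prop := ∀ (V : Type) [DecidableEq V] (B : Build V) (d : V → V → ℝ) (C : ℝ)
  (S : Strat B d C) (h : V → ℝ), PM d → Lip d h → ∃ y, Pot S h y

/-- basic properties of the integral -/
def StmtInt : Prop := ∀ (V : Type) [DecidableEq V] (B : Build V) (d : V → V → ℝ) (C : ℝ)
  (S : Strat B d C),
  (∀ m, m ≤ B.n → ∀ F F' : (V → Bool) → ℝ, (∀ ω, F ω ≤ F' ω) → S.I m F ≤ S.I m F') ∧
  (∀ m (F F' : (V → Bool) → ℝ) (a b : ℝ),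
    S.I m (fun ω => a * F ω + b * F' ω) = a * S.I m F + b * S.I m F') ∧
  (∀ m, m ≤ B.n → PM (S.D m)) ∧
  (∀ N, rk N ≤ B.n → ∀ i, rk N ≤ i → i < B.n → ∀ c, B.tri N c ≠ B.x i) ∧
  (∀ N N' f g m, rk N ≤ m → rk N' ≤ m → m ≤ B.n →
    S.D B.n (ev (B.tri N) f) (ev (B.tri N') g) = S.D m (ev (B.tri N) f) (ev (B.tri N') g)) ∧
  ∀ i, i < B.n → ∀ j f ξ (ω : V → Bool), ev (B.tri (some (i, j))) f
    (Function.update ω (B.x i) (ev (B.tri (B.par i)) ξ ω)) = ev (B.tri (B.par i)) (sub j f ξ) ω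

/-- distances between slots -/
def StmtDis : Prop := ∀ (V : Type) [DecidableEq V] (B : Build V) (d : V → V → ℝ) (C : ℝ)
  (S : Strat B d C), PM d →
  (∀ N, rk N ≤ B.n → ∀ f g, S.D B.n (ev (B.tri N) f) (ev (B.tri N) g) = sd (S.G N) f g) ∧
  (∀ u v, B.InBag u v → S.D B.n (fun ω => ω u) (fun ω => ω v) ≤ C * d u v) ∧
  ∀ (h : V → ℝ) (y : Nd → ℝ), Lip d h → Pot S h y → ∀ N N', rk N ≤ B.n → Sib B N N' → ∀ f g,
    |lab B h y N f - lab B h y N' g| ≤ S.D B.n (ev (B.tri N) f) (ev (B.tri N') g)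

def StmtPair : Prop := ∀ (V : Type) [DecidableEq V] (B : Build V) (d : V → V → ℝ) (C : ℝ)
  (S : Strat B d C) (s t : V), ∃ N N' L L' α β, rk N ≤ B.n ∧ rk N' ≤ B.n ∧ Sib B N N' ∧
    St S s N L α ∧ St S t N' L' β ∧ S.D B.n (fun ω => ω s) (fun ω => ω t) =
      L + L' + ∑ f, ∑ g, α f * β g * S.D B.n (ev (B.tri N) f) (ev (B.tri N') g)

/-- the abstract lower bound: labels move only at the price of energy -/
def StmtLow : Prop := ∀ (σ : Type) [Fintype σ] [DecidableEq σ] (θ : ℝ), 0 < θ → ∃ C₁ : ℝ, 0 ≤ C₁ ∧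
  ∀ (K : ℕ → σ → σ → ℝ) (h : ℕ → σ → ℝ) (Q e : ℕ → (σ → ℝ) → ℝ),
    (∀ l f, Prob (K l f)) →
    (∀ l α, Prob α → ∑ f, ∑ g, α f * α g * |h l f - h l g| ≤ Q l α) →
    (∀ l α, Prob α → Q (l + 1) (fun g => ∑ f, α f * K l f g) ≤ Q l α + e l α) →
    (∀ l α, (∀ f, 0 ≤ α f) → 0 ≤ e l α) →
    (∀ l (α β : σ → ℝ) (c : ℝ), 0 ≤ c → (∀ f, 0 ≤ α f) → (∀ f, c * α f ≤ β f) →
      c ^ 2 * e l α ≤ e l β) →
    (∀ l f, ∑ g, K l f g * |h l f - h (l + 1) g| ≤ e l (fun g => if g = f then 1 else 0)) →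
    (∀ l f, Q l (fun g => if g = f then 1 else 0) ≤ 0) →
    ∀ (α : σ → ℝ) (t : ℕ) (u v : σ), Prob α → θ ≤ α u → θ ≤ evol K 0 α t v →
      |h 0 u - h t v| ≤ C₁ * (Q 0 α + ∑ r ∈ range t, e r (evol K 0 α r))

/-- energy of one step -/
def en (G w : Fin 3 → ℝ) (l : ℝ) (j : Fin 3) (α : Sl → ℝ) : ℝ :=
  2 * (G (j + 1) * w (j + 1) * (1 - w (j + 1)) + G (j + 2) * w (j + 2) * (1 - w (j + 2))) *
    (α (some j) + α none) ^ 2 + 2 * (G j * w j * (1 - w j) + l) * α (some j) ^ 2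

/-- one-step algebra -/
def StmtAlg : Prop := ∀ (G w : Fin 3 → ℝ) (l : ℝ) (j : Fin 3),
  (∀ α : Sl → ℝ, ∑ f, α f = 1 →
    Qf G (push w j α) + 2 * (α (some j) * l) = Qf (newG G w l j) α + en G w l j α) ∧
  ((∀ c, 0 ≤ w c) → w 0 + w 1 + w 2 ≤ 1 → ∀ α, Prob α → Prob (push w j α)) ∧
  ∀ (a a' : Sl → ℝ), (∀ c, 0 ≤ G c) → (∀ c, 0 ≤ w c) → w 0 + w 1 + w 2 ≤ 1 → 0 ≤ l →
    (∀ c, c ≠ j → a' (some c) = a (some c)) →
    (∀ c, c ≠ j → |a' (some j) - a (some c)| ≤ newG G w l j j + newG G w l j c) →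
    |a' (some j) - a (some j)| ≤ l + G j - w j * G j + noise G w j →
    |a' (some j) - a none| ≤ newG G w l j j + noise G w j →
    (∀ c, c ≠ j → |a' none - a (some c)| ≤ newG G w l j c) →
    |a' none - a none| ≤ noise G w j →
    ∀ f, ∑ g, (∑ ξ, if sub j f ξ = g then wt w ξ else 0) * |a' f - a g| ≤
      en G w l j (fun g => if g = f then 1 else 0)

def StmtChain : Prop := ∃ C₁ : ℝ, 0 ≤ C₁ ∧ ∀ (V : Type) [DecidableEq V] (B : Build V)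
  (d : V → V → ℝ) (C : ℝ) (S : Strat B d C) (h : V → ℝ) (y : Nd → ℝ), PM d → Lip d h →
  Pot S h y → ∀ s N L α, St S s N L α → 0 ≤ L ∧ Prob α ∧ rk N ≤ B.n ∧
    ∀ f, 1 / 4 ≤ α f → |h s - lab B h y N f| ≤ C₁ * (Qf (S.G N) α + 2 * L)

def StmtLB : Prop := ∃ C₂ : ℝ, 0 < C₂ ∧ ∀ (V : Type) [DecidableEq V] (B : Build V)
  (d : V → V → ℝ) (C : ℝ) (S : Strat B d C), PM d → ∀ s t,
  d s t ≤ C₂ * S.D B.n (fun ω => ω s) (fun ω => ω t)

def StmtEmb : Prop := ∀ (V : Type) [Fintype V] [DecidableEq V] (B : Build V) (d : V → V → ℝ)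
  (C : ℝ) (S : Strat B d C) (a : ℝ), 0 ≤ a → ∃ (Ω : Type) (_ : MeasurableSpace Ω)
  (μ : MeasureTheory.Measure Ω) (f : V → MeasureTheory.Lp ℝ 1 μ),
  ∀ u v, ‖f u - f v‖ = a * S.D B.n (fun ω => ω u) (fun ω => ω v)

def StmtMain : Prop := ∃ C : ℝ, ∀ (V : Type) [Fintype V] (G : SimpleGraph V), G.Connected →
  TwLe G 3 → ∀ ℓ : Sym2 V → ℝ, (∀ e ∈ G.edgeSet, 0 < ℓ e) → EmbL1 (gdist G ℓ) C

end Vale.Agent.P235
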