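import Vale.Agent.P235.Spec

namespace Vale.Agent.P235

open Finset

namespace TDM

/-- a tree has a depth function and a parent function -/
lemma rooted {ι : Type} {T : SimpleGraph ι} (hT : T.IsTree) :
    ∃ (dep : ι → ℕ) (par : ι → ι), ∀ a b, T.Adj a b →
      (a = par b ∧ dep b = dep a + 1) ∨ (b = par a ∧ dep a = dep b + 1) := by
  classical
  obtain ⟨r⟩ := hT.connected.nonempty
  choose P hP hU using fun t => hT.existsUnique_path r t
  have key : ∀ a b (h : T.Adj a b), b ∉ (P a).support →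
      a = (P b).penultimate ∧ (P b).length = (P a).length + 1 := by
    intro a b h hb
    have h1 : ((P a).concat h).IsPath := (hP a).concat hb h
    have h2 := hU b _ h1
    rw [← h2]
    simp
  refine ⟨fun t => (P t).length, fun t => (P t).penultimate, fun a b h => ?_⟩
  by_cases hb : b ∈ (P a).support
  · by_cases ha : a ∈ (P b).support
    · exfalso
      have h1 := hU b _ ((hP a).takeUntil hb)
      have h2 := hU a _ ((hP b).takeUntil ha)
      have h3 := SimpleGraph.Walk.length_takeUntil_lt_length hb h.ne'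
      have h4 := SimpleGraph.Walk.length_takeUntil_lt_length ha h.ne
      rw [h1] at h3
      rw [h2] at h4
      omega
    · exact Or.inr (key b a h.symm ha)
  · exact Or.inl (key a b h hb)

lemma up_mem {ι : Type} {T : SimpleGraph ι} {dep : ι → ℕ} {par : ι → ι}
    (h : ∀ a b, T.Adj a b → (a = par b ∧ dep b = dep a + 1) ∨ (b = par a ∧ dep a = dep b + 1))
    {U : Set ι} (hU : (T.induce U).Connected) {m t : ι} (hm : m ∈ U) (ht : t ∈ U)
    (hmin : dep m ≤ dep t) (hne : t ≠ m) : par t ∈ U ∧ dep t = dep (par t) + 1 := by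
  by_contra hc
  have hr := hU.preconnected ⟨t, ht⟩ ⟨m, hm⟩
  rw [SimpleGraph.reachable_iff_reflTransGen] at hr
  have : ∀ s : U, Relation.ReflTransGen (T.induce U).Adj ⟨t, ht⟩ s →
      ∃ k, par^[k] s.1 = t ∧ dep s.1 = dep t + k := by
    intro s hs
    induction hs with
    | refl => exact ⟨0, rfl, rfl⟩
    | @tail s s' _ hadj ih =>
      obtain ⟨k, h1, h2⟩ := ih
      have hadj' : T.Adj s.1 s'.1 := hadj
      rcases h _ _ hadj' with ⟨e1, e2⟩ | ⟨e1, e2⟩
      · refine ⟨k + 1, ?_, by omega⟩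
        rw [Function.iterate_succ_apply, ← e1, h1]
      · cases k with
        | zero =>
          exfalso
          have h3 : s.1 = t := h1
          apply hc
          rw [← h3, ← e1]
          exact ⟨s'.2, e2⟩
        | succ k =>
          refine ⟨k, ?_, by omega⟩
          rw [e1, ← Function.iterate_succ_apply, h1]
  obtain ⟨k, h1, h2⟩ := this _ hr
  have hk : k = 0 := by
    have : dep m = dep t + k := h2
    omega
  subst hk
  exact hne (Eq.symm h1)

/-- elimination lemma -/
lemma elim {V ι : Type} {T : SimpleGraph ι} (hT : T.IsTree) (B : ι → Finset V)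
    (hc : ∀ v, (T.induce {t | v ∈ B t}).Connected) (S : Finset V) (hS : S.Nonempty) :
    ∃ v ∈ S, ∃ t0, v ∈ B t0 ∧ ∀ u ∈ S, ∀ t, u ∈ B t → v ∈ B t → u ∈ B t0 := by
  classical
  obtain ⟨dep, par, h⟩ := rooted hT
  have hex : ∀ v, ∃ m, v ∈ B m ∧ ∀ t, v ∈ B t → dep m ≤ dep t := by
    intro v
    obtain ⟨⟨t1, h1⟩⟩ := (hc v).nonempty
    have hne : ∃ n, ∃ t, v ∈ B t ∧ dep t = n := ⟨_, t1, h1, rfl⟩
    obtain ⟨m, hm, e⟩ := Nat.find_spec hne
    exact ⟨m, hm, fun t ht => e ▸ Nat.find_min' hne ⟨t, ht, rfl⟩⟩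
  choose top htop hmin using hex
  obtain ⟨v, hv, hmax⟩ := S.exists_max_image (fun v => dep (top v)) hS
  refine ⟨v, hv, top v, htop v, fun u hu => ?_⟩
  have : ∀ n t, dep t = n → u ∈ B t → v ∈ B t → u ∈ B (top v) := by
    intro n
    induction n using Nat.strong_induction_on with
    | _ n ih =>
      intro t hn h1 h2
      by_cases e : t = top v
      · exact e ▸ h1
      · obtain ⟨a1, a2⟩ := up_mem h (hc v) (htop v) h2 (hmin v t h2) e
        have a3 := hmin v _ a1
        have e' : t ≠ top u := by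
          intro e'
          have := hmax u hu
          rw [← e'] at this
          omega
        obtain ⟨b1, _⟩ := up_mem h (hc u) (htop u) h1 (hmin u t h1) e'
        exact ih (dep (par t)) (by omega) _ rfl b1 a1
  exact fun t => this _ t rfl

/-- a build covering only `S` -/
structure PB (V : Type) (S : Finset V) where
  n : ℕ
  x : ℕ → V
  par : ℕ → Nd
  tri : Nd → Fin 3 → V
  lt : ∀ i j c, par i = some (j, c) → j < i
  eq : ∀ i, i < n → ∀ c, tri (some (i, c)) = Function.update (tri (par i)) c (x i)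
  fresh : ∀ i, i < n → ∀ c, x i ≠ tri none c
  inj : ∀ i, i < n → ∀ j, j < n → x i = x j → i = j
  cover : ∀ v ∈ S, (∃ c, tri none c = v) ∨ ∃ i, i < n ∧ x i = v
  xm : ∀ i, i < n → x i ∈ S
  tm : ∀ c, tri none c ∈ S

variable {V : Type} {S : Finset V}

def PB.Has (P : PB V S) (A : Finset V) : Prop :=
  (∀ a ∈ A, ∃ c, P.tri none c = a) ∨
    ∃ i, i < P.n ∧ ∀ a ∈ A, a = P.x i ∨ ∃ c, P.tri (P.par i) c = a

lemma PB.rk_par (P : PB V S) (i : ℕ) : rk (P.par i) ≤ i := by
  rcases e : P.par i with _ | ⟨j, c⟩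
  · exact Nat.zero_le _
  · exact P.lt i j c e

lemma PB.node (P : PB V S) {A : Finset V} (h : P.Has A) (h3 : A.card ≤ 3) :
    ∃ N, rk N ≤ P.n ∧ ∀ a ∈ A, ∃ c, P.tri N c = a := by
  classical
  rcases h with h | ⟨i, hi, h⟩
  · exact ⟨none, Nat.zero_le _, h⟩
  · by_cases hx : P.x i ∈ A
    · have h1 : ∀ a, ∃ c, a ∈ A.erase (P.x i) → P.tri (P.par i) c = a := by
        intro a
        by_cases ha : a ∈ A.erase (P.x i)
        · rcases h a (mem_of_mem_erase ha) with e | ⟨c, e⟩
          · exact absurd e (ne_of_mem_erase ha)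
          · exact ⟨c, fun _ => e⟩
        · exact ⟨0, fun h => absurd h ha⟩
      choose f hf using h1
      have h2 : ((A.erase (P.x i)).image f).card < (univ : Finset (Fin 3)).card := by
        have := card_image_le (s := A.erase (P.x i)) (f := f)
        rw [card_erase_of_mem hx] at this
        have h4 : 0 < A.card := card_pos.2 ⟨_, hx⟩
        rw [card_univ, Fintype.card_fin]
        omega
      obtain ⟨c, _, hc⟩ := exists_mem_notMem_of_card_lt_card h2
      refine ⟨some (i, c), hi, fun a ha => ?_⟩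
      rw [P.eq i hi]
      by_cases e : a = P.x i
      · exact ⟨c, by rw [Function.update_self, e]⟩
      · have h5 : a ∈ A.erase (P.x i) := mem_erase.2 ⟨e, ha⟩
        have h6 : f a ≠ c := fun e' => hc (e' ▸ mem_image_of_mem f h5)
        exact ⟨f a, by rw [Function.update_of_ne h6, hf a h5]⟩
    · refine ⟨P.par i, (P.rk_par i).trans hi.le, fun a ha => ?_⟩
      rcases h a ha with e | h
      · exact absurd (e ▸ ha) hx
      · exact h

def ntri (P : PB V S) (N : Nd) (v : V) : Nd → Fin 3 → V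
  | none => P.tri none
  | some (i, c) => if i = P.n then Function.update (P.tri N) c v else P.tri (some (i, c))

lemma ntri_old (P : PB V S) (N : Nd) (v : V) {M : Nd} (h : rk M ≤ P.n) : ntri P N v M = P.tri M := by
  rcases M with _ | ⟨i, c⟩
  · rfl
  · have : i ≠ P.n := by
      have : i + 1 ≤ P.n := h
      omega
    simp [ntri, this]

def npar (P : PB V S) (N : Nd) (i : ℕ) : Nd :=
  if i < P.n then P.par i else if i = P.n then N else none

def nx (P : PB V S) (v : V) (i : ℕ) : V := if i < P.n then P.x i else v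

/-- append a vertex -/
def ext [DecidableEq V] (v : V) (hv : v ∈ S) (P : PB V (S.erase v)) (N : Nd) (hN : rk N ≤ P.n) :
    PB V S where
  n := P.n + 1
  x := nx P v
  par := npar P N
  tri := ntri P N v
  lt i j c e := by
    unfold npar at e
    split_ifs at e with h1 h2
    · exact P.lt i j c e
    · rw [e] at hN
      have : j + 1 ≤ P.n := hN
      omega
  eq i hi c := by
    by_cases h : i < P.n
    · have h1 : rk (some (i, c)) ≤ P.n := h
      rw [ntri_old P N v h1, npar, if_pos h, ntri_old P N v ((P.rk_par i).trans h.le), nx, if_pos h]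
      exact P.eq i h c
    · have e : i = P.n := by omega
      rw [npar, if_neg h, if_pos e, ntri_old P N v hN, nx, if_neg h, ntri, if_pos e]
  fresh i hi c := by
    unfold nx
    split_ifs with h
    · exact P.fresh i h c
    · exact (ne_of_mem_erase (P.tm c)).symm
  inj i hi j hj e := by
    unfold nx at e
    split_ifs at e with h1 h2 h2
    · exact P.inj i h1 j h2 e
    · exact absurd e (ne_of_mem_erase (P.xm i h1))
    · exact absurd e.symm (ne_of_mem_erase (P.xm j h2))
    · omega
  cover u hu := by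
    by_cases e : u = v
    · exact Or.inr ⟨P.n, by omega, by rw [nx, if_neg (lt_irrefl _), e]⟩
    · rcases P.cover u (mem_erase.2 ⟨e, hu⟩) with h | ⟨i, hi, h⟩
      · exact Or.inl h
      · exact Or.inr ⟨i, by omega, by rw [nx, if_pos hi, h]⟩
  xm i hi := by
    unfold nx
    split_ifs with h
    · exact mem_of_mem_erase (P.xm i h)
    · exact hv
  tm c := mem_of_mem_erase (P.tm c)

lemma ext_old [DecidableEq V] (v : V) (hv : v ∈ S) (P : PB V (S.erase v)) (N : Nd)
    (hN : rk N ≤ P.n) {A : Finset V} (h : P.Has A) : (ext v hv P N hN).Has A := by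
  rcases h with h | ⟨i, hi, h⟩
  · exact Or.inl h
  · refine Or.inr ⟨i, Nat.lt_succ_of_lt hi, fun a ha => ?_⟩
    change a = nx P v i ∨ ∃ c, ntri P N v (npar P N i) c = a
    rw [nx, if_pos hi, npar, if_pos hi, ntri_old P N v ((P.rk_par i).trans hi.le)]
    exact h a ha

lemma ext_new [DecidableEq V] (v : V) (hv : v ∈ S) (P : PB V (S.erase v)) (N : Nd)
    (hN : rk N ≤ P.n) {A : Finset V} (h : ∀ a ∈ A, a = v ∨ ∃ c, P.tri N c = a) :
    (ext v hv P N hN).Has A := by
  refine Or.inr ⟨P.n, Nat.lt_succ_self _, fun a ha => ?_⟩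
  change a = nx P v P.n ∨ ∃ c, ntri P N v (npar P N P.n) c = a
  rw [nx, if_neg (lt_irrefl _), npar, if_neg (lt_irrefl _), if_pos rfl, ntri_old P N v hN]
  exact h a ha

lemma main [DecidableEq V] {ι : Type} {T : SimpleGraph ι} (hT : T.IsTree) (B : ι → Finset V)
    (hc : ∀ v, (T.induce {t | v ∈ B t}).Connected) (h4 : ∀ t, (B t).card ≤ 3 + 1) :
    ∀ (k : ℕ) (S : Finset V), S.card = k + 1 →
      ∃ P : PB V S, ∀ A t, A ⊆ S → A ⊆ B t → P.Has A := by
  intro k
  induction k with
  | zero =>
    intro S hS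
    obtain ⟨v, rfl⟩ := card_eq_one.1 hS
    refine ⟨⟨0, fun _ => v, fun _ => none, fun _ _ => v, fun _ _ _ e => (by cases e),
      fun _ h => absurd h (Nat.not_lt_zero _), fun _ h => absurd h (Nat.not_lt_zero _),
      fun _ h => absurd h (Nat.not_lt_zero _), fun u hu => Or.inl ⟨0, (mem_singleton.1 hu).symm⟩,
      fun _ h => absurd h (Nat.not_lt_zero _), fun _ => mem_singleton_self _⟩, ?_⟩
    intro A t hA _
    exact Or.inl fun a ha => ⟨0, (mem_singleton.1 (hA ha)).symm⟩
  | succ k ih =>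
    intro S hS
    obtain ⟨v, hv, t0, h0, h1⟩ := elim hT B hc S (card_pos.1 (by omega))
    obtain ⟨P, hP⟩ := ih (S.erase v) (by rw [card_erase_of_mem hv]; omega)
    have hA : (B t0 ∩ S).erase v ⊆ S.erase v := erase_subset_erase _ inter_subset_right
    have hB : (B t0 ∩ S).erase v ⊆ B t0 := (erase_subset _ _).trans inter_subset_left
    have h3 : ((B t0 ∩ S).erase v).card ≤ 3 := by
      rw [card_erase_of_mem (mem_inter.2 ⟨h0, hv⟩)]
      have := card_le_card (inter_subset_left (s₁ := B t0) (s₂ := S))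
      have := h4 t0
      omega
    obtain ⟨N, hN, hn⟩ := P.node (hP _ t0 hA hB) h3
    refine ⟨ext v hv P N hN, fun A t a1 a2 => ?_⟩
    by_cases e : v ∈ A
    · refine ext_new v hv P N hN fun a ha => ?_
      by_cases e' : a = v
      · exact Or.inl e'
      · exact Or.inr (hn a (mem_erase.2 ⟨e', mem_inter.2 ⟨h1 a (a1 ha) t (a2 ha) (a2 e), a1 ha⟩⟩))
    · exact ext_old v hv P N hN (hP A t (fun a ha => mem_erase.2 ⟨fun e' => e (e' ▸ ha), a1 ha⟩) a2)

end TDM

theorem tdS : StmtTD := by
  intro V _ _ _ G ⟨ι, _, T, B, hT, he, hc, h4⟩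
  have hpos : 0 < (univ : Finset V).card := card_pos.2 univ_nonempty
  obtain ⟨P, hP⟩ := TDM.main hT B hc h4 ((univ : Finset V).card - 1) univ (by omega)
  refine ⟨⟨P.n, P.x, P.par, P.tri, P.lt, P.eq, P.fresh, P.inj, fun v => P.cover v (mem_univ v)⟩,
    fun u v huv => ?_⟩
  obtain ⟨t, h1, h2⟩ := he u v huv
  have hs : ({u, v} : Finset V) ⊆ B t := by
    intro a ha
    rcases mem_insert.1 ha with rfl | ha
    · exact h1
    · exact mem_singleton.1 ha ▸ h2
  have hu : u ∈ ({u, v} : Finset V) := mem_insert_self _ _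
  have hv : v ∈ ({u, v} : Finset V) := mem_insert_of_mem (mem_singleton_self _)
  rcases hP {u, v} t (subset_univ _) hs with h | ⟨i, hi, h⟩
  · obtain ⟨c, e⟩ := h u hu
    obtain ⟨c', e'⟩ := h v hv
    exact Or.inl ⟨c, c', e, e'⟩
  · exact Or.inr ⟨i, hi, h u hu, h v hv⟩

end Vale.Agent.P235
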