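import Vale.Agent.P235.Main
import Vale.Agent.P235.Red
import Vale.Agent.P235.TD
import Vale.Agent.P235.Met
import Vale.Agent.P235.Rec
import Vale.Agent.P235.Int
import Vale.Agent.P235.Dis
import Vale.Agent.P235.LB
import Vale.Agent.P235.Emb
import Vale.Agent.P235.Pair
import Vale.Agent.P235.Chain
import Vale.Agent.P235.Low
import Vale.Agent.P235.Alg
import Vale.Agent.P235.Pot

namespace Vale.Agent.P235

theorem topG (hG : StmtGame) : StmtMain :=
  mainS hG tdS metS recS intS (disS intS)
    (lbS intS (disS intS) (pairS intS algS) (chainS lowS algS) potS) (embS intS)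

theorem top (Sy : ℝ → ℝ → ℝ → ℝ → Prop) (hS : ∀ a b c d, Sy a b c d ∨ Sy c d a b)
    (hC : Core Sy) : StmtMain :=
  topG (redS Sy hS hC)

end Vale.Agent.P235
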